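import Mathlib

/-!
Finite probability laws and Shannon entropy of random variables, kept elementary.
Everything here is stated for a law `p : Ξ → ℝ` on a finite type.
-/

namespace Vale.Agent.Lib.P162

open Finset

variable {Ξ α β γ : Type*} [Fintype Ξ]

/-- A finite probability law. -/
def IsLaw (p : Ξ → ℝ) : Prop := (∀ x, 0 ≤ p x) ∧ ∑ x, p x = 1

open Classical in
/-- The probability that `X = a`. -/
noncomputable def mass (p : Ξ → ℝ) (X : Ξ → α) (a : α) : ℝ :=
  ∑ y, if X y = a then p y else 0

/-- Shannon entropy (in nats) of the random variable `X` under `p`. -/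
noncomputable def H (p : Ξ → ℝ) (X : Ξ → α) : ℝ :=
  - ∑ x, p x * Real.log (mass p X (X x))

variable {p : Ξ → ℝ}

theorem mass_nonneg (hp : IsLaw p) (X : Ξ → α) (a : α) : 0 ≤ mass p X a := by
  classical
  unfold mass
  refine Finset.sum_nonneg fun y _ => ?_
  split_ifs
  · exact hp.1 y
  · exact le_rfl

theorem le_mass (hp : IsLaw p) (X : Ξ → α) (x : Ξ) : p x ≤ mass p X (X x) := by
  classical
  unfold mass
  have h := Finset.single_le_sum (f := fun y => if X y = X x then p y else 0)
    (s := Finset.univ) (fun y _ => by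
      show 0 ≤ (if X y = X x then p y else 0)
      split_ifs
      · exact hp.1 y
      · exact le_rfl) (Finset.mem_univ x)
  simpa using h

theorem mass_pos (hp : IsLaw p) (X : Ξ → α) {x : Ξ} (hx : 0 < p x) : 0 < mass p X (X x) :=
  lt_of_lt_of_le hx (le_mass hp X x)

theorem mass_le_one (hp : IsLaw p) (X : Ξ → α) (a : α) : mass p X a ≤ 1 := by
  classical
  unfold mass
  calc (∑ y, if X y = a then p y else 0) ≤ ∑ y, p y := by
        refine Finset.sum_le_sum fun y _ => ?_
        split_ifs
        · exact le_rfl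
        · exact hp.1 y
    _ = 1 := hp.2

/-- Splitting a sum over the fibres of `X`. -/
theorem sum_fiber [Fintype α] (X : Ξ → α) (F : Ξ → ℝ) :
    ∑ x, F x = ∑ a, ∑ x, (open Classical in if X x = a then F x else 0) := by
  classical
  rw [Finset.sum_comm]
  refine Finset.sum_congr rfl fun x _ => ?_
  simp

theorem sum_mass [Fintype α] (X : Ξ → α) : ∑ a, mass p X a = ∑ x, p x := by
  classical
  unfold mass
  rw [sum_fiber X p]

theorem mass_congr {X : Ξ → α} {X' : Ξ → β} {a : α} {a' : β} (h : ∀ y, X y = a ↔ X' y = a') :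
    mass p X a = mass p X' a' := by
  classical
  unfold mass
  refine Finset.sum_congr rfl fun y _ => ?_
  by_cases hy : X y = a
  · rw [if_pos hy, if_pos ((h y).1 hy)]
  · rw [if_neg hy, if_neg (fun hh => hy ((h y).2 hh))]

/-- Entropy depends only on the partition induced by the variable. -/
theorem H_congr {X : Ξ → α} {X' : Ξ → β} (h : ∀ x y, X x = X y ↔ X' x = X' y) :
    H p X = H p X' := by
  unfold H
  congr 1
  refine Finset.sum_congr rfl fun x _ => ?_
  rw [mass_congr (a := X x) (a' := X' x) (fun y => h y x)]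

theorem mass_congr_supp (hp : IsLaw p) {X X' : Ξ → α} (h : ∀ x, 0 < p x → X x = X' x) (a : α) :
    mass p X a = mass p X' a := by
  classical
  unfold mass
  refine Finset.sum_congr rfl fun y _ => ?_
  rcases (hp.1 y).eq_or_lt with hy | hy
  · rw [← hy]; simp
  · rw [h y hy]

theorem mass_mono (hp : IsLaw p) {X : Ξ → α} {Z : Ξ → β} (h : ∀ x y, X x = X y → Z x = Z y)
    (x : Ξ) : mass p X (X x) ≤ mass p Z (Z x) := by
  classical
  unfold mass
  refine Finset.sum_le_sum fun y _ => ?_
  by_cases hy : X y = X x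
  · rw [if_pos hy, if_pos (h y x hy)]
  · rw [if_neg hy]
    split_ifs
    · exact hp.1 y
    · exact le_rfl

/-- A function of `X` has at most the entropy of `X`. -/
theorem H_mono (hp : IsLaw p) {X : Ξ → α} {Z : Ξ → β} (h : ∀ x y, X x = X y → Z x = Z y) :
    H p Z ≤ H p X := by
  unfold H
  apply neg_le_neg
  refine Finset.sum_le_sum fun x _ => ?_
  rcases (hp.1 x).eq_or_lt with hx | hx
  · rw [← hx]; simp
  · refine mul_le_mul_of_nonneg_left ?_ hx.le
    exact Real.log_le_log (mass_pos hp X hx) (mass_mono hp h x)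

theorem H_nonneg (hp : IsLaw p) (X : Ξ → α) : 0 ≤ H p X := by
  unfold H
  rw [neg_nonneg]
  refine Finset.sum_nonpos fun x _ => ?_
  refine mul_nonpos_of_nonneg_of_nonpos (hp.1 x) ?_
  exact Real.log_nonpos (mass_nonneg hp X _) (mass_le_one hp X _)

theorem H_const (hp : IsLaw p) (a : α) : H p (fun _ : Ξ => a) = 0 := by
  classical
  unfold H mass
  simp [hp.2]

/-- The cross-entropy (Gibbs) inequality. -/
theorem H_le_cross [Fintype α] (hp : IsLaw p) (X : Ξ → α) (b : α → ℝ) (hb0 : ∀ a, 0 ≤ b a)
    (hb1 : ∑ a, b a ≤ 1) (hpos : ∀ x, 0 < p x → 0 < b (X x)) :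
    H p X ≤ - ∑ x, p x * Real.log (b (X x)) := by
  classical
  -- pointwise bound
  have h1 : ∀ x, p x * Real.log (b (X x)) - p x * Real.log (mass p X (X x))
      ≤ p x * (b (X x) / mass p X (X x)) - p x := by
    intro x
    rcases (hp.1 x).eq_or_lt with hx | hx
    · rw [← hx]; simp
    · have hm := mass_pos hp X hx
      have hb := hpos x hx
      have hl : Real.log (b (X x) / mass p X (X x)) ≤ b (X x) / mass p X (X x) - 1 :=
        Real.log_le_sub_one_of_pos (div_pos hb hm)
      rw [Real.log_div hb.ne' hm.ne'] at hl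
      nlinarith [mul_le_mul_of_nonneg_left hl hx.le]
  have h2 : ∑ x, p x * (b (X x) / mass p X (X x)) ≤ 1 := by
    rw [sum_fiber X]
    calc _ ≤ ∑ a, b a := by
          refine Finset.sum_le_sum fun a _ => ?_
          have : ∑ x, (if X x = a then p x * (b (X x) / mass p X (X x)) else 0)
              = (b a / mass p X a) * mass p X a := by
            unfold mass
            rw [Finset.mul_sum]
            refine Finset.sum_congr rfl fun x _ => ?_
            by_cases hx : X x = a
            · rw [if_pos hx, if_pos hx, hx]; ring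
            · rw [if_neg hx, if_neg hx]; ring
          rw [this]
          by_cases hm : mass p X a = 0
          · rw [hm]; simpa using hb0 a
          · rw [div_mul_cancel₀ _ hm]
      _ ≤ 1 := hb1
  have h3 := Finset.sum_le_sum fun x (_ : x ∈ Finset.univ) => h1 x
  rw [Finset.sum_sub_distrib, Finset.sum_sub_distrib, hp.2] at h3
  unfold H
  linarith

/-- Entropy is at most the log of the size of a set carrying the support. -/
theorem H_le_log_card (hp : IsLaw p) (X : Ξ → α) (S : Finset α)
    (hS : ∀ x, 0 < p x → X x ∈ S) : H p X ≤ Real.log S.card := by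
  classical
  -- reduce to the subtype of values in S
  have hne : S.Nonempty := by
    by_contra hne
    rw [Finset.not_nonempty_iff_eq_empty] at hne
    have : ∀ x, p x = 0 := fun x => by
      rcases (hp.1 x).eq_or_lt with hx | hx
      · exact hx.symm
      · have := hS x hx; simp [hne] at this
    have h0 : ∑ x, p x = 0 := Finset.sum_eq_zero fun x _ => this x
    rw [hp.2] at h0; exact one_ne_zero h0
  obtain ⟨a0, ha0⟩ := hne
  let X' : Ξ → S := fun x => if h : X x ∈ S then ⟨X x, h⟩ else ⟨a0, ha0⟩
  have hcard : (0 : ℝ) < S.card := by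
    exact_mod_cast Finset.card_pos.mpr ⟨a0, ha0⟩
  -- entropy of X equals that of X' up to null sets: use the direct Gibbs computation
  have h1 : ∀ x, p x * Real.log (1 / S.card) - p x * Real.log (mass p X (X x))
      ≤ p x * ((1 / S.card) / mass p X (X x)) - p x := by
    intro x
    rcases (hp.1 x).eq_or_lt with hx | hx
    · rw [← hx]; simp
    · have hm := mass_pos hp X hx
      have hb : (0 : ℝ) < 1 / S.card := by positivity
      have hl : Real.log ((1 / S.card) / mass p X (X x)) ≤ (1 / S.card) / mass p X (X x) - 1 :=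
        Real.log_le_sub_one_of_pos (div_pos hb hm)
      rw [Real.log_div hb.ne' hm.ne'] at hl
      nlinarith [mul_le_mul_of_nonneg_left hl hx.le]
  have h2 : ∑ x, p x * ((1 / S.card) / mass p X (X x)) ≤ 1 := by
    have key : ∀ x, p x * ((1 / S.card) / mass p X (X x))
        = ∑ a ∈ S, (if X x = a then p x * ((1 / S.card) / mass p X a) else 0) := by
      intro x
      by_cases hx : X x ∈ S
      · rw [Finset.sum_ite_eq S (X x)]; simp [hx]
      · have : p x = 0 := by
          rcases (hp.1 x).eq_or_lt with h | h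
          · exact h.symm
          · exact absurd (hS x h) hx
        rw [this, zero_mul]
        symm
        refine Finset.sum_eq_zero fun a _ => ?_
        split_ifs <;> simp
    simp_rw [key]
    rw [Finset.sum_comm]
    calc _ ≤ ∑ a ∈ S, (1 / (S.card : ℝ)) := by
          refine Finset.sum_le_sum fun a _ => ?_
          have : ∑ x, (if X x = a then p x * ((1 / S.card) / mass p X a) else 0)
              = ((1 / S.card) / mass p X a) * mass p X a := by
            unfold mass
            rw [Finset.mul_sum]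
            refine Finset.sum_congr rfl fun x _ => ?_
            by_cases hx : X x = a
            · rw [if_pos hx, if_pos hx]; ring
            · rw [if_neg hx, if_neg hx]; ring
          rw [this]
          by_cases hm : mass p X a = 0
          · rw [hm]; simp
          · rw [div_mul_cancel₀ _ hm]
      _ = 1 := by
          rw [Finset.sum_const, nsmul_eq_mul]
          field_simp
  have h3 := Finset.sum_le_sum fun x (_ : x ∈ Finset.univ) => h1 x
  rw [Finset.sum_sub_distrib, Finset.sum_sub_distrib, hp.2, ← Finset.sum_mul, hp.2] at h3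
  unfold H
  have h4 : Real.log (1 / (S.card : ℝ)) = - Real.log S.card := by
    rw [one_div, Real.log_inv]
  rw [h4] at h3
  linarith

/-- Transfer of a weighted sum to the underlying space. -/
theorem sum_mass_mul [Fintype α] (X : Ξ → α) (F : α → ℝ) :
    ∑ a, mass p X a * F a = ∑ x, p x * F (X x) := by
  classical
  rw [sum_fiber X (fun x => p x * F (X x))]
  refine Finset.sum_congr rfl fun a _ => ?_
  unfold mass
  rw [Finset.sum_mul]
  refine Finset.sum_congr rfl fun x _ => ?_
  by_cases h : X x = a
  · rw [if_pos h, if_pos h, h]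
  · rw [if_neg h, if_neg h, zero_mul]

/-- Marginalisation of the joint mass. -/
theorem sum_mass_fst [Fintype α] (X : Ξ → α) (Z : Ξ → γ) (c : γ) :
    ∑ a, mass p (fun x => (X x, Z x)) (a, c) = mass p Z c := by
  classical
  unfold mass
  rw [Finset.sum_comm]
  refine Finset.sum_congr rfl fun y _ => ?_
  by_cases hy : Z y = c
  · simp [hy]
  · simp [hy]

theorem mass_pair_le (hp : IsLaw p) (X : Ξ → α) (Z : Ξ → γ) (a : α) (c : γ) :
    mass p (fun x => (X x, Z x)) (a, c) ≤ mass p Z c := by
  classical
  unfold mass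
  refine Finset.sum_le_sum fun y _ => ?_
  by_cases hy : Z y = c
  · rw [if_pos hy]
    split_ifs
    · exact le_rfl
    · exact hp.1 y
  · have : ¬ (X y, Z y) = (a, c) := fun h => hy (Prod.ext_iff.1 h).2
    rw [if_neg hy, if_neg this]

/-- Submodularity of entropy: conditioning reduces entropy. -/
theorem H_submod [Fintype α] [Fintype β] [Fintype γ] (hp : IsLaw p)
    (X : Ξ → α) (Y : Ξ → β) (Z : Ξ → γ) :
    H p (fun x => (X x, Y x, Z x)) + H p Z
      ≤ H p (fun x => (X x, Z x)) + H p (fun x => (Y x, Z x)) := by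
  classical
  set mXZ := mass p (fun x => (X x, Z x)) with hmXZ
  set mYZ := mass p (fun x => (Y x, Z x)) with hmYZ
  set mZ := mass p Z with hmZ
  let b : α × β × γ → ℝ := fun t => mXZ (t.1, t.2.2) * mYZ (t.2.1, t.2.2) / mZ t.2.2
  have hb0 : ∀ t, 0 ≤ b t := fun t =>
    div_nonneg (mul_nonneg (mass_nonneg hp _ _) (mass_nonneg hp _ _)) (mass_nonneg hp _ _)
  have hb1 : ∑ t, b t ≤ 1 := by
    rw [Fintype.sum_prod_type]
    simp_rw [Fintype.sum_prod_type]
    have hstep : ∑ a : α, ∑ b' : β, ∑ c : γ, b (a, b', c)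
        = ∑ c : γ, ∑ a : α, ∑ b' : β, b (a, b', c) := by
      calc ∑ a : α, ∑ b' : β, ∑ c : γ, b (a, b', c)
          = ∑ a : α, ∑ c : γ, ∑ b' : β, b (a, b', c) :=
            Finset.sum_congr rfl fun a _ => Finset.sum_comm
        _ = ∑ c : γ, ∑ a : α, ∑ b' : β, b (a, b', c) := Finset.sum_comm
    rw [hstep]
    have hc : ∀ c : γ, ∑ a : α, ∑ b' : β, b (a, b', c) = mZ c := by
      intro c
      have h1 : ∑ a : α, ∑ b' : β, b (a, b', c)
          = (∑ a : α, mXZ (a, c)) * (∑ b' : β, mYZ (b', c)) / mZ c := by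
        rw [Finset.sum_mul_sum, Finset.sum_div]
        refine Finset.sum_congr rfl fun a _ => ?_
        rw [Finset.sum_div]
      rw [h1, hmXZ, hmYZ, sum_mass_fst X Z c, sum_mass_fst Y Z c]
      by_cases hm : mZ c = 0
      · rw [hmZ] at hm ⊢; rw [hm]; simp
      · rw [← hmZ]; field_simp
    simp_rw [hc]
    rw [hmZ, sum_mass Z, hp.2]
  have hpos : ∀ x, 0 < p x → 0 < b (X x, Y x, Z x) := by
    intro x hx
    exact div_pos (mul_pos (mass_pos hp (fun x => (X x, Z x)) hx)
      (mass_pos hp (fun x => (Y x, Z x)) hx)) (mass_pos hp Z hx)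
  have h := H_le_cross hp (fun x => (X x, Y x, Z x)) b hb0 hb1 hpos
  have h2 : ∑ x, p x * Real.log (b (X x, Y x, Z x))
      = ∑ x, p x * Real.log (mXZ (X x, Z x)) + ∑ x, p x * Real.log (mYZ (Y x, Z x))
        - ∑ x, p x * Real.log (mZ (Z x)) := by
    rw [← Finset.sum_add_distrib, ← Finset.sum_sub_distrib]
    refine Finset.sum_congr rfl fun x _ => ?_
    rcases (hp.1 x).eq_or_lt with hx | hx
    · rw [← hx]; simp
    · have h1 := mass_pos hp (fun x => (X x, Z x)) hx
      have h2 := mass_pos hp (fun x => (Y x, Z x)) hx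
      have h3 := mass_pos hp Z hx
      show p x * Real.log (mXZ (X x, Z x) * mYZ (Y x, Z x) / mZ (Z x)) = _
      rw [Real.log_div (mul_pos h1 h2).ne' h3.ne', Real.log_mul h1.ne' h2.ne']
      ring
  rw [h2] at h
  unfold H at h ⊢
  linarith

/-- Subadditivity of entropy. -/
theorem H_pair_le [Fintype α] [Fintype β] (hp : IsLaw p) (X : Ξ → α) (Y : Ξ → β) :
    H p (fun x => (X x, Y x)) ≤ H p X + H p Y := by
  classical
  have h := H_submod (γ := Unit) hp X Y (fun _ => ())
  have h0 : H p (fun _ : Ξ => ()) = 0 := H_const hp ()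
  have h1 : H p (fun x => (X x, Y x, ())) = H p (fun x => (X x, Y x)) :=
    H_congr (fun x y => by simp)
  have h2 : H p (fun x => (X x, ())) = H p X := H_congr (fun x y => by simp)
  have h3 : H p (fun x => (Y x, ())) = H p Y := H_congr (fun x y => by simp)
  rw [h0, h1, h2, h3] at h
  linarith

/-! ### Invariance under measure preserving bijections -/

theorem mass_comp_equiv (g : Ξ ≃ Ξ) (hg : ∀ x, p (g x) = p x) (X : Ξ → α) (a : α) :
    mass p (fun x => X (g x)) a = mass p X a := by
  classical
  unfold mass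
  rw [← Equiv.sum_comp g (fun y => if X y = a then p y else 0)]
  refine Finset.sum_congr rfl fun y _ => ?_
  by_cases h : X (g y) = a
  · rw [if_pos h, if_pos h, hg]
  · rw [if_neg h, if_neg h]

/-! ### Conditional laws -/

open Classical in
/-- The law `p` conditioned on `Z = z`. -/
noncomputable def condL (p : Ξ → ℝ) (Z : Ξ → γ) (z : γ) : Ξ → ℝ :=
  fun x => if Z x = z then p x / mass p Z z else 0

theorem condL_isLaw (hp : IsLaw p) (Z : Ξ → γ) (z : γ) (hz : 0 < mass p Z z) :
    IsLaw (condL p Z z) := by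
  classical
  constructor
  · intro x
    unfold condL
    split_ifs
    · exact div_nonneg (hp.1 x) hz.le
    · exact le_rfl
  · unfold condL
    have : ∑ x, (if Z x = z then p x / mass p Z z else 0)
        = (∑ x, if Z x = z then p x else 0) / mass p Z z := by
      rw [Finset.sum_div]
      refine Finset.sum_congr rfl fun x _ => ?_
      split_ifs
      · rfl
      · simp
    rw [this]
    show mass p Z z / mass p Z z = 1
    exact div_self hz.ne'

theorem mass_condL (X : Ξ → α) (Z : Ξ → γ) (z : γ) (a : α) :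
    mass (condL p Z z) X a = mass p (fun x => (X x, Z x)) (a, z) / mass p Z z := by
  classical
  unfold condL
  generalize mass p Z z = m
  unfold mass
  rw [Finset.sum_div]
  refine Finset.sum_congr rfl fun y _ => ?_
  by_cases h1 : X y = a <;> by_cases h2 : Z y = z <;> simp [h1, h2]

/-- Conditional entropy is the average of the entropies of the conditional laws. -/
theorem H_cond_avg [Fintype γ] (hp : IsLaw p) (X : Ξ → α) (Z : Ξ → γ) :
    ∑ z, mass p Z z * H (condL p Z z) X = H p (fun x => (X x, Z x)) - H p Z := by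
  classical
  have key : ∀ z, mass p Z z * H (condL p Z z) X
      = - ∑ x, (if Z x = z then
          p x * (Real.log (mass p (fun x => (X x, Z x)) (X x, Z x)) - Real.log (mass p Z (Z x)))
          else 0) := by
    intro z
    by_cases hm : mass p Z z = 0
    · -- all atoms have p x = 0
      have h0 : ∀ x, Z x = z → p x = 0 := by
        intro x hx
        have := le_mass hp Z x
        rw [hx, hm] at this
        exact le_antisymm this (hp.1 x)
      rw [hm, zero_mul]
      symm
      rw [neg_eq_zero]
      refine Finset.sum_eq_zero fun x _ => ?_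
      by_cases hx : Z x = z
      · rw [if_pos hx, h0 x hx, zero_mul]
      · rw [if_neg hx]
    · unfold H
      rw [mul_neg, Finset.mul_sum]
      congr 1
      refine Finset.sum_congr rfl fun x _ => ?_
      by_cases hx : Z x = z
      · rw [if_pos hx]
        have hcx : condL p Z z x = p x / mass p Z z := by
          unfold condL; rw [if_pos hx]
        rw [hcx, mass_condL X Z z (X x)]
        rcases (hp.1 x).eq_or_lt with hpx | hpx
        · rw [← hpx]; simp
        · have h1 : 0 < mass p (fun x => (X x, Z x)) (X x, z) := by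
            have := mass_pos hp (fun x => (X x, Z x)) hpx
            rwa [hx] at this
          have hmz : 0 < mass p Z z := lt_of_le_of_ne (mass_nonneg hp Z z) (Ne.symm hm)
          rw [Real.log_div h1.ne' hmz.ne', hx]
          field_simp
      · have hcx : condL p Z z x = 0 := by
          unfold condL; rw [if_neg hx]
        rw [hcx, if_neg hx]; simp
  simp_rw [key]
  rw [Finset.sum_neg_distrib, ← sum_fiber Z]
  unfold H
  simp only [mul_sub, Finset.sum_sub_distrib]
  ring

/-- Averaging an entropy inequality over the values of a conditioning variable. -/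
theorem cond_average [Fintype γ] {δ ε : Type*} (hp : IsLaw p) (Z : Ξ → γ) (c : Ξ → δ) (y : Ξ → ε)
    (κ C₁ C₂ : ℝ)
    (h : ∀ z, 0 < mass p Z z →
      κ * (C₁ - H (condL p Z z) c) ≤ C₂ - (H (condL p Z z) (fun x => (c x, y x)) - H (condL p Z z) y)) :
    κ * (C₁ - (H p (fun x => (c x, Z x)) - H p Z))
      ≤ C₂ - (H p (fun x => ((c x, y x), Z x)) - H p (fun x => (y x, Z x))) := by
  have h1 := H_cond_avg hp c Z
  have h2 := H_cond_avg hp (fun x => (c x, y x)) Z
  have h3 := H_cond_avg hp y Z
  have hsum : ∑ z, mass p Z z = 1 := by rw [sum_mass Z, hp.2]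
  have key : ∑ z, mass p Z z * (κ * (C₁ - H (condL p Z z) c))
      ≤ ∑ z, mass p Z z * (C₂ - (H (condL p Z z) (fun x => (c x, y x)) - H (condL p Z z) y)) := by
    refine Finset.sum_le_sum fun z _ => ?_
    rcases (mass_nonneg hp Z z).eq_or_lt with hz | hz
    · rw [← hz]; simp
    · exact mul_le_mul_of_nonneg_left (h z hz) hz.le
  have e1 : ∑ z, mass p Z z * (κ * (C₁ - H (condL p Z z) c))
      = κ * (C₁ * ∑ z, mass p Z z - ∑ z, mass p Z z * H (condL p Z z) c) := by
    have : ∀ z, mass p Z z * (κ * (C₁ - H (condL p Z z) c))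
        = κ * (C₁ * mass p Z z - mass p Z z * H (condL p Z z) c) := fun z => by ring
    simp_rw [this]
    rw [← Finset.mul_sum, Finset.sum_sub_distrib, ← Finset.mul_sum]
  have e2 : ∑ z, mass p Z z * (C₂ - (H (condL p Z z) (fun x => (c x, y x)) - H (condL p Z z) y))
      = C₂ * ∑ z, mass p Z z - (∑ z, mass p Z z * H (condL p Z z) (fun x => (c x, y x))
        - ∑ z, mass p Z z * H (condL p Z z) y) := by
    have : ∀ z, mass p Z z * (C₂ - (H (condL p Z z) (fun x => (c x, y x)) - H (condL p Z z) y))
        = C₂ * mass p Z z - (mass p Z z * H (condL p Z z) (fun x => (c x, y x))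
          - mass p Z z * H (condL p Z z) y) := fun z => by ring
    simp_rw [this]
    rw [Finset.sum_sub_distrib, Finset.sum_sub_distrib, ← Finset.mul_sum]
  rw [e1, e2, hsum, h1, h2, h3, mul_one, mul_one] at key
  linarith

/-! ### From relative entropy to total variation -/

/-- Relative entropy controls the `L¹` distance: a Hellinger type Pinsker inequality. -/
theorem l1_sq_le {τ : Type*} [Fintype τ] (ν π : τ → ℝ) (hν : IsLaw ν) (hπ : IsLaw π)
    (hac : ∀ x, π x = 0 → ν x = 0) :
    (∑ x, |ν x - π x|) ^ 2 ≤ 4 * ∑ x, ν x * (Real.log (ν x) - Real.log (π x)) := by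
  have hpt : ∀ x, (Real.sqrt (ν x) - Real.sqrt (π x)) ^ 2
      ≤ ν x * (Real.log (ν x) - Real.log (π x)) - ν x + π x := by
    intro x
    have h1 := hν.1 x
    have h2 := hπ.1 x
    have s1 := Real.sq_sqrt h1
    have s2 := Real.sq_sqrt h2
    rcases h1.eq_or_lt with h0 | h0
    · have e : Real.sqrt (ν x) = 0 := by rw [← h0]; simp
      rw [e, ← h0]
      simp only [zero_mul, zero_sub, sub_zero, zero_add]
      rw [neg_sq, s2]
    · have hπ0 : 0 < π x := by
        rcases h2.eq_or_lt with h | h
        · exact absurd (hac x h.symm) h0.ne'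
        · exact h
      have r1 := Real.sqrt_pos.2 h0
      have r2 := Real.sqrt_pos.2 hπ0
      have hl : 1 - (Real.sqrt (π x) / Real.sqrt (ν x)) ≤ Real.log (Real.sqrt (ν x) / Real.sqrt (π x)) := by
        have := Real.one_sub_inv_le_log_of_pos (div_pos r1 r2)
        rwa [inv_div] at this
      rw [Real.log_div r1.ne' r2.ne', Real.log_sqrt h1, Real.log_sqrt h2] at hl
      have h3 : ν x * (1 - Real.sqrt (π x) / Real.sqrt (ν x))
          = ν x - Real.sqrt (π x) * Real.sqrt (ν x) := by
        field_simp
        nlinarith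
      have h4 := mul_le_mul_of_nonneg_left hl h1
      rw [h3] at h4
      nlinarith
  have hsum : ∑ x, (Real.sqrt (ν x) - Real.sqrt (π x)) ^ 2
      ≤ ∑ x, ν x * (Real.log (ν x) - Real.log (π x)) := by
    have := Finset.sum_le_sum fun x (_ : x ∈ Finset.univ) => hpt x
    rw [Finset.sum_add_distrib, Finset.sum_sub_distrib, hν.2, hπ.2] at this
    linarith
  have hcs : (∑ x, |ν x - π x|) ^ 2 ≤ (∑ x, (Real.sqrt (ν x) - Real.sqrt (π x)) ^ 2)
      * ∑ x, (Real.sqrt (ν x) + Real.sqrt (π x)) ^ 2 := by
    have e : ∀ x, |ν x - π x| = |Real.sqrt (ν x) - Real.sqrt (π x)| * (Real.sqrt (ν x) + Real.sqrt (π x)) := by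
      intro x
      have s1 := Real.sq_sqrt (hν.1 x)
      have s2 := Real.sq_sqrt (hπ.1 x)
      have : ν x - π x = (Real.sqrt (ν x) - Real.sqrt (π x)) * (Real.sqrt (ν x) + Real.sqrt (π x)) := by
        nlinarith
      rw [this, abs_mul, abs_of_nonneg (add_nonneg (Real.sqrt_nonneg _) (Real.sqrt_nonneg _))]
    simp_rw [e]
    have := Finset.sum_mul_sq_le_sq_mul_sq Finset.univ
      (fun x => |Real.sqrt (ν x) - Real.sqrt (π x)|) (fun x => Real.sqrt (ν x) + Real.sqrt (π x))
    simpa [sq_abs] using this
  have h4 : ∑ x, (Real.sqrt (ν x) + Real.sqrt (π x)) ^ 2 ≤ 4 := by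
    have : ∀ x, (Real.sqrt (ν x) + Real.sqrt (π x)) ^ 2 ≤ 2 * ν x + 2 * π x := by
      intro x
      have s1 := Real.sq_sqrt (hν.1 x)
      have s2 := Real.sq_sqrt (hπ.1 x)
      nlinarith [sq_nonneg (Real.sqrt (ν x) - Real.sqrt (π x))]
    have h5 := Finset.sum_le_sum fun x (_ : x ∈ Finset.univ) => this x
    rw [Finset.sum_add_distrib, ← Finset.mul_sum, ← Finset.mul_sum, hν.2, hπ.2] at h5
    linarith
  have h5 : 0 ≤ ∑ x, (Real.sqrt (ν x) - Real.sqrt (π x)) ^ 2 :=
    Finset.sum_nonneg fun x _ => sq_nonneg _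
  calc _ ≤ _ := hcs
    _ ≤ (∑ x, (Real.sqrt (ν x) - Real.sqrt (π x)) ^ 2) * 4 := mul_le_mul_of_nonneg_left h4 h5
    _ ≤ _ := by nlinarith

end Vale.Agent.Lib.P162
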