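import Vale.Agent.Lib.P162.KThree
import Vale.Agent.Lib.P162.Entropy

/-!
The block inequality for large blocks.
-/

set_option linter.unusedSectionVars false
set_option linter.unusedVariables false

namespace Vale.Agent.Lib.P162

open Finset

theorem exists_pow_bound : ∃ t0 : ℕ, ∀ t : ℕ, t0 ≤ t → 2 * 75600 ^ 2 * (t : ℝ) ^ 10 ≤ (2 : ℝ) ^ t := by
  have h := tendsto_pow_const_div_const_pow_of_one_lt 10 (r := (2 : ℝ)) (by norm_num)
  have hε : (0 : ℝ) < 1 / (2 * 75600 ^ 2) := by norm_num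
  have h2 := h.eventually (gt_mem_nhds hε)
  obtain ⟨t0, ht0⟩ := Filter.eventually_atTop.1 h2
  refine ⟨t0, fun t ht => ?_⟩
  have h3 := ht0 t ht
  have h4 : (0 : ℝ) < 2 ^ t := by positivity
  rw [div_lt_iff₀ h4] at h3
  have h5 : (0 : ℝ) < 2 * 75600 ^ 2 := by norm_num
  have h6 := mul_le_mul_of_nonneg_left h3.le h5.le
  have h7 : 2 * 75600 ^ 2 * (1 / (2 * 75600 ^ 2) * (2 : ℝ) ^ t) = 2 ^ t := by
    field_simp
  rwa [h7] at h6

/-- The numerical hypothesis of the core estimate holds for large blocks. -/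
theorem K3_cond {W : Type*} [Fintype W] [DecidableEq W] {s : ℕ} (hs : 30 ≤ s)
    (ht : 2 * 75600 ^ 2 * (((s + 1 : ℕ) : ℝ)) ^ 10 ≤ (2 : ℝ) ^ (s + 1))
    (hW : Fintype.card W = 4 * 2 ^ s) :
    Psi W (2 ^ s) / ((2 * 2 ^ s : ℕ) : ℝ) *
      (15120 * (Real.log (Psi W (2 ^ s)) / (1 / (2 * ((s : ℝ) + 1) ^ 2))) + 840 * cc W (2 ^ s) ^ 2)
      ≤ 1 / (2 * ((s : ℝ) + 1) ^ 2) := by
  set M' := 2 ^ s with hM'def
  have hM'1 : 1 ≤ M' := Nat.one_le_two_pow
  have hW' : Fintype.card W = 2 * (2 * M') := by omega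
  have hMr : ((M' : ℕ) : ℝ) = (2 : ℝ) ^ s := by rw [hM'def]; push_cast; ring
  set t : ℝ := (s : ℝ) + 1 with ht'
  have hs0 : (30 : ℝ) ≤ s := by exact_mod_cast hs
  have ht1 : 1 ≤ t := by linarith
  have ht0 : 0 < t := by linarith
  have hPsi := Psi_pos hW
  have hPsi1 := one_le_Psi hW
  have hq := qq_pos hW'
  have hq1 := qq_le_one (W := W) (2 * M')
  have hlog2 : Real.log 2 ≤ 1 := by
    have := Real.log_two_lt_d9; linarith
  have hlog20 : 0 ≤ Real.log 2 := by
    have := Real.log_two_gt_d9; linarith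
  -- the bound for `Psi`
  have hP2 := Psi_sq_le hM'1 hW
  have hlogPsi : Real.log (Psi W M') ≤ t := by
    have h1 : Real.log (Psi W M' ^ 2) ≤ Real.log (4 * (M' : ℝ)) :=
      Real.log_le_log (by positivity) hP2
    rw [Real.log_pow] at h1
    have h2 : (4 : ℝ) * (M' : ℝ) = 2 ^ (s + 2) := by
      rw [hMr, pow_add]; norm_num; ring
    rw [h2, Real.log_pow] at h1
    push_cast at h1
    have h3 : ((s : ℝ) + 2) * Real.log 2 ≤ (s : ℝ) + 2 := by nlinarith
    linarith
  have hlogPsi0 : 0 ≤ Real.log (Psi W M') := Real.log_nonneg hPsi1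
  -- the bound for `cc`
  have hq2 := qq_sq_ge hM'1 hW
  have hlogq : - Real.log (qq W (2 * M')) ≤ ((s : ℝ) + 3) / 2 := by
    have h1 : Real.log (1 / (8 * (M' : ℝ))) ≤ Real.log (qq W (2 * M') ^ 2) :=
      Real.log_le_log (by positivity) hq2
    rw [Real.log_pow] at h1
    have h2 : (8 : ℝ) * (M' : ℝ) = 2 ^ (s + 3) := by
      rw [hMr, pow_add]; norm_num; ring
    rw [h2, one_div, Real.log_inv, Real.log_pow] at h1
    push_cast at h1
    have h3 : ((s : ℝ) + 3) * Real.log 2 ≤ (s : ℝ) + 3 := by nlinarith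
    linarith
  have hlogJ : Real.log ((4 * M' : ℕ) : ℝ) ≤ (s : ℝ) + 2 := by
    have h2 : ((4 * M' : ℕ) : ℝ) = 2 ^ (s + 2) := by
      push_cast
      rw [hMr, pow_add]; norm_num; ring
    rw [h2, Real.log_pow]
    push_cast
    nlinarith
  have hc : cc W M' ≤ 3 * t := by
    unfold cc
    rw [ht']
    linarith
  have hc2 : 0 ≤ cc W M' := by
    unfold cc
    have h1 : 0 ≤ - Real.log (qq W (2 * M')) := by
      have := Real.log_nonpos hq.le hq1
      linarith
    have h2 : 0 ≤ Real.log ((4 * M' : ℕ) : ℝ) := by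
      apply Real.log_nonneg
      have : 1 ≤ 4 * M' := by omega
      exact_mod_cast this
    linarith
  have hcsq : cc W M' ^ 2 ≤ 9 * t ^ 2 := by
    have := pow_le_pow_left₀ hc2 hc 2
    nlinarith
  set η := Psi W M' / ((2 * M' : ℕ) : ℝ) with hη
  have hMpos : (0 : ℝ) < ((2 * M' : ℕ) : ℝ) := by
    have : 0 < 2 * M' := by omega
    exact_mod_cast this
  have hη0 : 0 ≤ η := by positivity
  have hηsq : η ^ 2 * (2 : ℝ) ^ s ≤ 1 := by
    rw [hη, div_pow]
    have e : ((2 * M' : ℕ) : ℝ) ^ 2 = 4 * (2 : ℝ) ^ s * (2 : ℝ) ^ s := by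
      push_cast
      rw [hMr]; ring
    rw [e]
    have h4 : (0 : ℝ) < (2 : ℝ) ^ s := by positivity
    rw [div_mul_eq_mul_div, div_le_one (by positivity)]
    rw [hMr] at hP2
    nlinarith
  -- the final computation
  have hbig : (75600 * t ^ 5) ^ 2 ≤ (2 : ℝ) ^ s := by
    have h1 : ((s + 1 : ℕ) : ℝ) = t := by rw [ht']; push_cast; ring
    rw [h1] at ht
    have h2 : (2 : ℝ) ^ (s + 1) = 2 * 2 ^ s := by ring
    have h3 : (75600 * t ^ 5) ^ 2 = 75600 ^ 2 * t ^ 10 := by ring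
    rw [h2] at ht
    rw [h3]
    linarith
  have hsmall : η * (75600 * t ^ 5) ≤ 1 := by
    have h1 : (η * (75600 * t ^ 5)) ^ 2 ≤ 1 := by
      rw [mul_pow]
      have h4 : (0 : ℝ) ≤ η ^ 2 := sq_nonneg η
      calc η ^ 2 * (75600 * t ^ 5) ^ 2 ≤ η ^ 2 * (2 : ℝ) ^ s := mul_le_mul_of_nonneg_left hbig h4
        _ ≤ 1 := hηsq
    have h2 : 0 ≤ η * (75600 * t ^ 5) := by positivity
    nlinarith
  have hQ : 15120 * (Real.log (Psi W M') / (1 / (2 * t ^ 2))) + 840 * cc W M' ^ 2 ≤ 37800 * t ^ 3 := by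
    have e : Real.log (Psi W M') / (1 / (2 * t ^ 2)) = Real.log (Psi W M') * (2 * t ^ 2) := by
      field_simp
    rw [e]
    have h1 : Real.log (Psi W M') * (2 * t ^ 2) ≤ t * (2 * t ^ 2) :=
      mul_le_mul_of_nonneg_right hlogPsi (by positivity)
    have h2 : t ^ 2 ≤ t ^ 3 := by
      rw [pow_succ t 2]
      have : 0 ≤ t ^ 2 := by positivity
      nlinarith
    have h5 : t * (2 * t ^ 2) = 2 * t ^ 3 := by ring
    rw [h5] at h1
    linarith
  calc η * (15120 * (Real.log (Psi W M') / (1 / (2 * t ^ 2))) + 840 * cc W M' ^ 2)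
      ≤ η * (37800 * t ^ 3) := mul_le_mul_of_nonneg_left hQ hη0
    _ ≤ 1 / (2 * t ^ 2) := by
      rw [le_div_iff₀ (by positivity)]
      have : η * (37800 * t ^ 3) * (2 * t ^ 2) = η * (75600 * t ^ 5) := by ring
      rw [this]
      exact hsmall

/-- The entropy bound for the kernel on large blocks. -/
theorem K3_large : ∃ s0 : ℕ, ∀ s : ℕ, s0 ≤ s → ∀ (W : Type) [Fintype W] [DecidableEq W],
    Fintype.card W = 4 * 2 ^ s → ∀ n f : (W → Bool) → ℝ,
    IsDens W (2 * 2 ^ s) n → IsDens W (2 * 2 ^ s) f →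
    BB W (2 ^ s) n f ≤ Real.exp (1 / (2 * ((s : ℝ) + 1) ^ 2)
      * (Ent W (2 * 2 ^ s) n + Ent W (2 * 2 ^ s) f)) := by
  obtain ⟨t0, ht0⟩ := exists_pow_bound
  refine ⟨max t0 30, fun s hs W _ _ hW n f hn hf => ?_⟩
  have hs1 : 30 ≤ s := le_trans (le_max_right _ _) hs
  have hs2 : t0 ≤ s + 1 := by
    have := le_trans (le_max_left t0 30) hs
    omega
  have hM : 2 ^ 30 ≤ 2 * 2 ^ s := by
    calc 2 ^ 30 ≤ 2 ^ s := Nat.pow_le_pow_right (by norm_num) hs1
      _ ≤ 2 * 2 ^ s := by omega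
  have hδ : (0 : ℝ) < 1 / (2 * ((s : ℝ) + 1) ^ 2) := by positivity
  exact K3_core hM hW hn hf hδ (K3_cond hs1 (ht0 _ hs2) hW)

/-! ### From the kernel bound to the block inequality -/

variable {W : Type*} [Fintype W] [DecidableEq W] {Ξ : Type*} [Fintype Ξ]

/-- The density of a random vector with respect to the uniform law on the slice. -/
noncomputable def dn (M : ℕ) (p : Ξ → ℝ) (X : Ξ → W → Bool) : (W → Bool) → ℝ :=
  fun s => nOm W M * mass p X s

theorem mass_eq_zero_of_not_mem {p : Ξ → ℝ} (hp : IsLaw p) {α : Type*} (X : Ξ → α) (S : α → Prop)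
    (hs : ∀ x, 0 < p x → S (X x)) {a : α} (ha : ¬ S a) : mass p X a = 0 := by
  classical
  unfold mass
  refine Finset.sum_eq_zero fun y _ => ?_
  by_cases hy : X y = a
  · rw [if_pos hy]
    rcases (hp.1 y).eq_or_lt with h | h
    · exact h.symm
    · exact absurd (hy ▸ hs y h) ha
  · rw [if_neg hy]

theorem dn_isDens {M : ℕ} (hW : Fintype.card W = 2 * M) {p : Ξ → ℝ} (hp : IsLaw p)
    {X : Ξ → W → Bool} (hX : ∀ x, 0 < p x → X x ∈ Om W M) : IsDens W M (dn M p X) := by
  have hpos := nOm_pos hW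
  have hzero : ∀ s, s ∉ Om W M → mass p X s = 0 := fun s hs =>
    mass_eq_zero_of_not_mem hp X (fun a => a ∈ Om W M) hX hs
  refine ⟨fun x => mul_nonneg hpos.le (mass_nonneg hp X x), ?_, ?_⟩
  · intro s hs
    unfold dn
    rw [hzero s hs, mul_zero]
  · unfold Emean dn
    rw [← Finset.mul_sum, mul_div_assoc, mul_comm, div_mul_cancel₀]
    · rw [← sum_eq_sum_Om (φ := mass p X) hzero, sum_mass X, hp.2]
    · exact hpos.ne'

theorem Ent_dn {M : ℕ} (hW : Fintype.card W = 2 * M) {p : Ξ → ℝ} (hp : IsLaw p)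
    {X : Ξ → W → Bool} (hX : ∀ x, 0 < p x → X x ∈ Om W M) :
    Ent W M (dn M p X) = Real.log (nOm W M) - H p X := by
  have hpos := nOm_pos hW
  have hzero : ∀ s, s ∉ Om W M → mass p X s = 0 := fun s hs =>
    mass_eq_zero_of_not_mem hp X (fun a => a ∈ Om W M) hX hs
  unfold Ent Emean dn
  have h1 : ∀ s ∈ Om W M, nOm W M * mass p X s * Real.log (nOm W M * mass p X s)
      = nOm W M * (mass p X s * (Real.log (nOm W M) + Real.log (mass p X s))) := by
    intro s _
    rcases (mass_nonneg hp X s).eq_or_lt with h | h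
    · rw [← h]; simp
    · rw [Real.log_mul hpos.ne' h.ne']; ring
  rw [Finset.sum_congr rfl h1, ← Finset.mul_sum, mul_div_assoc, mul_comm, div_mul_cancel₀ _ hpos.ne']
  rw [← sum_eq_sum_Om (φ := fun s => mass p X s * (Real.log (nOm W M) + Real.log (mass p X s)))
    (fun s hs => by simp [hzero s hs])]
  rw [sum_mass_mul X (fun a => Real.log (nOm W M) + Real.log (mass p X a))]
  unfold H
  simp_rw [mul_add]
  rw [Finset.sum_add_distrib, ← Finset.sum_mul, hp.2]
  ring

/-- The variational lower bound for the conditional deficit. -/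
theorem donsker_bound {M' : ℕ} (hW : Fintype.card W = 4 * M') {p : Ξ → ℝ} (hp : IsLaw p)
    (c y : Ξ → W → Bool)
    (hsupp : ∀ x, 0 < p x → c x ∈ Om W (2 * M') ∧ y x ∈ Om W (2 * M') ∧ bxor (c x) (y x) ∈ Om W (2 * M')) :
    0 < BB W M' (dn (2 * M') p c) (dn (2 * M') p y) ∧
    (Real.log (nOm W (2 * M')) - H p c) - Real.log (BB W M' (dn (2 * M') p c) (dn (2 * M') p y))
      ≤ Real.log (oo M') - (H p (fun x => (c x, y x)) - H p y) := by
  classical
  have hW' : Fintype.card W = 2 * (2 * M') := by omega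
  have hpos := nOm_pos hW'
  have ho := oo_pos M'
  set ν := mass p c with hν
  set ρ := mass p y with hρ
  set I := indOm W (2 * M') with hI
  have hν0 : ∀ s, 0 ≤ ν s := mass_nonneg hp c
  have hρ0 : ∀ s, 0 ≤ ρ s := mass_nonneg hp y
  have hI0 : ∀ s, 0 ≤ I s := by
    intro s; rw [hI]; unfold indOm; split_ifs <;> norm_num
  set T : (W → Bool) → (W → Bool) → ℝ := fun s t => ν s * ρ t * I (bxor s t) with hT
  have hT0 : ∀ s t, 0 ≤ T s t := fun s t => mul_nonneg (mul_nonneg (hν0 s) (hρ0 t)) (hI0 _)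
  set Z := ∑ s, ∑ t, T s t with hZ
  -- a point of the support
  obtain ⟨x0, hx0⟩ : ∃ x, 0 < p x := by
    by_contra hne
    push Not at hne
    have : ∑ x, p x ≤ 0 := Finset.sum_nonpos fun x _ => hne x
    rw [hp.2] at this
    linarith
  have hIone : ∀ x, 0 < p x → I (bxor (c x) (y x)) = 1 := by
    intro x hx
    rw [hI]; unfold indOm
    rw [if_pos (hsupp x hx).2.2]
  have hTpos : ∀ x, 0 < p x → 0 < T (c x) (y x) := by
    intro x hx
    simp only [hT]
    rw [hIone x hx, mul_one]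
    exact mul_pos (mass_pos hp c hx) (mass_pos hp y hx)
  have hZpos : 0 < Z := by
    have h1 : T (c x0) (y x0) ≤ ∑ t, T (c x0) t :=
      Finset.single_le_sum (f := fun t => T (c x0) t) (fun t _ => hT0 _ t) (Finset.mem_univ _)
    have h2 : ∑ t, T (c x0) t ≤ Z :=
      Finset.single_le_sum (f := fun s => ∑ t, T s t) (fun s _ => Finset.sum_nonneg fun t _ => hT0 s t)
        (Finset.mem_univ _)
    have := hTpos x0 hx0
    linarith
  -- the Gibbs inequality
  have hG := H_le_cross hp (fun x => (c x, y x)) (fun t => T t.1 t.2 / Z)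
    (fun t => div_nonneg (hT0 _ _) hZpos.le)
    (by
      have : ∑ t : (W → Bool) × (W → Bool), T t.1 t.2 / Z = (∑ s, ∑ t, T s t) / Z := by
        rw [Fintype.sum_prod_type, Finset.sum_div]
        refine Finset.sum_congr rfl fun s _ => ?_
        rw [Finset.sum_div]
      rw [this, div_self hZpos.ne'])
    (fun x hx => div_pos (hTpos x hx) hZpos)
  have h3 : ∑ x, p x * Real.log (T (c x) (y x) / Z)
      = ∑ x, p x * Real.log (ν (c x)) + ∑ x, p x * Real.log (ρ (y x)) - Real.log Z := by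
    have h4 : ∀ x, p x * Real.log (T (c x) (y x) / Z)
        = p x * Real.log (ν (c x)) + p x * Real.log (ρ (y x)) - p x * Real.log Z := by
      intro x
      rcases (hp.1 x).eq_or_lt with h | h
      · rw [← h]; simp
      · simp only [hT]
        rw [hIone x h, mul_one, Real.log_div (mul_pos (mass_pos hp c h) (mass_pos hp y h)).ne' hZpos.ne',
          Real.log_mul (mass_pos hp c h).ne' (mass_pos hp y h).ne']
        ring
    simp_rw [h4]
    rw [Finset.sum_sub_distrib, Finset.sum_add_distrib, ← Finset.sum_mul, hp.2, one_mul]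
  have h5 : H p (fun x => (c x, y x)) ≤ H p c + H p y + Real.log Z := by
    have h6 : H p (fun x => (c x, y x)) ≤ - ∑ x, p x * Real.log (T (c x) (y x) / Z) := hG
    rw [h3] at h6
    unfold H at h6 ⊢
    linarith
  -- the value of the kernel
  have h7 : BB W M' (dn (2 * M') p c) (dn (2 * M') p y) = (nOm W (2 * M') / oo M') * Z := by
    unfold BB dn
    have h8 : ∀ s t, nOm W (2 * M') * mass p c s * (nOm W (2 * M') * mass p y t) * indOm W (2 * M') (bxor s t)
        = nOm W (2 * M') * nOm W (2 * M') * T s t := by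
      intro s t
      simp only [hT, hν, hρ, hI]
      ring
    have h8' : ∑ s, ∑ t, nOm W (2 * M') * mass p c s * (nOm W (2 * M') * mass p y t) * indOm W (2 * M') (bxor s t)
        = nOm W (2 * M') * nOm W (2 * M') * Z := by
      rw [hZ, Finset.mul_sum]
      refine Finset.sum_congr rfl fun s _ => ?_
      rw [Finset.mul_sum]
      exact Finset.sum_congr rfl fun t _ => h8 s t
    rw [h8']
    field_simp
  have hBpos : 0 < BB W M' (dn (2 * M') p c) (dn (2 * M') p y) := by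
    rw [h7]; positivity
  refine ⟨hBpos, ?_⟩
  have h9 : Real.log (BB W M' (dn (2 * M') p c) (dn (2 * M') p y))
      = Real.log (nOm W (2 * M')) - Real.log (oo M') + Real.log Z := by
    rw [h7, Real.log_mul (by positivity) hZpos.ne', Real.log_div hpos.ne' ho.ne']
  rw [h9]
  linarith

/-- The block inequality with constant `κ` at scale `s`. -/
def BlockProp (s : ℕ) (κ : ℝ) : Prop :=
  ∀ (W : Type) [Fintype W] [DecidableEq W], Fintype.card W = 4 * 2 ^ s →
  ∀ (Ξ : Type) [Fintype Ξ] (p : Ξ → ℝ), IsLaw p → ∀ (c y : Ξ → W → Bool) (g : Ξ ≃ Ξ),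
    (∀ x, p (g x) = p x) → (∀ x, 0 < p x → c (g x) = c x) →
    (∀ x, 0 < p x → y (g x) = bxor (y x) (c x)) →
    (∀ x, 0 < p x → c x ∈ Om W (2 * 2 ^ s) ∧ y x ∈ Om W (2 * 2 ^ s)
      ∧ bxor (c x) (y x) ∈ Om W (2 * 2 ^ s)) →
    κ * (Real.log (nOm W (2 * 2 ^ s)) - H p c)
      ≤ Real.log (oo (2 ^ s)) - (H p (fun x => (c x, y x)) - H p y)

theorem bxor_bxor_right (s t : W → Bool) : bxor (bxor s t) t = s := by
  funext i
  simp [bxor]

theorem bxor_bxor_left (s t : W → Bool) : bxor (bxor s t) s = t := by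
  funext i
  simp only [bxor]
  cases s i <;> cases t i <;> rfl

/-- The second lower bound: the same deficit seen through `r = c + y`. -/
theorem donsker_bound_two {M' : ℕ} (hW : Fintype.card W = 4 * M') {p : Ξ → ℝ} (hp : IsLaw p)
    (c y : Ξ → W → Bool) (g : Ξ ≃ Ξ) (hg : ∀ x, p (g x) = p x) (hc : ∀ x, 0 < p x → c (g x) = c x)
    (hy : ∀ x, 0 < p x → y (g x) = bxor (y x) (c x))
    (hsupp : ∀ x, 0 < p x → c x ∈ Om W (2 * M') ∧ y x ∈ Om W (2 * M') ∧ bxor (c x) (y x) ∈ Om W (2 * M')) :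
    0 < BB W M' (dn (2 * M') p y) (dn (2 * M') p y) ∧
    (Real.log (nOm W (2 * M')) - H p y) - Real.log (BB W M' (dn (2 * M') p y) (dn (2 * M') p y))
      ≤ Real.log (oo M') - (H p (fun x => (c x, y x)) - H p y) := by
  set r : Ξ → W → Bool := fun x => bxor (c x) (y x) with hr
  have hsupp' : ∀ x, 0 < p x → r x ∈ Om W (2 * M') ∧ y x ∈ Om W (2 * M') ∧ bxor (r x) (y x) ∈ Om W (2 * M') := by
    intro x hx
    obtain ⟨h1, h2, h3⟩ := hsupp x hx
    refine ⟨h3, h2, ?_⟩
    simp only [hr]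
    rw [bxor_bxor_right]
    exact h1
  have hrg : ∀ x, 0 < p x → r (g x) = y x := by
    intro x hx
    simp only [hr]
    rw [hc x hx, hy x hx, bxor_comm, bxor_bxor_right]
  have hmass : ∀ a, mass p r a = mass p y a := by
    intro a
    rw [← mass_comp_equiv g hg r a]
    exact mass_congr_supp hp hrg a
  have hdn : dn (2 * M') p r = dn (2 * M') p y := by
    funext s
    unfold dn
    rw [hmass]
  have hHr : H p r = H p y := by
    unfold H
    congr 1
    rw [← Equiv.sum_comp g (fun x => p x * Real.log (mass p r (r x)))]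
    refine Finset.sum_congr rfl fun x _ => ?_
    rcases (hp.1 x).eq_or_lt with hx | hx
    · rw [hg, ← hx]; simp
    · rw [hg, hrg x hx, hmass]
  have hHry : H p (fun x => (r x, y x)) = H p (fun x => (c x, y x)) := by
    apply H_congr
    intro a b
    simp only [Prod.mk.injEq, hr]
    constructor
    · rintro ⟨h1, h2⟩
      refine ⟨?_, h2⟩
      have := congrArg (fun z => bxor z (y a)) h1
      simp only [bxor_bxor_right] at this
      rw [this, h2, bxor_bxor_right]
    · rintro ⟨h1, h2⟩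
      rw [h1, h2]
      exact ⟨rfl, rfl⟩
  have := donsker_bound hW hp r y hsupp'
  rw [hdn, hHr, hHry] at this
  exact this

/-- The block inequality for large blocks. -/
theorem blockProp_large : ∃ s0 : ℕ, ∀ s : ℕ, s0 ≤ s → BlockProp s (1 - 1 / ((s : ℝ) + 1) ^ 2) := by
  obtain ⟨s0, hs0⟩ := K3_large
  refine ⟨s0, fun s hs W _ _ hW Ξ _ p hp c y g hg hc hy hsupp => ?_⟩
  have hW' : Fintype.card W = 2 * (2 * 2 ^ s) := by omega
  have h1 := donsker_bound hW hp c y hsupp
  have h2 := donsker_bound_two hW hp c y g hg hc hy hsupp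
  have hnc := dn_isDens hW' hp (fun x hx => (hsupp x hx).1)
  have hny := dn_isDens hW' hp (fun x hx => (hsupp x hx).2.1)
  have hk1 := hs0 s hs W hW _ _ hnc hny
  have hk2 := hs0 s hs W hW _ _ hny hny
  rw [Ent_dn hW' hp (fun x hx => (hsupp x hx).1), Ent_dn hW' hp (fun x hx => (hsupp x hx).2.1)] at hk1
  rw [Ent_dn hW' hp (fun x hx => (hsupp x hx).2.1)] at hk2
  set a := Real.log (nOm W (2 * 2 ^ s)) - H p c with ha
  set b := Real.log (nOm W (2 * 2 ^ s)) - H p y with hb
  set D := Real.log (oo (2 ^ s)) - (H p (fun x => (c x, y x)) - H p y) with hD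
  set δ : ℝ := 1 / (2 * ((s : ℝ) + 1) ^ 2) with hδ
  have hs1 : (1 : ℝ) ≤ (s : ℝ) + 1 := by
    have : (0 : ℝ) ≤ s := Nat.cast_nonneg s
    linarith
  have hδ2 : 1 / ((s : ℝ) + 1) ^ 2 = 2 * δ := by
    rw [hδ]; field_simp
  have hδ1 : 2 * δ ≤ 1 := by
    rw [← hδ2]
    rw [div_le_one (by positivity)]
    nlinarith
  rw [hδ2]
  have hl1 : Real.log (BB W (2 ^ s) (dn (2 * 2 ^ s) p c) (dn (2 * 2 ^ s) p y)) ≤ δ * (a + b) := by
    have := Real.log_le_log h1.1 hk1
    rwa [Real.log_exp] at this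
  have hl2 : Real.log (BB W (2 ^ s) (dn (2 * 2 ^ s) p y) (dn (2 * 2 ^ s) p y)) ≤ δ * (b + b) := by
    have := Real.log_le_log h2.1 hk2
    rwa [Real.log_exp] at this
  have h3 := h1.2
  have h4 := h2.2
  have hδ0 : 0 ≤ δ := by positivity
  by_cases hab : b ≤ a
  · have : δ * b ≤ δ * a := mul_le_mul_of_nonneg_left hab hδ0
    nlinarith
  · push Not at hab
    have : (1 - 2 * δ) * a ≤ (1 - 2 * δ) * b :=
      mul_le_mul_of_nonneg_left hab.le (by linarith)
    nlinarith

end Vale.Agent.Lib.P162
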