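import Vale.Agent.Lib.P162.BlockLarge

/-!
The block inequality with a positive constant for every block size.
-/

set_option linter.unusedSectionVars false
set_option linter.unusedVariables false

namespace Vale.Agent.Lib.P162

open Finset

variable {W : Type*} [Fintype W] [DecidableEq W] {Ξ : Type*} [Fintype Ξ]

theorem wt_bxor (s t : W → Bool) : wt (bxor s t) + 2 * (suppV s ∩ suppV t).card = wt s + wt t := by
  have h1 : suppV (bxor s t) = (suppV s \ suppV t) ∪ (suppV t \ suppV s) := by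
    ext i
    simp only [suppV, bxor, Finset.mem_filter, Finset.mem_univ, true_and, Finset.mem_union,
      Finset.mem_sdiff]
    by_cases h1 : s i = true <;> by_cases h2 : t i = true <;> simp [h1, h2]
  have h2 : wt (bxor s t) = (suppV s \ suppV t).card + (suppV t \ suppV s).card := by
    rw [wt_eq_card, h1, Finset.card_union_of_disjoint]
    rw [Finset.disjoint_left]
    intro i hi hi'
    exact (Finset.mem_sdiff.1 hi).2 (Finset.mem_sdiff.1 hi').1
  have h3 := Finset.card_sdiff_add_card_inter (suppV s) (suppV t)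
  have h4 := Finset.card_sdiff_add_card_inter (suppV t) (suppV s)
  rw [Finset.inter_comm] at h4
  rw [h2, wt_eq_card, wt_eq_card]
  omega

/-- Any two balanced vectors have a common orthogonal neighbour. -/
theorem exists_common_orth {M' : ℕ} (hW : Fintype.card W = 4 * M') {s t : W → Bool}
    (hs : s ∈ Om W (2 * M')) (ht : t ∈ Om W (2 * M')) :
    ∃ u ∈ Om W (2 * M'), bxor s u ∈ Om W (2 * M') ∧ bxor u t ∈ Om W (2 * M') := by
  set S := suppV s with hS
  set T := suppV t with hT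
  have hSc : S.card = 2 * M' := mem_Om.1 hs
  have hTc : T.card = 2 * M' := mem_Om.1 ht
  set P1 := S ∩ T with hP1
  set P2 := S \ T with hP2
  set P3 := T \ S with hP3
  set P4 := (S ∪ T)ᶜ with hP4
  set x := P1.card with hx
  have h2 : P2.card + x = 2 * M' := by
    rw [← hSc]; exact Finset.card_sdiff_add_card_inter S T
  have h3 : P3.card + x = 2 * M' := by
    rw [← hTc, hx, hP1, Finset.inter_comm]; exact Finset.card_sdiff_add_card_inter T S
  have h4 : P4.card = x := by
    have h5 : (S ∪ T).card + x = S.card + T.card := Finset.card_union_add_card_inter S T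
    have h6 : P4.card = 4 * M' - (S ∪ T).card := by
      rw [hP4, Finset.card_compl, hW]
    omega
  set e := (x + 1) / 2 with he
  have hxe1 : e ≤ x := by omega
  have hxe2 : M' - e ≤ P2.card := by omega
  have hxe3 : M' - e ≤ P3.card := by omega
  have hxe4 : e ≤ P4.card := by omega
  have hxe5 : e ≤ M' := by omega
  obtain ⟨A1, hA1, hA1c⟩ := Finset.exists_subset_card_eq hxe1
  obtain ⟨A2, hA2, hA2c⟩ := Finset.exists_subset_card_eq hxe2
  obtain ⟨A3, hA3, hA3c⟩ := Finset.exists_subset_card_eq hxe3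
  obtain ⟨A4, hA4, hA4c⟩ := Finset.exists_subset_card_eq hxe4
  have m1 : ∀ i ∈ A1, i ∈ S ∧ i ∈ T := fun i hi => Finset.mem_inter.1 (hA1 hi)
  have m2 : ∀ i ∈ A2, i ∈ S ∧ i ∉ T := fun i hi => Finset.mem_sdiff.1 (hA2 hi)
  have m3 : ∀ i ∈ A3, i ∈ T ∧ i ∉ S := fun i hi => Finset.mem_sdiff.1 (hA3 hi)
  have m4 : ∀ i ∈ A4, i ∉ S ∧ i ∉ T := fun i hi => by
    have := Finset.mem_compl.1 (hA4 hi)
    rw [Finset.mem_union] at this
    exact ⟨fun h => this (Or.inl h), fun h => this (Or.inr h)⟩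
  have d12 : Disjoint A1 A2 := Finset.disjoint_left.2 fun i h1 h2 => (m2 i h2).2 (m1 i h1).2
  have d13 : Disjoint A1 A3 := Finset.disjoint_left.2 fun i h1 h2 => (m3 i h2).2 (m1 i h1).1
  have d14 : Disjoint A1 A4 := Finset.disjoint_left.2 fun i h1 h2 => (m4 i h2).1 (m1 i h1).1
  have d23 : Disjoint A2 A3 := Finset.disjoint_left.2 fun i h1 h2 => (m3 i h2).2 (m2 i h1).1
  have d24 : Disjoint A2 A4 := Finset.disjoint_left.2 fun i h1 h2 => (m4 i h2).1 (m2 i h1).1
  have d34 : Disjoint A3 A4 := Finset.disjoint_left.2 fun i h1 h2 => (m4 i h2).2 (m3 i h1).1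
  set U := A1 ∪ A2 ∪ A3 ∪ A4 with hU
  have hUc : U.card = 2 * M' := by
    rw [hU, Finset.card_union_of_disjoint, Finset.card_union_of_disjoint,
      Finset.card_union_of_disjoint d12, hA1c, hA2c, hA3c, hA4c]
    · omega
    · exact Finset.disjoint_union_left.2 ⟨d13, d23⟩
    · exact Finset.disjoint_union_left.2 ⟨Finset.disjoint_union_left.2 ⟨d14, d24⟩, d34⟩
  have hUS : S ∩ U = A1 ∪ A2 := by
    ext i
    simp only [hU, Finset.mem_inter, Finset.mem_union]
    constructor
    · rintro ⟨h1, ((h | h) | h) | h⟩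
      · exact Or.inl h
      · exact Or.inr h
      · exact absurd h1 (m3 i h).2
      · exact absurd h1 (m4 i h).1
    · rintro (h | h)
      · exact ⟨(m1 i h).1, Or.inl (Or.inl (Or.inl h))⟩
      · exact ⟨(m2 i h).1, Or.inl (Or.inl (Or.inr h))⟩
  have hUT : U ∩ T = A1 ∪ A3 := by
    ext i
    simp only [hU, Finset.mem_inter, Finset.mem_union]
    constructor
    · rintro ⟨((h | h) | h) | h, h1⟩
      · exact Or.inl h
      · exact absurd h1 (m2 i h).2
      · exact Or.inr h
      · exact absurd h1 (m4 i h).2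
    · rintro (h | h)
      · exact ⟨Or.inl (Or.inl (Or.inl h)), (m1 i h).2⟩
      · exact ⟨Or.inl (Or.inr h), (m3 i h).1⟩
  refine ⟨indV U, ?_, ?_, ?_⟩
  · rw [mem_Om, wt_eq_card, suppV_indV, hUc]
  · rw [mem_Om]
    have h5 := wt_bxor s (indV U)
    rw [suppV_indV, wt_eq_card (indV U), suppV_indV, hUc, ← hS, hUS,
      Finset.card_union_of_disjoint d12, hA1c, hA2c, wt_eq_card s, hSc] at h5
    omega
  · rw [mem_Om]
    have h5 := wt_bxor (indV U) t
    rw [suppV_indV, wt_eq_card (indV U), suppV_indV, hUc, ← hT, hUT,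
      Finset.card_union_of_disjoint d13, hA1c, hA3c, wt_eq_card t, hTc] at h5
    omega

/-- The kernel on the slice. -/
noncomputable def KF (M' : ℕ) (ζ : (W → Bool) → ℝ) (s : W → Bool) : ℝ :=
  ∑ t ∈ Om W (2 * M'), ζ t * (indOm W (2 * M') (bxor s t) / oo M')

/-- The `L¹` norm on the slice. -/
noncomputable def l1S (M' : ℕ) (ζ : (W → Bool) → ℝ) : ℝ := ∑ s ∈ Om W (2 * M'), |ζ s|

theorem indOm_nonneg (M : ℕ) (x : W → Bool) : 0 ≤ indOm W M x := by
  unfold indOm; split_ifs <;> norm_num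

theorem sum_ind_div_left {M' : ℕ} (hW : Fintype.card W = 4 * M') {t : W → Bool}
    (ht : t ∈ Om W (2 * M')) :
    ∑ s ∈ Om W (2 * M'), (indOm W (2 * M') (bxor s t) / oo M') = 1 := by
  have ho := oo_pos M'
  rw [← Finset.sum_div, sum_ind_bxor hW ht, div_self ho.ne']

theorem sum_ind_div_right {M' : ℕ} (hW : Fintype.card W = 4 * M') {s : W → Bool}
    (hs : s ∈ Om W (2 * M')) :
    ∑ t ∈ Om W (2 * M'), (indOm W (2 * M') (bxor s t) / oo M') = 1 := by
  have : ∀ t, bxor s t = bxor t s := fun t => bxor_comm s t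
  simp_rw [this]
  exact sum_ind_div_left hW hs

theorem l1S_nonneg (M' : ℕ) (ζ : (W → Bool) → ℝ) : 0 ≤ l1S M' ζ :=
  Finset.sum_nonneg fun _ _ => abs_nonneg _

theorem l1S_KF_le {M' : ℕ} (hW : Fintype.card W = 4 * M') (ζ : (W → Bool) → ℝ) :
    l1S M' (KF M' ζ) ≤ l1S M' ζ := by
  have ho := oo_pos M'
  unfold l1S KF
  calc ∑ s ∈ Om W (2 * M'), |∑ t ∈ Om W (2 * M'), ζ t * (indOm W (2 * M') (bxor s t) / oo M')|
      ≤ ∑ s ∈ Om W (2 * M'), ∑ t ∈ Om W (2 * M'), |ζ t| * (indOm W (2 * M') (bxor s t) / oo M') := by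
        refine Finset.sum_le_sum fun s _ => ?_
        refine le_trans (Finset.abs_sum_le_sum_abs _ _) (le_of_eq ?_)
        refine Finset.sum_congr rfl fun t _ => ?_
        rw [abs_mul, abs_of_nonneg (div_nonneg (indOm_nonneg _ _) ho.le)]
    _ = ∑ t ∈ Om W (2 * M'), ∑ s ∈ Om W (2 * M'), |ζ t| * (indOm W (2 * M') (bxor s t) / oo M') :=
        Finset.sum_comm
    _ = _ := by
        refine Finset.sum_congr rfl fun t ht => ?_
        rw [← Finset.mul_sum, sum_ind_div_left hW ht, mul_one]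

theorem KF_const {M' : ℕ} (hW : Fintype.card W = 4 * M') (a : ℝ) {s : W → Bool}
    (hs : s ∈ Om W (2 * M')) : KF M' (fun _ => a) s = a := by
  unfold KF
  rw [← Finset.mul_sum, sum_ind_div_right hW hs, mul_one]

theorem KF_sub (M' : ℕ) (ζ₁ ζ₂ : (W → Bool) → ℝ) (s : W → Bool) :
    KF M' (fun x => ζ₁ x - ζ₂ x) s = KF M' ζ₁ s - KF M' ζ₂ s := by
  unfold KF
  rw [← Finset.sum_sub_distrib]
  exact Finset.sum_congr rfl fun t _ => by ring

theorem l1S_congr {M' : ℕ} {ζ₁ ζ₂ : (W → Bool) → ℝ} (h : ∀ s ∈ Om W (2 * M'), ζ₁ s = ζ₂ s) :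
    l1S M' ζ₁ = l1S M' ζ₂ := by
  unfold l1S
  exact Finset.sum_congr rfl fun s hs => by rw [h s hs]

theorem l1S_triangle (M' : ℕ) (ζ₁ ζ₂ ζ₃ : (W → Bool) → ℝ) :
    l1S M' (fun x => ζ₁ x - ζ₃ x) ≤ l1S M' (fun x => ζ₁ x - ζ₂ x) + l1S M' (fun x => ζ₂ x - ζ₃ x) := by
  unfold l1S
  rw [← Finset.sum_add_distrib]
  refine Finset.sum_le_sum fun s _ => ?_
  exact abs_sub_le _ _ _

theorem KF_congr {M' : ℕ} {ζ₁ ζ₂ : (W → Bool) → ℝ} (h : ∀ t ∈ Om W (2 * M'), ζ₁ t = ζ₂ t)
    (s : W → Bool) : KF M' ζ₁ s = KF M' ζ₂ s := by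
  unfold KF
  exact Finset.sum_congr rfl fun t ht => by rw [h t ht]

/-- The two step kernel contracts mean zero functions. -/
theorem l1S_KF_KF {M' : ℕ} (hW : Fintype.card W = 4 * M') (ζ : (W → Bool) → ℝ)
    (hζ : ∑ t ∈ Om W (2 * M'), ζ t = 0) :
    l1S M' (KF M' (KF M' ζ)) ≤ (1 - nOm W (2 * M') / oo M' ^ 2) * l1S M' ζ := by
  have ho := oo_pos M'
  set P : (W → Bool) → (W → Bool) → ℝ := fun s t =>
    ∑ u ∈ Om W (2 * M'), (indOm W (2 * M') (bxor u t) / oo M') * (indOm W (2 * M') (bxor s u) / oo M') with hP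
  have hK2 : ∀ s, KF M' (KF M' ζ) s = ∑ t ∈ Om W (2 * M'), ζ t * P s t := by
    intro s
    unfold KF
    simp only [hP]
    simp_rw [Finset.mul_sum, Finset.sum_mul]
    rw [Finset.sum_comm]
    refine Finset.sum_congr rfl fun t _ => Finset.sum_congr rfl fun u _ => ?_
    ring
  set γ := 1 / oo M' ^ 2 with hγ
  have hPγ : ∀ s ∈ Om W (2 * M'), ∀ t ∈ Om W (2 * M'), γ ≤ P s t := by
    intro s hs t ht
    obtain ⟨u, hu, h1, h2⟩ := exists_common_orth hW hs ht
    simp only [hP]
    have h3 : (indOm W (2 * M') (bxor u t) / oo M') * (indOm W (2 * M') (bxor s u) / oo M') = γ := by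
      unfold indOm
      rw [if_pos h1, if_pos h2, hγ]
      field_simp
    rw [← h3]
    exact Finset.single_le_sum (f := fun u => (indOm W (2 * M') (bxor u t) / oo M') * (indOm W (2 * M') (bxor s u) / oo M'))
      (fun v _ => mul_nonneg (div_nonneg (indOm_nonneg _ _) ho.le) (div_nonneg (indOm_nonneg _ _) ho.le)) hu
  have hPsum : ∀ t ∈ Om W (2 * M'), ∑ s ∈ Om W (2 * M'), P s t = 1 := by
    intro t ht
    simp only [hP]
    rw [Finset.sum_comm]
    have : ∀ u ∈ Om W (2 * M'), ∑ s ∈ Om W (2 * M'),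
        (indOm W (2 * M') (bxor u t) / oo M') * (indOm W (2 * M') (bxor s u) / oo M')
        = indOm W (2 * M') (bxor u t) / oo M' := by
      intro u hu
      rw [← Finset.mul_sum, sum_ind_div_left hW hu, mul_one]
    rw [Finset.sum_congr rfl this, sum_ind_div_left hW ht]
  have hpt : ∀ s ∈ Om W (2 * M'), |KF M' (KF M' ζ) s|
      ≤ ∑ t ∈ Om W (2 * M'), |ζ t| * (P s t - γ) := by
    intro s hs
    rw [hK2]
    have e : ∑ t ∈ Om W (2 * M'), ζ t * P s t = ∑ t ∈ Om W (2 * M'), ζ t * (P s t - γ) := by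
      have : ∑ t ∈ Om W (2 * M'), ζ t * (P s t - γ)
          = ∑ t ∈ Om W (2 * M'), ζ t * P s t - γ * ∑ t ∈ Om W (2 * M'), ζ t := by
        rw [Finset.mul_sum, ← Finset.sum_sub_distrib]
        exact Finset.sum_congr rfl fun t _ => by ring
      rw [this, hζ, mul_zero, sub_zero]
    rw [e]
    refine le_trans (Finset.abs_sum_le_sum_abs _ _) (le_of_eq ?_)
    refine Finset.sum_congr rfl fun t ht => ?_
    rw [abs_mul, abs_of_nonneg (sub_nonneg.2 (hPγ s hs t ht))]
  unfold l1S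
  calc ∑ s ∈ Om W (2 * M'), |KF M' (KF M' ζ) s|
      ≤ ∑ s ∈ Om W (2 * M'), ∑ t ∈ Om W (2 * M'), |ζ t| * (P s t - γ) := Finset.sum_le_sum hpt
    _ = ∑ t ∈ Om W (2 * M'), ∑ s ∈ Om W (2 * M'), |ζ t| * (P s t - γ) := Finset.sum_comm
    _ = ∑ t ∈ Om W (2 * M'), |ζ t| * (1 - nOm W (2 * M') / oo M' ^ 2) := by
        refine Finset.sum_congr rfl fun t ht => ?_
        rw [← Finset.mul_sum, Finset.sum_sub_distrib, hPsum t ht, Finset.sum_const, nsmul_eq_mul]
        unfold nOm
        rw [hγ]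
        ring
    _ = _ := by
        rw [← Finset.sum_mul]; ring

/-- The `L¹` estimate: near fixed points of the kernel are near uniform. -/
theorem l1S_le_of_near {M' : ℕ} (hW : Fintype.card W = 4 * M') (ν ρ : (W → Bool) → ℝ)
    (hρ : ∑ t ∈ Om W (2 * M'), ρ t = 1) (d : ℝ)
    (h1 : l1S M' (fun x => ν x - KF M' ρ x) ≤ d) (h2 : l1S M' (fun x => ρ x - KF M' ρ x) ≤ d)
    (hβ : 0 < nOm W (2 * M') / oo M' ^ 2) :
    l1S M' (fun x => ν x - 1 / nOm W (2 * M')) ≤ d * (1 + 2 / (nOm W (2 * M') / oo M' ^ 2)) := by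
  have hW' : Fintype.card W = 2 * (2 * M') := by omega
  have hpos := nOm_pos hW'
  have ho := oo_pos M'
  set β := nOm W (2 * M') / oo M' ^ 2 with hβdef
  set u : (W → Bool) → ℝ := fun _ => 1 / nOm W (2 * M') with hu
  set ζ : (W → Bool) → ℝ := fun x => ρ x - u x with hζ
  have hζ0 : ∑ t ∈ Om W (2 * M'), ζ t = 0 := by
    simp only [hζ, hu]
    rw [Finset.sum_sub_distrib, hρ, Finset.sum_const, nsmul_eq_mul]
    unfold nOm at hpos ⊢
    field_simp
    simp
  have hKζ : ∀ s ∈ Om W (2 * M'), KF M' ζ s = KF M' ρ s - u s := by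
    intro s hs
    simp only [hζ]
    rw [KF_sub, KF_const hW _ hs]
  have hKKζ : ∀ s ∈ Om W (2 * M'), KF M' (KF M' ζ) s = KF M' (KF M' ρ) s - u s := by
    intro s hs
    rw [KF_congr hKζ s, KF_sub, KF_const hW _ hs]
  set e1 := l1S M' ζ with he1
  have he0 : 0 ≤ e1 := l1S_nonneg _ _
  have h3 : l1S M' (fun x => KF M' ρ x - KF M' (KF M' ρ) x) ≤ d := by
    have h4 : l1S M' (fun x => KF M' ρ x - KF M' (KF M' ρ) x)
        = l1S M' (KF M' (fun x => ρ x - KF M' ρ x)) :=
      l1S_congr fun s _ => by rw [KF_sub]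
    rw [h4]
    exact le_trans (l1S_KF_le hW _) h2
  have h5 : l1S M' (fun x => KF M' (KF M' ρ) x - u x) ≤ (1 - β) * e1 := by
    have h6 : l1S M' (fun x => KF M' (KF M' ρ) x - u x) = l1S M' (KF M' (KF M' ζ)) :=
      l1S_congr fun s hs => by rw [hKKζ s hs]
    rw [h6]
    exact l1S_KF_KF hW ζ hζ0
  have h7 : e1 ≤ d + d + (1 - β) * e1 := by
    have t1 := l1S_triangle M' ρ (KF M' ρ) u
    have t2 := l1S_triangle M' (KF M' ρ) (KF M' (KF M' ρ)) u
    have : e1 = l1S M' (fun x => ρ x - u x) := rfl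
    linarith
  have h8 : β * e1 ≤ 2 * d := by nlinarith
  have h9 : e1 ≤ 2 * d / β := by
    rw [le_div_iff₀ hβ]; linarith
  have h10 : l1S M' (fun x => KF M' ρ x - u x) ≤ e1 := by
    have h11 : l1S M' (fun x => KF M' ρ x - u x) = l1S M' (KF M' ζ) :=
      l1S_congr fun s hs => by rw [hKζ s hs]
    rw [h11]
    exact l1S_KF_le hW ζ
  have t3 := l1S_triangle M' ν (KF M' ρ) u
  have e : d * (1 + 2 / β) = d + 2 * d / β := by field_simp
  rw [e]
  linarith

/-- The kernel transform of a law, as a function on the cube. -/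
noncomputable def KL (M' : ℕ) (ρ : (W → Bool) → ℝ) : (W → Bool) → ℝ :=
  fun s => if s ∈ Om W (2 * M') then KF M' ρ s else 0

theorem KL_isLaw {M' : ℕ} (hW : Fintype.card W = 4 * M') {ρ : (W → Bool) → ℝ} (hρ : IsLaw ρ)
    (hρS : ∀ s, s ∉ Om W (2 * M') → ρ s = 0) : IsLaw (KL M' ρ) := by
  have ho := oo_pos M'
  constructor
  · intro s
    unfold KL
    split_ifs
    · exact Finset.sum_nonneg fun t _ => mul_nonneg (hρ.1 t) (div_nonneg (indOm_nonneg _ _) ho.le)
    · exact le_rfl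
  · unfold KL
    rw [Finset.sum_ite_mem, Finset.univ_inter]
    unfold KF
    rw [Finset.sum_comm]
    have h1 : ∀ t ∈ Om W (2 * M'), ∑ s ∈ Om W (2 * M'), ρ t * (indOm W (2 * M') (bxor s t) / oo M') = ρ t := by
      intro t ht
      rw [← Finset.mul_sum, sum_ind_div_left hW ht, mul_one]
    rw [Finset.sum_congr rfl h1, ← sum_eq_sum_Om hρS, hρ.2]

/-- The conditional deficit controls the relative entropy to the kernel transform. -/
theorem gibbs_KL {M' : ℕ} (hW : Fintype.card W = 4 * M') {p : Ξ → ℝ} (hp : IsLaw p)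
    (c y : Ξ → W → Bool)
    (hsupp : ∀ x, 0 < p x → c x ∈ Om W (2 * M') ∧ y x ∈ Om W (2 * M') ∧ bxor (c x) (y x) ∈ Om W (2 * M')) :
    (∀ x, 0 < p x → 0 < KL M' (mass p y) (c x)) ∧
    ∑ s, mass p c s * (Real.log (mass p c s) - Real.log (KL M' (mass p y) s))
      ≤ Real.log (oo M') - (H p (fun x => (c x, y x)) - H p y) := by
  classical
  have hW' : Fintype.card W = 2 * (2 * M') := by omega
  have ho := oo_pos M'
  set ν := mass p c with hν
  set ρ := mass p y with hρ
  set π' := KL M' ρ with hπ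
  have hρ0 : ∀ s, 0 ≤ ρ s := mass_nonneg hp y
  have hν0 : ∀ s, 0 ≤ ν s := mass_nonneg hp c
  have hρS : ∀ s, s ∉ Om W (2 * M') → ρ s = 0 := fun s hs =>
    mass_eq_zero_of_not_mem hp y (fun a => a ∈ Om W (2 * M')) (fun x hx => (hsupp x hx).2.1) hs
  have hνS : ∀ s, s ∉ Om W (2 * M') → ν s = 0 := fun s hs =>
    mass_eq_zero_of_not_mem hp c (fun a => a ∈ Om W (2 * M')) (fun x hx => (hsupp x hx).1) hs
  have hρl : IsLaw ρ := ⟨hρ0, by rw [hρ, sum_mass y, hp.2]⟩
  have hπ0 : ∀ s, 0 ≤ π' s := (KL_isLaw hW hρl hρS).1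
  have hI1 : ∀ x, 0 < p x → indOm W (2 * M') (bxor (c x) (y x)) = 1 := by
    intro x hx
    unfold indOm
    rw [if_pos (hsupp x hx).2.2]
  have hπpos : ∀ x, 0 < p x → 0 < π' (c x) := by
    intro x hx
    obtain ⟨h1, h2, h3⟩ := hsupp x hx
    simp only [hπ]
    unfold KL
    rw [if_pos h1]
    unfold KF
    have h4 : ρ (y x) * (indOm W (2 * M') (bxor (c x) (y x)) / oo M') ≤
        ∑ t ∈ Om W (2 * M'), ρ t * (indOm W (2 * M') (bxor (c x) t) / oo M') :=
      Finset.single_le_sum (f := fun t => ρ t * (indOm W (2 * M') (bxor (c x) t) / oo M'))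
        (fun t _ => mul_nonneg (hρ0 t) (div_nonneg (indOm_nonneg _ _) ho.le)) h2
    have h5 : 0 < ρ (y x) * (indOm W (2 * M') (bxor (c x) (y x)) / oo M') := by
      rw [hI1 x hx]
      exact mul_pos (mass_pos hp y hx) (by positivity)
    linarith
  refine ⟨hπpos, ?_⟩
  set b : (W → Bool) × (W → Bool) → ℝ := fun a =>
    if a.1 ∈ Om W (2 * M') then
      ν a.1 * (ρ a.2 * (indOm W (2 * M') (bxor a.1 a.2) / oo M')) / π' a.1 else 0 with hb
  have hb0 : ∀ a, 0 ≤ b a := by
    intro a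
    simp only [hb]
    split_ifs
    · exact div_nonneg (mul_nonneg (hν0 _) (mul_nonneg (hρ0 _) (div_nonneg (indOm_nonneg _ _) ho.le))) (hπ0 _)
    · exact le_rfl
  have hb1 : ∑ a, b a ≤ 1 := by
    rw [Fintype.sum_prod_type]
    have h1 : ∀ s, ∑ t, b (s, t) ≤ ν s := by
      intro s
      simp only [hb]
      by_cases hs : s ∈ Om W (2 * M')
      · simp only [if_pos hs]
        rw [← Finset.sum_div, ← Finset.mul_sum]
        have h2 : ∑ t, ρ t * (indOm W (2 * M') (bxor s t) / oo M') = π' s := by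
          simp only [hπ]
          unfold KL
          rw [if_pos hs]
          unfold KF
          symm
          apply Finset.sum_subset (Finset.subset_univ _)
          intro t _ ht
          rw [hρS t ht, zero_mul]
        rw [h2]
        by_cases h3 : π' s = 0
        · rw [h3]; simp [hν0 s]
        · rw [mul_div_assoc, div_self h3, mul_one]
      · simp only [if_neg hs]
        simp [hν0 s]
    calc _ ≤ ∑ s, ν s := Finset.sum_le_sum fun s _ => h1 s
      _ = 1 := by rw [hν, sum_mass c, hp.2]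
  have hbpos : ∀ x, 0 < p x → 0 < b (c x, y x) := by
    intro x hx
    simp only [hb]
    rw [if_pos (hsupp x hx).1, hI1 x hx]
    exact div_pos (mul_pos (mass_pos hp c hx) (mul_pos (mass_pos hp y hx) (by positivity))) (hπpos x hx)
  have hG := H_le_cross hp (fun x => (c x, y x)) b hb0 hb1 hbpos
  have h3 : ∀ x, p x * Real.log (b (c x, y x)) = p x * Real.log (ν (c x)) + p x * Real.log (ρ (y x))
      - p x * Real.log (oo M') - p x * Real.log (π' (c x)) := by
    intro x
    rcases (hp.1 x).eq_or_lt with h | h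
    · rw [← h]; simp
    · simp only [hb]
      rw [if_pos (hsupp x h).1, hI1 x h]
      have p1 := mass_pos hp c h
      have p2 := mass_pos hp y h
      have p3 := hπpos x h
      rw [Real.log_div (by positivity) p3.ne', Real.log_mul p1.ne' (by positivity),
        Real.log_mul p2.ne' (by positivity), Real.log_div one_ne_zero ho.ne', Real.log_one]
      ring
  simp_rw [h3] at hG
  rw [Finset.sum_sub_distrib, Finset.sum_sub_distrib, Finset.sum_add_distrib, ← Finset.sum_mul (f := p), hp.2, one_mul] at hG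
  have h4 : ∑ s, ν s * (Real.log (ν s) - Real.log (π' s))
      = ∑ x, p x * Real.log (ν (c x)) - ∑ x, p x * Real.log (π' (c x)) := by
    rw [hν, sum_mass_mul c (fun s => Real.log (mass p c s) - Real.log (π' s)), ← Finset.sum_sub_distrib]
    exact Finset.sum_congr rfl fun x _ => by ring
  rw [h4]
  have hHy : H p y = - ∑ x, p x * Real.log (ρ (y x)) := rfl
  rw [hHy]
  linarith

theorem sum_sq_le_sq_sum_abs {ι : Type*} (S : Finset ι) (x : ι → ℝ) :
    ∑ i ∈ S, x i ^ 2 ≤ (∑ i ∈ S, |x i|) ^ 2 := by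
  have hT : 0 ≤ ∑ i ∈ S, |x i| := Finset.sum_nonneg fun _ _ => abs_nonneg _
  have h : ∀ i ∈ S, x i ^ 2 ≤ |x i| * ∑ j ∈ S, |x j| := by
    intro i hi
    have h1 : |x i| ≤ ∑ j ∈ S, |x j| :=
      Finset.single_le_sum (f := fun j => |x j|) (fun j _ => abs_nonneg _) hi
    rw [← sq_abs]
    have := abs_nonneg (x i)
    nlinarith
  calc _ ≤ ∑ i ∈ S, |x i| * ∑ j ∈ S, |x j| := Finset.sum_le_sum h
    _ = _ := by rw [← Finset.sum_mul, sq]

/-- The entropy deficit of a law on the slice is bounded by its squared `L¹` distance from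
uniform. -/
theorem deficit_le_l1 {M' : ℕ} (hW : Fintype.card W = 4 * M') {p : Ξ → ℝ} (hp : IsLaw p)
    {X : Ξ → W → Bool} (hX : ∀ x, 0 < p x → X x ∈ Om W (2 * M')) :
    Real.log (nOm W (2 * M')) - H p X ≤
      nOm W (2 * M') * (l1S M' (fun s => mass p X s - 1 / nOm W (2 * M'))) ^ 2 := by
  have hW' : Fintype.card W = 2 * (2 * M') := by omega
  have hpos := nOm_pos hW'
  have hd := dn_isDens hW' hp hX
  rw [← Ent_dn hW' hp hX]
  set n := dn (2 * M') p X with hn
  have h1 : Ent W (2 * M') n ≤ Emean W (2 * M') (fun x => (n x - 1) ^ 2 + (n x - 1)) := by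
    unfold Ent
    refine Emean_le hW' fun x _ => ?_
    have h2 := hd.nonneg x
    rcases h2.eq_or_lt with h0 | h0
    · rw [← h0]; simp
    · have := Real.log_le_sub_one_of_pos h0
      nlinarith [mul_le_mul_of_nonneg_left this h2]
  have h3 : Emean W (2 * M') (fun x => (n x - 1) ^ 2 + (n x - 1))
      = Emean W (2 * M') (fun x => (n x - 1) ^ 2) := by
    rw [Emean_add, Emean_sub, hd.mean, Emean_const hW']
    ring
  have h4 : Emean W (2 * M') (fun x => (n x - 1) ^ 2)
      = nOm W (2 * M') * ∑ s ∈ Om W (2 * M'), (mass p X s - 1 / nOm W (2 * M')) ^ 2 := by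
    unfold Emean
    rw [div_eq_iff hpos.ne', mul_comm (nOm W (2 * M')), mul_assoc, Finset.sum_mul]
    refine Finset.sum_congr rfl fun s _ => ?_
    simp only [hn, dn]
    have : nOm W (2 * M') ≠ 0 := hpos.ne'
    field_simp
  rw [h3, h4] at h1
  refine le_trans h1 ?_
  apply mul_le_mul_of_nonneg_left _ hpos.le
  exact sum_sq_le_sq_sum_abs _ _

/-- The same as `gibbs_KL`, for the companion vector `c + y`. -/
theorem gibbs_KL_two {M' : ℕ} (hW : Fintype.card W = 4 * M') {p : Ξ → ℝ} (hp : IsLaw p)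
    (c y : Ξ → W → Bool) (g : Ξ ≃ Ξ) (hg : ∀ x, p (g x) = p x) (hc : ∀ x, 0 < p x → c (g x) = c x)
    (hy : ∀ x, 0 < p x → y (g x) = bxor (y x) (c x))
    (hsupp : ∀ x, 0 < p x → c x ∈ Om W (2 * M') ∧ y x ∈ Om W (2 * M') ∧ bxor (c x) (y x) ∈ Om W (2 * M')) :
    ∑ s, mass p y s * (Real.log (mass p y s) - Real.log (KL M' (mass p y) s))
      ≤ Real.log (oo M') - (H p (fun x => (c x, y x)) - H p y) := by
  set r : Ξ → W → Bool := fun x => bxor (c x) (y x) with hr
  have hsupp' : ∀ x, 0 < p x → r x ∈ Om W (2 * M') ∧ y x ∈ Om W (2 * M') ∧ bxor (r x) (y x) ∈ Om W (2 * M') := by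
    intro x hx
    obtain ⟨h1, h2, h3⟩ := hsupp x hx
    refine ⟨h3, h2, ?_⟩
    simp only [hr]
    rw [bxor_bxor_right]
    exact h1
  have hrg : ∀ x, 0 < p x → r (g x) = y x := by
    intro x hx
    simp only [hr]
    rw [hc x hx, hy x hx, bxor_comm, bxor_bxor_right]
  have hmass : ∀ a, mass p r a = mass p y a := by
    intro a
    rw [← mass_comp_equiv g hg r a]
    exact mass_congr_supp hp hrg a
  have hHry : H p (fun x => (r x, y x)) = H p (fun x => (c x, y x)) := by
    apply H_congr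
    intro a b
    simp only [Prod.mk.injEq, hr]
    constructor
    · rintro ⟨h1, h2⟩
      refine ⟨?_, h2⟩
      funext i
      have := congrFun h1 i
      have h3 := congrFun h2 i
      simp only [bxor] at this
      rw [h3] at this
      cases h4 : c a i <;> cases h5 : c b i <;> cases h6 : y b i <;> simp_all
    · rintro ⟨h1, h2⟩
      rw [h1, h2]
      exact ⟨rfl, rfl⟩
  have := (gibbs_KL hW hp r y hsupp').2
  rw [hHry] at this
  have h2 : ∀ s, mass p r s * (Real.log (mass p r s) - Real.log (KL M' (mass p y) s))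
      = mass p y s * (Real.log (mass p y s) - Real.log (KL M' (mass p y) s)) := by
    intro s
    rw [hmass]
  simp_rw [h2] at this
  exact this

/-- The block inequality with a positive constant for each fixed block size. -/
theorem blockProp_pos (s : ℕ) : ∃ κ : ℝ, 0 < κ ∧ κ ≤ 1 ∧ BlockProp s κ := by
  set N : ℝ := (((4 * 2 ^ s).choose (2 * 2 ^ s) : ℕ) : ℝ) with hN
  have hNpos : (1 : ℝ) ≤ N := by
    rw [hN]
    exact_mod_cast Nat.choose_pos (by omega)
  have ho := oo_pos (2 ^ s)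
  set C : ℝ := 1 + 2 / (N / oo (2 ^ s) ^ 2) with hC
  have hβ : 0 < N / oo (2 ^ s) ^ 2 := by positivity
  have hC1 : 1 ≤ C := by
    rw [hC]
    have : 0 < 2 / (N / oo (2 ^ s) ^ 2) := by positivity
    linarith
  refine ⟨1 / (4 * N * C ^ 2), by positivity, ?_, ?_⟩
  · rw [div_le_one (by positivity)]
    have h1 : 1 ≤ C ^ 2 := by nlinarith
    have h2 : 1 ≤ N * C ^ 2 := by nlinarith
    nlinarith
  intro W _ _ hW Ξ _ p hp c y g hg hc hy hsupp
  have hW' : Fintype.card W = 2 * (2 * 2 ^ s) := by omega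
  have hnO : nOm W (2 * 2 ^ s) = N := by
    rw [nOm_eq, hW, hN]
  set D := Real.log (oo (2 ^ s)) - (H p (fun x => (c x, y x)) - H p y) with hD
  set ν := mass p c with hν
  set ρ := mass p y with hρ
  set π' := KL (2 ^ s) ρ with hπ
  have hνL : IsLaw ν := ⟨mass_nonneg hp c, by rw [hν, sum_mass c, hp.2]⟩
  have hρL : IsLaw ρ := ⟨mass_nonneg hp y, by rw [hρ, sum_mass y, hp.2]⟩
  have hρS : ∀ t, t ∉ Om W (2 * 2 ^ s) → ρ t = 0 := fun t ht =>
    mass_eq_zero_of_not_mem hp y (fun t => t ∈ Om W (2 * 2 ^ s)) (fun x hx => (hsupp x hx).2.1) ht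
  have hπL : IsLaw π' := KL_isLaw hW hρL hρS
  obtain ⟨hG0, hG1⟩ := gibbs_KL hW hp c y hsupp
  have hG2 := gibbs_KL_two hW hp c y g hg hc hy hsupp
  have hac1 : ∀ t, π' t = 0 → ν t = 0 := by
    intro t ht
    by_contra hne
    have h1 : 0 < ν t := lt_of_le_of_ne (hνL.1 t) (Ne.symm hne)
    have h2 : ∃ x, 0 < p x ∧ c x = t := by
      by_contra hcon
      push Not at hcon
      apply hne
      rw [hν]
      unfold mass
      apply Finset.sum_eq_zero
      intro x _
      split_ifs with h3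
      · have h4 : ¬ 0 < p x := fun h => hcon x h h3
        exact le_antisymm (not_lt.1 h4) (hp.1 x)
      · rfl
    obtain ⟨x, hx, rfl⟩ := h2
    exact (hG0 x hx).ne' ht
  have hac2 : ∀ t, π' t = 0 → ρ t = 0 := by
    intro t ht
    by_contra hne
    have h1 : 0 < ρ t := lt_of_le_of_ne (hρL.1 t) (Ne.symm hne)
    have h2 : ∃ x, 0 < p x ∧ y x = t := by
      by_contra hcon
      push Not at hcon
      apply hne
      rw [hρ]
      unfold mass
      apply Finset.sum_eq_zero
      intro x _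
      split_ifs with h3
      · have h4 : ¬ 0 < p x := fun h => hcon x h h3
        exact le_antisymm (not_lt.1 h4) (hp.1 x)
      · rfl
    obtain ⟨x, hx, rfl⟩ := h2
    have h5 := hsupp x hx
    -- the value at `y x` is positive because the orthogonal vector `c x + y x` contributes
    have h6 : 0 < KL (2 ^ s) ρ (y x) := by
      have hg' := hg (g.symm x)
      have h7 : 0 < p (g.symm x) := by
        rw [← hg', Equiv.apply_symm_apply]
        exact hx
      have h8 := hG0 (g.symm x) h7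
      -- use that the kernel is positive on the companion vector
      unfold KL at h8 ⊢
      rw [if_pos h5.2.1]
      unfold KF
      have hmemr : bxor (c x) (y x) ∈ Om W (2 * 2 ^ s) := h5.2.2
      have hr0 : ∀ t ∈ Om W (2 * 2 ^ s), 0 ≤ ρ t * (indOm W (2 * 2 ^ s) (bxor (y x) t) / oo (2 ^ s)) :=
        fun t _ => mul_nonneg (hρL.1 t) (div_nonneg (indOm_nonneg _ _) ho.le)
      have hy' : y (g.symm x) = bxor (y x) (c x) := by
        have h9 := hy (g.symm x) h7
        rw [Equiv.apply_symm_apply] at h9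
        have hc9 := hc (g.symm x) h7
        rw [Equiv.apply_symm_apply] at hc9
        rw [h9, hc9, ← bxor_comm (c (g.symm x)) (y (g.symm x)), ← hc9] at *
        funext i
        simp only [bxor]
        cases h10 : c x i <;> cases h11 : y (g.symm x) i <;> simp_all
      have h12 : y (g.symm x) ∈ Om W (2 * 2 ^ s) := (hsupp _ h7).2.1
      have h13 : 0 < ρ (y (g.symm x)) := mass_pos hp y h7
      have h14 : bxor (y x) (y (g.symm x)) = c x := by
        rw [hy']
        funext i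
        simp only [bxor]
        cases c x i <;> cases y x i <;> rfl
      refine lt_of_lt_of_le ?_ (Finset.single_le_sum hr0 h12)
      rw [h14]
      have : indOm W (2 * 2 ^ s) (c x) = 1 := by
        unfold indOm
        rw [if_pos h5.1]
      rw [this]
      positivity
    exact h6.ne' ht
  have hl1 := l1_sq_le ν π' hνL hπL hac1
  have hl2 := l1_sq_le ρ π' hρL hπL hac2
  have hD1 : (∑ x, |ν x - π' x|) ^ 2 ≤ 4 * D := le_trans hl1 (by linarith)
  have hD2 : (∑ x, |ρ x - π' x|) ^ 2 ≤ 4 * D := le_trans hl2 (by linarith)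
  have hD0 : 0 ≤ D := by
    have := sq_nonneg (∑ x, |ν x - π' x|)
    linarith
  set d := Real.sqrt (4 * D) with hd
  have hd0 : 0 ≤ d := Real.sqrt_nonneg _
  have hdsq : d ^ 2 = 4 * D := Real.sq_sqrt (by linarith)
  have hn1 : ∑ x, |ν x - π' x| ≤ d := Real.le_sqrt_of_sq_le hD1
  have hn2 : ∑ x, |ρ x - π' x| ≤ d := Real.le_sqrt_of_sq_le hD2
  have hs1 : l1S (2 ^ s) (fun x => ν x - KF (2 ^ s) ρ x) ≤ d := by
    refine le_trans ?_ hn1
    unfold l1S
    have h1 : ∑ t ∈ Om W (2 * 2 ^ s), |ν t - KF (2 ^ s) ρ t|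
        = ∑ t ∈ Om W (2 * 2 ^ s), |ν t - π' t| := by
      refine Finset.sum_congr rfl fun t ht => ?_
      simp only [hπ, KL, if_pos ht]
    rw [h1]
    exact Finset.sum_le_sum_of_subset_of_nonneg (Finset.subset_univ _) fun _ _ _ => abs_nonneg _
  have hs2 : l1S (2 ^ s) (fun x => ρ x - KF (2 ^ s) ρ x) ≤ d := by
    refine le_trans ?_ hn2
    unfold l1S
    have h1 : ∑ t ∈ Om W (2 * 2 ^ s), |ρ t - KF (2 ^ s) ρ t|
        = ∑ t ∈ Om W (2 * 2 ^ s), |ρ t - π' t| := by
      refine Finset.sum_congr rfl fun t ht => ?_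
      simp only [hπ, KL, if_pos ht]
    rw [h1]
    exact Finset.sum_le_sum_of_subset_of_nonneg (Finset.subset_univ _) fun _ _ _ => abs_nonneg _
  have hρO : ∑ t ∈ Om W (2 * 2 ^ s), ρ t = 1 := by
    rw [← sum_eq_sum_Om hρS, hρL.2]
  have hβ' : 0 < nOm W (2 * 2 ^ s) / oo (2 ^ s) ^ 2 := by rw [hnO]; exact hβ
  have hnear := l1S_le_of_near hW ν ρ hρO d hs1 hs2 hβ'
  rw [hnO, ← hC] at hnear
  have hdef := deficit_le_l1 hW hp (fun x hx => (hsupp x hx).1)
  rw [hnO] at hdef
  have hl0 := l1S_nonneg (W := W) (2 ^ s) (fun t => mass p c t - 1 / N)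
  have hsq : (l1S (W := W) (2 ^ s) (fun t => mass p c t - 1 / N)) ^ 2 ≤ (d * C) ^ 2 :=
    pow_le_pow_left₀ hl0 hnear 2
  have h5 : N * (l1S (W := W) (2 ^ s) (fun t => mass p c t - 1 / N)) ^ 2 ≤ N * (4 * D * C ^ 2) := by
    apply mul_le_mul_of_nonneg_left _ (by linarith)
    calc _ ≤ (d * C) ^ 2 := hsq
      _ = d ^ 2 * C ^ 2 := by ring
      _ = _ := by rw [hdsq]
  rw [hnO]
  have h6 : Real.log N - H p c ≤ N * (4 * D * C ^ 2) := le_trans hdef h5
  have hκ : (0 : ℝ) < 1 / (4 * N * C ^ 2) := by positivity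
  have h7 := mul_le_mul_of_nonneg_left h6 hκ.le
  refine le_trans h7 (le_of_eq ?_)
  have hN0 : N ≠ 0 := by positivity
  have hC0 : C ≠ 0 := by positivity
  field_simp

/-- The block constants have a product bounded away from zero. -/
theorem exists_kappa : ∃ κ : ℕ → ℝ, (∀ s, 0 < κ s) ∧ (∀ s, κ s ≤ 1) ∧ (∀ s, BlockProp s (κ s)) ∧
    ∃ c0 : ℝ, 0 < c0 ∧ ∀ k, c0 ≤ ∏ s ∈ Finset.range k, κ s := by
  classical
  obtain ⟨s0, hs0⟩ := blockProp_large
  set s1 := max s0 1 with hs1
  have hs1a : s0 ≤ s1 := le_max_left _ _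
  have hs1b : 1 ≤ s1 := le_max_right _ _
  choose κ0 hκ0 hκ1 hκ2 using blockProp_pos
  set κ : ℕ → ℝ := fun s => if s1 ≤ s then 1 - 1 / ((s : ℝ) + 1) ^ 2 else κ0 s with hκ
  have hpos : ∀ s, 0 < κ s := by
    intro s
    simp only [hκ]
    split_ifs with h
    · have h1 : (1 : ℝ) ≤ s := by
        have : 1 ≤ s := le_trans hs1b h
        exact_mod_cast this
      have h2 : 1 / ((s : ℝ) + 1) ^ 2 < 1 := by
        rw [div_lt_one (by positivity)]
        nlinarith
      linarith
    · exact hκ0 s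
  have hle : ∀ s, κ s ≤ 1 := by
    intro s
    simp only [hκ]
    split_ifs with h
    · have : 0 < 1 / ((s : ℝ) + 1) ^ 2 := by positivity
      linarith
    · exact hκ1 s
  have hprop : ∀ s, BlockProp s (κ s) := by
    intro s
    simp only [hκ]
    split_ifs with h
    · exact hs0 s (le_trans hs1a h)
    · exact hκ2 s
  set P : ℕ → ℝ := fun k => ∏ s ∈ Finset.range k, κ s with hP
  have hPpos : ∀ k, 0 < P k := fun k => Finset.prod_pos fun s _ => hpos s
  set C0 := P s1 with hC0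
  have hC0pos : 0 < C0 := hPpos s1
  have hanti : ∀ k, P (k + 1) ≤ P k := by
    intro k
    simp only [hP]
    rw [Finset.prod_range_succ]
    exact mul_le_of_le_one_right (hPpos k).le (hle k)
  -- large indices
  have hlarge : ∀ k, s1 ≤ k → C0 * (((k : ℝ) + 1) / (2 * k)) ≤ P k := by
    intro k hk
    induction k, hk using Nat.le_induction with
    | base =>
      have h1 : (1 : ℝ) ≤ s1 := by exact_mod_cast hs1b
      have h2 : ((s1 : ℝ) + 1) / (2 * s1) ≤ 1 := by
        rw [div_le_one (by positivity)]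
        linarith
      calc C0 * (((s1 : ℝ) + 1) / (2 * s1)) ≤ C0 * 1 := mul_le_mul_of_nonneg_left h2 hC0pos.le
        _ = P s1 := by rw [mul_one]
    | succ k hk ih =>
      have hk1 : (1 : ℝ) ≤ k := by
        have : 1 ≤ k := le_trans hs1b hk
        exact_mod_cast this
      have h3 : P (k + 1) = P k * (1 - 1 / ((k : ℝ) + 1) ^ 2) := by
        simp only [hP]
        rw [Finset.prod_range_succ]
        simp only [hκ]
        rw [if_pos hk]
      have h4 : 0 ≤ 1 - 1 / ((k : ℝ) + 1) ^ 2 := by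
        have h2 : 1 / ((k : ℝ) + 1) ^ 2 ≤ 1 := by
          rw [div_le_one (by positivity)]
          nlinarith
        linarith
      rw [h3]
      have h5 := mul_le_mul_of_nonneg_right ih h4
      refine le_trans (le_of_eq ?_) h5
      push_cast
      have hk0 : (k : ℝ) ≠ 0 := by positivity
      have hk2 : (k : ℝ) + 1 ≠ 0 := by positivity
      have hk3 : (k : ℝ) + 1 + 1 ≠ 0 := by positivity
      field_simp
      ring
  have hsmall : ∀ k, k ≤ s1 → C0 ≤ P k := by
    intro k hk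
    have : ∀ j, k + j ≤ s1 → P (k + j) ≤ P k := by
      intro j
      induction j with
      | zero => intro _; exact le_refl _
      | succ j ih =>
        intro h
        exact le_trans (hanti (k + j)) (ih (by omega))
    have h2 := this (s1 - k) (by omega)
    rwa [Nat.add_sub_cancel' hk] at h2
  refine ⟨κ, hpos, hle, hprop, C0 / 2, by positivity, fun k => ?_⟩
  by_cases hk : s1 ≤ k
  · have h1 := hlarge k hk
    have hk1 : (1 : ℝ) ≤ k := by
      have : 1 ≤ k := le_trans hs1b hk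
      exact_mod_cast this
    have h2 : (1 : ℝ) / 2 ≤ ((k : ℝ) + 1) / (2 * k) := by
      rw [div_le_div_iff₀ (by norm_num) (by positivity)]
      linarith
    have h3 : C0 * (1 / 2) ≤ C0 * (((k : ℝ) + 1) / (2 * k)) := mul_le_mul_of_nonneg_left h2 hC0pos.le
    calc C0 / 2 = C0 * (1 / 2) := by ring
      _ ≤ _ := h3
      _ ≤ _ := h1
  · have h1 := hsmall k (by omega)
    have : C0 / 2 ≤ C0 := by linarith
    exact le_trans this h1

end Vale.Agent.Lib.P162
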