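import Vale.Agent.Lib.P162.Perm

/-!
The sweep of resampling operators contracts the entropy deficit by a constant factor.
-/

set_option linter.unusedSectionVars false
set_option linter.unusedVariables false

namespace Vale.Agent.Lib.P162

open Finset

variable {D : ℕ}

/-! ### The size of the group `HS i` -/

/-- Erase the coordinate `i`. -/
def maskF (i : Fin D) (x : QQ D) : {w : QQ D // w i = false} :=
  ⟨Function.update x i false, by simp⟩

/-- The permutation flipping the coordinate `i` according to the coins `c`. -/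
def flipc (i : Fin D) (c : {w : QQ D // w i = false} → Bool) (x : QQ D) : QQ D :=
  Function.update x i (xor (x i) (c (maskF i x)))

theorem maskF_flipc (i : Fin D) (c : {w : QQ D // w i = false} → Bool) (x : QQ D) :
    maskF i (flipc i c x) = maskF i x := by
  apply Subtype.ext
  funext j
  by_cases h : j = i
  · subst h
    simp [maskF]
  · simp [maskF, flipc, Function.update_of_ne h]

theorem flipc_self (i : Fin D) (c : {w : QQ D // w i = false} → Bool) (x : QQ D) :
    flipc i c x i = xor (x i) (c (maskF i x)) := by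
  simp [flipc]

theorem flipc_ne {i j : Fin D} (h : j ≠ i) (c : {w : QQ D // w i = false} → Bool) (x : QQ D) :
    flipc i c x j = x j := by
  simp [flipc, Function.update_of_ne h]

theorem flipc_invol (i : Fin D) (c : {w : QQ D // w i = false} → Bool) :
    Function.Involutive (flipc i c) := by
  intro x
  funext j
  by_cases h : j = i
  · subst h
    rw [flipc_self, flipc_self, maskF_flipc]
    cases x j <;> cases c (maskF j x) <;> rfl
  · rw [flipc_ne h, flipc_ne h]

/-- The flip as a permutation. -/
def flipP (i : Fin D) (c : {w : QQ D // w i = false} → Bool) : GG D :=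
  Function.Involutive.toPerm (flipc i c) (flipc_invol i c)

theorem flipP_apply (i : Fin D) (c : {w : QQ D // w i = false} → Bool) (x : QQ D) :
    flipP i c x = flipc i c x := rfl

theorem flipP_inv (i : Fin D) (c : {w : QQ D // w i = false} → Bool) :
    (flipP i c)⁻¹ = flipP i c := by
  apply inv_eq_of_mul_eq_one_left
  ext1 x
  simp only [Equiv.Perm.mul_apply, flipP_apply, Equiv.Perm.one_apply]
  rw [flipc_invol i c x]

theorem flipP_mem (i : Fin D) (c : {w : QQ D // w i = false} → Bool) : flipP i c ∈ HS i := by
  rw [mem_HS]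
  intro x j hj
  rw [flipP_apply, flipc_ne hj]

/-- The coins of an element of `HS i`. -/
def coinOf (i : Fin D) (u : GG D) : {w : QQ D // w i = false} → Bool := fun w => u w.1 i

theorem maskF_self (i : Fin D) (w : {w : QQ D // w i = false}) : maskF i w.1 = w := by
  apply Subtype.ext
  funext j
  by_cases h : j = i
  · subst h
    simp [maskF, w.2]
  · simp [maskF, Function.update_of_ne h]

theorem coinOf_flipP (i : Fin D) (c : {w : QQ D // w i = false} → Bool) :
    coinOf i (flipP i c) = c := by
  funext w
  simp only [coinOf, flipP_apply]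
  rw [flipc_self, maskF_self, w.2]
  simp

theorem flipP_coinOf {i : Fin D} {u : GG D} (hu : u ∈ HS i) : flipP i (coinOf i u) = u := by
  have hu' := mem_HS.1 hu
  ext1 x
  rw [flipP_apply]
  funext j
  by_cases hj : j = i
  · subst hj
    rw [flipc_self]
    simp only [coinOf]
    set w := (maskF j x).1 with hw
    by_cases hx : x j = false
    · have : w = x := by
        rw [hw]
        funext l
        by_cases h : l = j
        · subst h
          simp [maskF, hx]
        · simp [maskF, Function.update_of_ne h]
      rw [this, hx]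
      simp
    · have hxt : x j = true := by simpa using hx
      have hne : w ≠ x := by
        intro h
        have h2 : w j = false := (maskF j x).2
        rw [h, hxt] at h2
        exact absurd h2 (by simp)
      have hne2 : u w ≠ u x := fun h => hne (u.injective h)
      have hsame : ∀ l, l ≠ j → u w l = u x l := by
        intro l hl
        rw [hu' w l hl, hu' x l hl, hw]
        simp [maskF, Function.update_of_ne hl]
      have hbit : u x j = ! u w j := by
        by_contra hcon
        apply hne2
        funext l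
        by_cases h : l = j
        · subst h
          cases h1 : u x l <;> cases h2 : u w l <;> simp_all
        · exact hsame l h
      rw [hxt, hbit]
      cases u w j <;> rfl
  · rw [flipc_ne hj, hu' x j hj]

theorem sum_HS (i : Fin D) (f : GG D → ℝ) :
    ∑ u ∈ HS i, f u = ∑ c : {w : QQ D // w i = false} → Bool, f (flipP i c) := by
  refine Finset.sum_nbij' (coinOf i) (flipP i) ?_ ?_ ?_ ?_ ?_
  · intro u _; exact Finset.mem_univ _
  · intro c _; exact flipP_mem i c
  · intro u hu; exact flipP_coinOf hu
  · intro c _; exact coinOf_flipP i c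
  · intro u hu; rw [flipP_coinOf hu]

theorem card_half (i : Fin D) : Fintype.card {w : QQ D // w i = false} = 2 ^ (D - 1) := by
  classical
  have h1 : ∀ w : QQ D, w i = false ↔ mask {i} w = mask {i} (fun _ => false) := by
    intro w
    rw [mask_eq_iff]
    simp
  have h2 := card_fiber (D := D) {i} (mask_mem_BSet {i} (fun _ => false))
  rw [Finset.card_singleton] at h2
  rw [← h2]
  exact Fintype.card_congr (Equiv.subtypeEquivRight h1)

theorem card_HS_eq (i : Fin D) : (HS i).card = 2 ^ (2 ^ (D - 1)) := by
  classical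
  have h := sum_HS i (fun _ => (1 : ℝ))
  simp only [Finset.sum_const, nsmul_eq_mul, mul_one] at h
  have h2 : (Finset.univ : Finset ({w : QQ D // w i = false} → Bool)).card = 2 ^ (2 ^ (D - 1)) := by
    rw [Finset.card_univ, Fintype.card_fun, Fintype.card_bool, card_half]
  rw [h2] at h
  exact_mod_cast h

theorem log_card_HS (i : Fin D) :
    Real.log ((HS i).card : ℝ) = (2 : ℝ) ^ (D - 1) * Real.log 2 := by
  rw [card_HS_eq]
  push_cast
  rw [Real.log_pow]
  push_cast
  rfl

theorem AA_top (hD : 0 < D) : AA D (D - 1) = (2 : ℝ) ^ (D - 1) * Real.log 2 := by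
  unfold AA
  have h1 : D - (D - 1) - 1 = 0 := by omega
  have h2 : D - (D - 1) = 1 := by omega
  rw [h1, h2]
  norm_num

theorem sum_AA (D : ℕ) : ∑ r ∈ Finset.range D, AA D r = Real.log ((2 ^ D).factorial : ℕ) := by
  induction D with
  | zero => simp
  | succ D ih =>
    rw [Finset.sum_range_succ']
    have h1 : ∀ r ∈ Finset.range D, AA (D + 1) (r + 1) = 2 * AA D r := by
      intro r _
      unfold AA
      have h2 : D + 1 - (r + 1) = D - r := by omega
      rw [h2, pow_succ]
      ring
    rw [Finset.sum_congr rfl h1, ← Finset.mul_sum, ih]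
    unfold AA
    have h3 : D + 1 - 0 - 1 = D := by omega
    have h4 : D + 1 - 0 = D + 1 := by omega
    rw [h3, h4]
    set m := 2 ^ D with hm
    have h5 : 2 ^ (D + 1) = 2 * m := by rw [hm, pow_succ]; ring
    rw [h5]
    have hfac := Nat.choose_mul_factorial_mul_factorial (n := 2 * m) (k := m) (by omega)
    have h6 : 2 * m - m = m := by omega
    rw [h6] at hfac
    have hc : (0 : ℝ) < ((2 * m).choose m : ℕ) := by
      have := Nat.choose_pos (n := 2 * m) (k := m) (by omega)
      exact_mod_cast this
    have hf : (0 : ℝ) < (m.factorial : ℕ) := by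
      exact_mod_cast Nat.factorial_pos m
    rw [← hfac]
    push_cast
    rw [Real.log_mul (by positivity) hf.ne', Real.log_mul hc.ne' hf.ne']
    simp
    ring

/-! ### The stages of a sweep -/

/-- The set of revealed coordinates at stage `i` for the level `k`. -/
def TT (D k i : ℕ) : Finset (Fin D) := Finset.univ.filter fun j => j.val < i ∨ k < j.val

theorem TT_succ {k i : ℕ} (hi : i < D) : TT D k (i + 1) = insert ⟨i, hi⟩ (TT D k i) := by
  ext j
  simp only [TT, Finset.mem_filter, Finset.mem_univ, true_and, Finset.mem_insert, Fin.ext_iff]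
  omega

theorem not_mem_TT_i {k i : ℕ} (hik : i ≤ k) (hi : i < D) : (⟨i, hi⟩ : Fin D) ∉ TT D k i := by
  simp only [TT, Finset.mem_filter, Finset.mem_univ, true_and]
  omega

theorem not_mem_TT_k {k : Fin D} {i : ℕ} (hik : i ≤ k.val) : k ∉ TT D k.val i := by
  simp only [TT, Finset.mem_filter, Finset.mem_univ, true_and]
  omega

theorem card_TT {k : Fin D} {i : ℕ} (hik : i ≤ k.val) :
    (TT D k.val i).card = i + (D - 1 - k.val) := by
  induction i with
  | zero =>
    have h : TT D k.val 0 = Finset.Ioi k := by
      ext j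
      simp only [TT, Finset.mem_filter, Finset.mem_univ, true_and, Finset.mem_Ioi, Fin.lt_def]
      omega
    rw [h, Fin.card_Ioi]
    omega
  | succ i ih =>
    have hiD : i < D := by omega
    rw [TT_succ hiD, Finset.card_insert_of_notMem (not_mem_TT_i (by omega) hiD), ih (by omega)]
    omega

theorem TT_self (k : Fin D) : TT D k.val k.val = Finset.univ.erase k := by
  ext j
  simp only [TT, Finset.mem_filter, Finset.mem_univ, true_and, Finset.mem_erase, and_true, ne_eq,
    Fin.ext_iff]
  omega

theorem insert_TT_self (k : Fin D) : insert k (TT D k.val k.val) = Finset.univ := by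
  rw [TT_self]
  exact Finset.insert_erase (Finset.mem_univ k)

/-- The top coordinates. -/
def Upp (D n : ℕ) : Finset (Fin D) := Finset.univ.filter fun j => n ≤ j.val

theorem TT_zero (k : Fin D) : TT D k.val 0 = Upp D (k.val + 1) := by
  ext j
  simp only [TT, Upp, Finset.mem_filter, Finset.mem_univ, true_and]
  omega

theorem insert_Upp (k : Fin D) : insert k (Upp D (k.val + 1)) = Upp D k.val := by
  ext j
  simp only [Upp, Finset.mem_filter, Finset.mem_univ, true_and, Finset.mem_insert, Fin.ext_iff]
  omega

theorem Upp_zero : Upp D 0 = Finset.univ := by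
  ext j
  simp [Upp]

theorem Upp_top : Upp D D = ∅ := by
  ext j
  simp only [Upp, Finset.mem_filter, Finset.mem_univ, true_and, Finset.notMem_empty, iff_false]
  have := j.2
  omega

theorem hh_empty {μ : GG D → ℝ} (hμ : IsLaw μ) : hh μ ∅ = 0 := by
  have : YY (D := D) ∅ = fun _ => fun _ => fun _ => false := by
    funext η z j
    simp [YY, mask]
  unfold hh
  rw [this]
  exact H_const hμ _

section Sweep

variable (ν : ℕ → GG D → ℝ) (h0 : IsLaw (ν 0))
  (hstep : ∀ (i : ℕ) (hi : i < D), ν (i + 1) = PP ⟨i, hi⟩ (ν i))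

include h0 hstep

theorem stage_law (i : ℕ) (hi : i ≤ D) : IsLaw (ν i) := by
  induction i with
  | zero => exact h0
  | succ i ih =>
    rw [hstep i (by omega)]
    exact PP_isLaw _ (ih (by omega))

theorem stage_inv (i : ℕ) (hi : i < D) :
    ∀ u ∈ HS (⟨i, hi⟩ : Fin D), ∀ η, ν (i + 1) (u * η) = ν (i + 1) η := by
  intro u hu η
  rw [hstep i hi]
  exact PP_inv _ _ hu η

omit h0 hstep

/-- The deficit of the level `k` at the stage `i`. -/
noncomputable def xx (k : Fin D) (i : ℕ) : ℝ :=
  AA D (i + (D - 1 - k.val)) - (hh (ν i) (insert k (TT D k.val i)) - hh (ν i) (TT D k.val i))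

include h0 hstep

theorem xx_step {k : Fin D} {i : ℕ} (hik : i < k.val) {κ : ℝ} (hκ : BlockProp (k.val - i - 1) κ) :
    κ * xx ν k i ≤ xx ν k (i + 1) := by
  have hkD := k.2
  have hiD : i < D := by omega
  set T := TT D k.val i with hT
  set i' : Fin D := ⟨i, hiD⟩ with hi'
  have h1 : i' ∉ T := not_mem_TT_i hik.le hiD
  have h2 : k ∉ T := not_mem_TT_k hik.le
  have hne : i' ≠ k := by
    intro h
    have := congrArg Fin.val h
    simp only [hi'] at this
    omega
  have hcard : T.card = i + (D - 1 - k.val) := card_TT hik.le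
  have hL : IsLaw (ν (i + 1)) := stage_law ν h0 hstep (i + 1) (by omega)
  have hmain := main_lemma hL hne h1 h2 (s := k.val - i - 1) (by omega) hκ (stage_inv ν h0 hstep i hiD)
  have h3 : hh (ν (i + 1)) T = hh (ν i) T := by
    rw [hstep i hiD]
    exact hh_PP _ h1
  have h4 : hh (ν (i + 1)) (insert k T) = hh (ν i) (insert k T) := by
    rw [hstep i hiD]
    refine hh_PP _ ?_
    simp only [Finset.mem_insert, not_or]
    exact ⟨hne, h1⟩
  rw [h3, h4, hcard] at hmain
  unfold xx
  rw [← hT, TT_succ hiD, ← hT, ← hi', Finset.insert_comm k i', add_right_comm i 1]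
  exact hmain

theorem xx_last (k : Fin D) : xx ν k k.val = hh (ν (k.val + 1)) Finset.univ - hh (ν k.val) Finset.univ := by
  have hkD := k.2
  have hL := stage_law ν h0 hstep k.val hkD.le
  unfold xx
  rw [insert_TT_self, TT_self]
  have h1 : k.val + (D - 1 - k.val) = D - 1 := by omega
  rw [h1, AA_top (by omega)]
  have h2 := hh_PP_univ k hL
  rw [log_card_HS] at h2
  have h3 : ν (k.val + 1) = PP k (ν k.val) := hstep k.val hkD
  rw [h3, h2]
  ring

theorem xx_first_nonneg (k : Fin D) : 0 ≤ xx ν k 0 := by
  have hkD := k.2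
  have hcard : (TT D k.val 0).card = 0 + (D - 1 - k.val) := card_TT (Nat.zero_le _)
  have h := deficit_nonneg (stage_law ν h0 hstep 0 (Nat.zero_le _)) (not_mem_TT_k (k := k) (Nat.zero_le _))
    (s := k.val) (by omega)
  rw [hcard] at h
  unfold xx
  linarith

theorem xx_prod {κ : ℕ → ℝ} (hκpos : ∀ s, 0 < κ s) (hκ : ∀ s, BlockProp s (κ s)) (k : Fin D) (j : ℕ)
    (hj : j ≤ k.val) : (∏ s ∈ Finset.range j, κ s) * xx ν k (k.val - j) ≤ xx ν k k.val := by
  induction j with
  | zero => simp
  | succ j ih =>
    have h1 := ih (by omega)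
    have h2 := xx_step ν h0 hstep (k := k) (i := k.val - (j + 1)) (by omega) (κ := κ j)
      (by
        have : k.val - (k.val - (j + 1)) - 1 = j := by omega
        rw [this]
        exact hκ j)
    have h3 : k.val - (j + 1) + 1 = k.val - j := by omega
    rw [h3] at h2
    have hP : 0 ≤ ∏ s ∈ Finset.range j, κ s := Finset.prod_nonneg fun s _ => (hκpos s).le
    rw [Finset.prod_range_succ, mul_assoc]
    exact le_trans (mul_le_mul_of_nonneg_left h2 hP) h1

/-- The entropy deficit contracts along a sweep. -/
theorem sweep_contract {c0 : ℝ} {κ : ℕ → ℝ} (hκpos : ∀ s, 0 < κ s) (hκ : ∀ s, BlockProp s (κ s))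
    (hc0 : ∀ k, c0 ≤ ∏ s ∈ Finset.range k, κ s) :
    c0 * (Real.log ((2 ^ D).factorial : ℕ) - hh (ν 0) Finset.univ)
      ≤ hh (ν D) Finset.univ - hh (ν 0) Finset.univ := by
  have h1 : ∀ k : Fin D, c0 * xx ν k 0 ≤ xx ν k k.val := by
    intro k
    have h2 := xx_prod ν h0 hstep hκpos hκ k k.val le_rfl
    rw [Nat.sub_self] at h2
    exact le_trans (mul_le_mul_of_nonneg_right (hc0 k.val) (xx_first_nonneg ν h0 hstep k)) h2
  have h2 : ∑ k : Fin D, xx ν k 0 = Real.log ((2 ^ D).factorial : ℕ) - hh (ν 0) Finset.univ := by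
    have h3 : ∀ k : Fin D, xx ν k 0 = AA D (D - 1 - k.val)
        - (hh (ν 0) (Upp D k.val) - hh (ν 0) (Upp D (k.val + 1))) := by
      intro k
      unfold xx
      rw [TT_zero, insert_Upp, zero_add]
    simp_rw [h3]
    rw [Fin.sum_univ_eq_sum_range (fun k => AA D (D - 1 - k)
        - (hh (ν 0) (Upp D k) - hh (ν 0) (Upp D (k + 1)))) D]
    rw [Finset.sum_sub_distrib, Finset.sum_range_reflect (fun k => AA D k) D, sum_AA,
      Finset.sum_range_sub', Upp_zero, Upp_top, hh_empty h0]
    ring
  have h3 : ∑ k : Fin D, xx ν k k.val = hh (ν D) Finset.univ - hh (ν 0) Finset.univ := by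
    simp_rw [xx_last ν h0 hstep]
    rw [Fin.sum_univ_eq_sum_range (fun k => hh (ν (k + 1)) Finset.univ - hh (ν k) Finset.univ) D]
    exact Finset.sum_range_sub (fun k => hh (ν k) Finset.univ) D
  rw [← h2, ← h3, Finset.mul_sum]
  exact Finset.sum_le_sum fun k _ => h1 k

end Sweep

end Vale.Agent.Lib.P162
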