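import Mathlib

/-!
Walsh analysis on the Boolean cube `W → Bool`, the two-point inequality, the integer moment
hypercontractive inequality and the level inequality.
-/

set_option linter.unusedSectionVars false
set_option linter.unusedVariables false

namespace Vale.Agent.Lib.P162

open Finset

/-- The sign character on `Bool`. -/
def sg (b : Bool) : ℝ := if b then -1 else 1

@[simp] theorem sg_true : sg true = -1 := rfl
@[simp] theorem sg_false : sg false = 1 := rfl

theorem sg_mul_self (b : Bool) : sg b * sg b = 1 := by cases b <;> simp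

theorem sg_xor (a b : Bool) : sg (xor a b) = sg a * sg b := by cases a <;> cases b <;> simp

theorem sg_not (a : Bool) : sg (!a) = - sg a := by cases a <;> simp

theorem sg_eq_or (a : Bool) : sg a = 1 ∨ sg a = -1 := by cases a <;> simp

variable {W : Type*} [Fintype W] [DecidableEq W]

/-- The Walsh character of the subset `U`. -/
def chi (U : Finset W) (x : W → Bool) : ℝ := ∏ i ∈ U, sg (x i)

/-- Coordinatewise exclusive or. -/
def bxor (s t : W → Bool) : W → Bool := fun i => xor (s i) (t i)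

theorem chi_bxor (U : Finset W) (s t : W → Bool) : chi U (bxor s t) = chi U s * chi U t := by
  unfold chi bxor
  rw [← Finset.prod_mul_distrib]
  exact Finset.prod_congr rfl fun i _ => sg_xor _ _

theorem chi_mul_self (U : Finset W) (x : W → Bool) : chi U x * chi U x = 1 := by
  unfold chi
  rw [← Finset.prod_mul_distrib]
  exact Finset.prod_eq_one fun i _ => sg_mul_self _

theorem chi_abs (U : Finset W) (x : W → Bool) : |chi U x| = 1 := by
  have h := chi_mul_self U x
  have : |chi U x| * |chi U x| = 1 := by rw [← abs_mul, h, abs_one]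
  nlinarith [abs_nonneg (chi U x)]

/-- The Walsh coefficient. -/
noncomputable def fh (φ : (W → Bool) → ℝ) (U : Finset W) : ℝ :=
  (∑ x, φ x * chi U x) / 2 ^ Fintype.card W

/-- The completeness relation of the Walsh characters. -/
theorem sum_chi_mul_chi (x y : W → Bool) :
    ∑ U : Finset W, chi U x * chi U y = if x = y then (2 : ℝ) ^ Fintype.card W else 0 := by
  have h1 : ∀ U : Finset W, chi U x * chi U y = ∏ i ∈ U, (sg (x i) * sg (y i)) := by
    intro U
    unfold chi
    rw [Finset.prod_mul_distrib]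
  simp_rw [h1]
  have h2 := Finset.prod_add (fun i => sg (x i) * sg (y i)) (fun _ => (1 : ℝ)) (Finset.univ : Finset W)
  simp only [Finset.prod_const_one, mul_one, Finset.powerset_univ] at h2
  rw [← h2]
  by_cases hxy : x = y
  · rw [if_pos hxy, hxy]
    have : ∀ i, sg (y i) * sg (y i) + 1 = 2 := fun i => by rw [sg_mul_self]; norm_num
    simp_rw [this]
    simp
  · rw [if_neg hxy]
    obtain ⟨i, hi⟩ := Function.ne_iff.1 hxy
    refine Finset.prod_eq_zero (Finset.mem_univ i) ?_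
    revert hi
    cases x i <;> cases y i <;> simp

theorem fh_inversion (φ : (W → Bool) → ℝ) (x : W → Bool) :
    ∑ U : Finset W, fh φ U * chi U x = φ x := by
  have h2 : (2 : ℝ) ^ Fintype.card W ≠ 0 := by positivity
  unfold fh
  have : ∀ U : Finset W, (∑ y, φ y * chi U y) / 2 ^ Fintype.card W * chi U x
      = (∑ y, φ y * (chi U y * chi U x)) / 2 ^ Fintype.card W := by
    intro U
    rw [div_mul_eq_mul_div, Finset.sum_mul]
    congr 1
    exact Finset.sum_congr rfl fun y _ => by ring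
  simp_rw [this]
  rw [← Finset.sum_div, Finset.sum_comm]
  simp_rw [← Finset.mul_sum, sum_chi_mul_chi]
  simp [h2]

/-- Parseval's identity. -/
theorem parseval (φ ψ : (W → Bool) → ℝ) :
    (∑ x, φ x * ψ x) / 2 ^ Fintype.card W = ∑ U : Finset W, fh φ U * fh ψ U := by
  have h : ∀ x, φ x * ψ x = ∑ U : Finset W, φ x * (fh ψ U * chi U x) := by
    intro x
    rw [← Finset.mul_sum, fh_inversion]
  simp_rw [h]
  rw [Finset.sum_comm, Finset.sum_div]
  refine Finset.sum_congr rfl fun U _ => ?_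
  have h3 : ∑ x, φ x * (fh ψ U * chi U x) = fh ψ U * ∑ x, φ x * chi U x := by
    rw [Finset.mul_sum]
    exact Finset.sum_congr rfl fun x _ => by ring
  rw [h3]
  unfold fh
  ring

/-! ### The convolution identity -/

/-- The convolution identity on the cube. -/
theorem conv_identity (φ ψ g : (W → Bool) → ℝ) :
    (∑ s, ∑ t, φ s * ψ t * g (bxor s t)) / (2 ^ Fintype.card W * 2 ^ Fintype.card W)
      = ∑ U : Finset W, fh g U * fh φ U * fh ψ U := by
  have h : ∀ s t, φ s * ψ t * g (bxor s t)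
      = ∑ U : Finset W, fh g U * (φ s * chi U s) * (ψ t * chi U t) := by
    intro s t
    rw [← fh_inversion g (bxor s t), Finset.mul_sum]
    refine Finset.sum_congr rfl fun U _ => ?_
    rw [chi_bxor]; ring
  simp_rw [h]
  have h2 : ∑ s : W → Bool, ∑ t : W → Bool, ∑ U : Finset W, fh g U * (φ s * chi U s) * (ψ t * chi U t)
      = ∑ U : Finset W, ∑ s : W → Bool, ∑ t : W → Bool, fh g U * (φ s * chi U s) * (ψ t * chi U t) := by
    calc _ = ∑ s : W → Bool, ∑ U : Finset W, ∑ t : W → Bool, fh g U * (φ s * chi U s) * (ψ t * chi U t) :=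
          Finset.sum_congr rfl fun s _ => Finset.sum_comm
      _ = _ := Finset.sum_comm
  rw [h2, Finset.sum_div]
  refine Finset.sum_congr rfl fun U _ => ?_
  have h3 : ∑ s : W → Bool, ∑ t : W → Bool, fh g U * (φ s * chi U s) * (ψ t * chi U t)
      = fh g U * (∑ s, φ s * chi U s) * (∑ t, ψ t * chi U t) := by
    rw [mul_assoc, Finset.sum_mul_sum, Finset.mul_sum]
    refine Finset.sum_congr rfl fun s _ => ?_
    rw [Finset.mul_sum]
    exact Finset.sum_congr rfl fun t _ => by ring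
  rw [h3]
  unfold fh
  ring

/-! ### The two point inequality -/

/-- Sum over `range (2r+1)` of a function vanishing at odd numbers. -/
theorem sum_range_even (g : ℕ → ℝ) (hg : ∀ j, g (2 * j + 1) = 0) (r : ℕ) :
    ∑ m ∈ Finset.range (2 * r + 1), g m = ∑ j ∈ Finset.range (r + 1), g (2 * j) := by
  induction r with
  | zero => simp
  | succ r ih =>
    rw [show 2 * (r + 1) + 1 = (2 * r + 1) + 1 + 1 by ring, Finset.sum_range_succ,
      Finset.sum_range_succ, ih, hg r, Finset.sum_range_succ _ (r + 1)]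
    rw [show 2 * r + 1 + 1 = 2 * (r + 1) by ring]
    ring

/-- The binomial coefficient inequality behind the two point inequality. -/
theorem choose_two_mul_le (r j : ℕ) (hj : j ≤ r) (hr : 1 ≤ r) :
    (Nat.choose (2 * r) (2 * j) : ℝ) ≤ Nat.choose r j * (2 * (r : ℝ) - 1) ^ j := by
  induction j with
  | zero => simp
  | succ j ih =>
    have ih' := ih (by omega)
    obtain ⟨e, rfl⟩ : ∃ e, r = j + 1 + e := ⟨r - (j + 1), by omega⟩
    have h1 := Nat.choose_succ_right_eq (2 * (j + 1 + e)) (2 * j)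
    have h2 := Nat.choose_succ_right_eq (2 * (j + 1 + e)) (2 * j + 1)
    have h3 := Nat.choose_succ_right_eq (j + 1 + e) j
    rw [show 2 * (j + 1 + e) - 2 * j = 2 * e + 2 by omega] at h1
    rw [show 2 * (j + 1 + e) - (2 * j + 1) = 2 * e + 1 by omega] at h2
    rw [show j + 1 + e - j = e + 1 by omega] at h3
    have h1' : (Nat.choose (2 * (j + 1 + e)) (2 * j + 1) : ℝ) * ((2 * j : ℝ) + 1)
        = Nat.choose (2 * (j + 1 + e)) (2 * j) * (2 * e + 2) := by exact_mod_cast h1
    have h2' : (Nat.choose (2 * (j + 1 + e)) (2 * j + 1 + 1) : ℝ) * ((2 * j : ℝ) + 1 + 1)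
        = Nat.choose (2 * (j + 1 + e)) (2 * j + 1) * (2 * e + 1) := by exact_mod_cast h2
    have h3' : (Nat.choose (j + 1 + e) (j + 1) : ℝ) * ((j : ℝ) + 1)
        = Nat.choose (j + 1 + e) j * (e + 1) := by exact_mod_cast h3
    set X := (Nat.choose (2 * (j + 1 + e)) (2 * j) : ℝ) with hX
    set X1 := (Nat.choose (2 * (j + 1 + e)) (2 * j + 1) : ℝ) with hX1
    set X2 := (Nat.choose (2 * (j + 1 + e)) (2 * j + 1 + 1) : ℝ) with hX2
    set Y := (Nat.choose (j + 1 + e) j : ℝ) with hY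
    set Y1 := (Nat.choose (j + 1 + e) (j + 1) : ℝ) with hY1
    have hX2goal : (Nat.choose (2 * (j + 1 + e)) (2 * (j + 1)) : ℝ) = X2 := by
      rw [hX2]; congr 2
    rw [hX2goal]
    push_cast at ih' ⊢
    set L := (2 * ((j : ℝ) + 1 + (e : ℝ)) - 1) with hL
    have hLpos : 0 ≤ L := by
      rw [hL]
      have : (0 : ℝ) ≤ j := Nat.cast_nonneg j
      have : (0 : ℝ) ≤ e := Nat.cast_nonneg e
      linarith
    have hjn : (0 : ℝ) ≤ j := Nat.cast_nonneg j
    have hen : (0 : ℝ) ≤ e := Nat.cast_nonneg e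
    have hY0 : 0 ≤ Y := Nat.cast_nonneg _
    have hY10 : 0 ≤ Y1 := Nat.cast_nonneg _
    -- X2 (2j+2)(2j+1) = X (2e+2)(2e+1)
    have e1 : X2 * ((2 * j + 2) * (2 * j + 1)) = X * ((2 * e + 2) * (2 * e + 1)) := by
      have : X2 * ((2 * (j : ℝ) + 1 + 1)) * (2 * j + 1) = X1 * (2 * e + 1) * (2 * j + 1) := by
        rw [h2']
      have h5 : X1 * (2 * (e : ℝ) + 1) * (2 * j + 1) = (X1 * (2 * j + 1)) * (2 * e + 1) := by ring
      rw [h5, h1'] at this
      linarith
    have hLj : 0 ≤ L ^ j := pow_nonneg hLpos j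
    have e2 : X * ((2 * (e : ℝ) + 2) * (2 * e + 1)) ≤ Y * L ^ j * ((2 * e + 2) * (2 * e + 1)) :=
      mul_le_mul_of_nonneg_right ih' (by positivity)
    have e3 : Y * L ^ j * ((2 * (e : ℝ) + 2) * (2 * e + 1))
        = (Y * (e + 1)) * L ^ j * (2 * (2 * e + 1)) := by ring
    have e4 : (Y * ((e : ℝ) + 1)) * L ^ j * (2 * (2 * e + 1))
        = Y1 * (j + 1) * L ^ j * (2 * (2 * e + 1)) := by rw [h3']
    have e5 : (2 * (e : ℝ) + 1) ≤ L * (2 * j + 1) := by
      rw [hL]; nlinarith
    have e6 : Y1 * ((j : ℝ) + 1) * L ^ j * (2 * (2 * e + 1))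
        ≤ Y1 * (j + 1) * L ^ j * (2 * (L * (2 * j + 1))) := by
      apply mul_le_mul_of_nonneg_left
      · linarith
      · positivity
    have e7 : X2 * ((2 * (j : ℝ) + 2) * (2 * j + 1))
        ≤ (Y1 * L ^ (j + 1)) * ((2 * j + 2) * (2 * j + 1)) := by
      calc _ = X * ((2 * (e : ℝ) + 2) * (2 * e + 1)) := e1
        _ ≤ _ := e2
        _ = _ := e3
        _ = _ := e4
        _ ≤ _ := e6
        _ = _ := by rw [pow_succ]; ring
    exact le_of_mul_le_mul_right e7 (by positivity)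

/-- The two point inequality. -/
theorem two_point (r : ℕ) (hr : 1 ≤ r) (ρ a b : ℝ) (hρ : ρ ^ 2 * (2 * (r : ℝ) - 1) = 1) :
    ((a + ρ * b) ^ (2 * r) + (a - ρ * b) ^ (2 * r)) / 2 ≤ (a ^ 2 + b ^ 2) ^ r := by
  set u := ρ * b with hu
  have h1 : (a + u) ^ (2 * r) = ∑ m ∈ Finset.range (2 * r + 1),
      u ^ m * a ^ (2 * r - m) * (Nat.choose (2 * r) m : ℝ) := by
    rw [add_comm, add_pow]
  have h2 : (a - u) ^ (2 * r) = ∑ m ∈ Finset.range (2 * r + 1),
      (-u) ^ m * a ^ (2 * r - m) * (Nat.choose (2 * r) m : ℝ) := by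
    rw [sub_eq_add_neg, add_comm, add_pow]
  rw [h1, h2, ← Finset.sum_add_distrib, Finset.sum_div]
  set g : ℕ → ℝ := fun m => (u ^ m * a ^ (2 * r - m) * (Nat.choose (2 * r) m : ℝ)
      + (-u) ^ m * a ^ (2 * r - m) * (Nat.choose (2 * r) m : ℝ)) / 2 with hg
  have hodd : ∀ j, g (2 * j + 1) = 0 := by
    intro j
    simp only [hg]
    rw [Odd.neg_pow ⟨j, rfl⟩]
    ring
  rw [sum_range_even g hodd r]
  have hexp : (a ^ 2 + b ^ 2) ^ r = ∑ j ∈ Finset.range (r + 1),
      (b ^ 2) ^ j * (a ^ 2) ^ (r - j) * (Nat.choose r j : ℝ) := by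
    rw [add_comm, add_pow]
  rw [hexp]
  refine Finset.sum_le_sum fun j hj => ?_
  have hjr : j ≤ r := by
    have := Finset.mem_range.1 hj; omega
  simp only [hg]
  rw [Even.neg_pow ⟨j, by ring⟩]
  have hc := choose_two_mul_le r j hjr hr
  have hL : (ρ ^ 2) ^ j * (2 * (r : ℝ) - 1) ^ j = 1 := by
    rw [← mul_pow, hρ, one_pow]
  have e1 : u ^ (2 * j) = (ρ ^ 2) ^ j * (b ^ 2) ^ j := by
    rw [hu, mul_pow, pow_mul, pow_mul]
  have e2 : a ^ (2 * r - 2 * j) = (a ^ 2) ^ (r - j) := by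
    rw [← pow_mul]; congr 1; omega
  rw [e1, e2]
  have hρj : 0 ≤ (ρ ^ 2) ^ j := by positivity
  have hb : 0 ≤ (b ^ 2) ^ j := by positivity
  have ha : 0 ≤ (a ^ 2) ^ (r - j) := by positivity
  have hc2 : (ρ ^ 2) ^ j * (Nat.choose (2 * r) (2 * j) : ℝ) ≤ Nat.choose r j := by
    calc _ ≤ (ρ ^ 2) ^ j * (Nat.choose r j * (2 * (r : ℝ) - 1) ^ j) :=
          mul_le_mul_of_nonneg_left hc hρj
      _ = Nat.choose r j * ((ρ ^ 2) ^ j * (2 * (r : ℝ) - 1) ^ j) := by ring
      _ = _ := by rw [hL, mul_one]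
  have : ((ρ ^ 2) ^ j * (b ^ 2) ^ j * (a ^ 2) ^ (r - j) * (Nat.choose (2 * r) (2 * j) : ℝ)
      + (ρ ^ 2) ^ j * (b ^ 2) ^ j * (a ^ 2) ^ (r - j) * (Nat.choose (2 * r) (2 * j) : ℝ)) / 2
      = (b ^ 2) ^ j * (a ^ 2) ^ (r - j) * ((ρ ^ 2) ^ j * (Nat.choose (2 * r) (2 * j) : ℝ)) := by
    ring
  rw [this]
  exact mul_le_mul_of_nonneg_left hc2 (mul_nonneg hb ha)

/-! ### Minkowski in integer form -/

theorem minkowski_pow {ι : Type*} (s : Finset ι) (f g : ι → ℝ) (hf : ∀ i ∈ s, 0 ≤ f i)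
    (hg : ∀ i ∈ s, 0 ≤ g i) (r : ℕ) (hr : 1 ≤ r) (α β N : ℝ) (hα : 0 ≤ α) (hβ : 0 ≤ β)
    (hN : 0 ≤ N) (h1 : ∑ i ∈ s, f i ^ r ≤ N * α ^ r) (h2 : ∑ i ∈ s, g i ^ r ≤ N * β ^ r) :
    ∑ i ∈ s, (f i + g i) ^ r ≤ N * (α + β) ^ r := by
  obtain ⟨q, rfl⟩ : ∃ q, r = q + 1 := ⟨r - 1, by omega⟩
  rcases hα.eq_or_lt with h0 | hαpos
  · -- f vanishes
    subst h0
    have : ∀ i ∈ s, f i = 0 := by
      intro i hi
      have h3 : f i ^ (q + 1) ≤ ∑ i ∈ s, f i ^ (q + 1) :=
        Finset.single_le_sum (f := fun i => f i ^ (q + 1)) (fun j hj => pow_nonneg (hf j hj) _) hi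
      have h4 : f i ^ (q + 1) ≤ 0 := by
        refine le_trans h3 (le_trans h1 ?_)
        simp
      have h5 : f i ^ (q + 1) = 0 := le_antisymm h4 (pow_nonneg (hf i hi) _)
      exact pow_eq_zero_iff (by omega) |>.1 h5
    rw [zero_add]
    refine le_trans (le_of_eq ?_) h2
    exact Finset.sum_congr rfl fun i hi => by rw [this i hi, zero_add]
  rcases hβ.eq_or_lt with h0 | hβpos
  · subst h0
    have : ∀ i ∈ s, g i = 0 := by
      intro i hi
      have h3 : g i ^ (q + 1) ≤ ∑ i ∈ s, g i ^ (q + 1) :=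
        Finset.single_le_sum (f := fun i => g i ^ (q + 1)) (fun j hj => pow_nonneg (hg j hj) _) hi
      have h4 : g i ^ (q + 1) ≤ 0 := by
        refine le_trans h3 (le_trans h2 ?_)
        simp
      have h5 : g i ^ (q + 1) = 0 := le_antisymm h4 (pow_nonneg (hg i hi) _)
      exact pow_eq_zero_iff (by omega) |>.1 h5
    rw [add_zero]
    refine le_trans (le_of_eq ?_) h1
    exact Finset.sum_congr rfl fun i hi => by rw [this i hi, add_zero]
  -- Jensen pointwise
  set S := α + β with hS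
  have hSpos : 0 < S := by positivity
  set l := α / S with hl
  set m := β / S with hm
  have hlm : l + m = 1 := by rw [hl, hm]; field_simp; exact hS.symm
  have hl0 : 0 ≤ l := by positivity
  have hm0 : 0 ≤ m := by positivity
  have hlpos : 0 < l := by positivity
  have hmpos : 0 < m := by positivity
  have hpt : ∀ i ∈ s, (f i + g i) ^ (q + 1)
      ≤ l * (f i / l) ^ (q + 1) + m * (g i / m) ^ (q + 1) := by
    intro i hi
    have hc := (convexOn_pow (𝕜 := ℝ) (q + 1)).2 (x := f i / l) (y := g i / m)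
      (Set.mem_Ici.2 (div_nonneg (hf i hi) hl0)) (Set.mem_Ici.2 (div_nonneg (hg i hi) hm0))
      hl0 hm0 hlm
    simp only [smul_eq_mul] at hc
    have e1 : l * (f i / l) = f i := by field_simp
    have e2 : m * (g i / m) = g i := by field_simp
    rw [e1, e2] at hc
    exact hc
  have hsum := Finset.sum_le_sum hpt
  rw [Finset.sum_add_distrib] at hsum
  have e1 : ∑ i ∈ s, l * (f i / l) ^ (q + 1) = (l / l ^ (q + 1)) * ∑ i ∈ s, f i ^ (q + 1) := by
    rw [Finset.mul_sum]
    refine Finset.sum_congr rfl fun i _ => ?_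
    rw [div_pow]; ring
  have e2 : ∑ i ∈ s, m * (g i / m) ^ (q + 1) = (m / m ^ (q + 1)) * ∑ i ∈ s, g i ^ (q + 1) := by
    rw [Finset.mul_sum]
    refine Finset.sum_congr rfl fun i _ => ?_
    rw [div_pow]; ring
  rw [e1, e2] at hsum
  have h3 : (l / l ^ (q + 1)) * ∑ i ∈ s, f i ^ (q + 1) ≤ (l / l ^ (q + 1)) * (N * α ^ (q + 1)) :=
    mul_le_mul_of_nonneg_left h1 (by positivity)
  have h4 : (m / m ^ (q + 1)) * ∑ i ∈ s, g i ^ (q + 1) ≤ (m / m ^ (q + 1)) * (N * β ^ (q + 1)) :=
    mul_le_mul_of_nonneg_left h2 (by positivity)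
  have e3 : (l / l ^ (q + 1)) * (N * α ^ (q + 1)) = N * (l * S ^ (q + 1)) := by
    have : α = l * S := by rw [hl]; field_simp
    rw [this]
    rw [mul_pow]
    field_simp
  have e4 : (m / m ^ (q + 1)) * (N * β ^ (q + 1)) = N * (m * S ^ (q + 1)) := by
    have : β = m * S := by rw [hm]; field_simp
    rw [this]
    rw [mul_pow]
    field_simp
  have e5 : N * (l * S ^ (q + 1)) + N * (m * S ^ (q + 1)) = N * S ^ (q + 1) := by
    have : N * (l * S ^ (q + 1)) + N * (m * S ^ (q + 1)) = N * S ^ (q + 1) * (l + m) := by ring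
    rw [this, hlm, mul_one]
  linarith

/-! ### The moment inequality -/

/-- Flip the coordinate `i`. -/
def flipAt (i : W) : (W → Bool) ≃ (W → Bool) where
  toFun x := Function.update x i (!x i)
  invFun x := Function.update x i (!x i)
  left_inv x := by
    funext j
    by_cases h : j = i
    · subst h; simp
    · simp [Function.update_of_ne h]
  right_inv x := by
    funext j
    by_cases h : j = i
    · subst h; simp
    · simp [Function.update_of_ne h]

theorem chi_flipAt_of_notMem (i : W) (U : Finset W) (hi : i ∉ U) (x : W → Bool) :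
    chi U (flipAt i x) = chi U x := by
  unfold chi
  refine Finset.prod_congr rfl fun j hj => ?_
  have : j ≠ i := fun h => hi (h ▸ hj)
  show sg (Function.update x i (!x i) j) = _
  rw [Function.update_of_ne this]

theorem sg_flipAt (i : W) (x : W → Bool) : sg (flipAt i x i) = - sg (x i) := by
  show sg (Function.update x i (!x i) i) = _
  rw [Function.update_self, sg_not]

/-- The polynomial with noise. -/
noncomputable def noisePoly (ρ : ℝ) (S : Finset W) (c : Finset W → ℝ) (x : W → Bool) : ℝ :=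
  ∑ U ∈ S.powerset, c U * ρ ^ U.card * chi U x

theorem noisePoly_flipAt (ρ : ℝ) (S : Finset W) (c : Finset W → ℝ) (i : W) (hi : i ∉ S)
    (x : W → Bool) : noisePoly ρ S c (flipAt i x) = noisePoly ρ S c x := by
  unfold noisePoly
  refine Finset.sum_congr rfl fun U hU => ?_
  rw [chi_flipAt_of_notMem i U (fun h => hi (Finset.mem_powerset.1 hU h))]

theorem noisePoly_insert (ρ : ℝ) (S : Finset W) (c : Finset W → ℝ) (i : W) (hi : i ∉ S)
    (x : W → Bool) :
    noisePoly ρ (insert i S) c x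
      = noisePoly ρ S c x + ρ * sg (x i) * noisePoly ρ S (fun U => c (insert i U)) x := by
  unfold noisePoly
  rw [Finset.sum_powerset_insert hi, Finset.mul_sum]
  congr 1
  refine Finset.sum_congr rfl fun U hU => ?_
  have hiU : i ∉ U := fun h => hi (Finset.mem_powerset.1 hU h)
  rw [Finset.card_insert_of_notMem hiU]
  have : chi (insert i U) x = sg (x i) * chi U x := by
    unfold chi
    rw [Finset.prod_insert hiU]
  rw [this, pow_succ]
  ring

/-- The hypercontractive moment inequality for integer moments. -/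
theorem bonami_moment (r : ℕ) (hr : 1 ≤ r) (ρ : ℝ) (hρ : ρ ^ 2 * (2 * (r : ℝ) - 1) = 1)
    (S : Finset W) (c : Finset W → ℝ) :
    ∑ x, (noisePoly ρ S c x) ^ (2 * r)
      ≤ (2 : ℝ) ^ Fintype.card W * (∑ U ∈ S.powerset, (c U) ^ 2) ^ r := by
  induction S using Finset.induction_on generalizing c with
  | empty =>
    unfold noisePoly
    simp only [Finset.powerset_empty, Finset.sum_singleton, Finset.card_empty, pow_zero, mul_one]
    unfold chi
    simp only [Finset.prod_empty, mul_one, Finset.sum_const, Finset.card_univ, Fintype.card_pi,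
      Fintype.card_bool, Finset.prod_const, nsmul_eq_mul]
    rw [pow_mul]
    simp
  | insert i S hi ih =>
    set A := noisePoly ρ S c with hA
    set B := noisePoly ρ S (fun U => c (insert i U)) with hB
    have hP : ∀ x, noisePoly ρ (insert i S) c x = A x + ρ * sg (x i) * B x :=
      noisePoly_insert ρ S c i hi
    have hAf : ∀ x, A (flipAt i x) = A x := noisePoly_flipAt ρ S c i hi
    have hBf : ∀ x, B (flipAt i x) = B x := noisePoly_flipAt ρ S _ i hi
    -- symmetrise
    have h1 : ∑ x, (A x + ρ * sg (x i) * B x) ^ (2 * r)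
        = ∑ x, (A x - ρ * sg (x i) * B x) ^ (2 * r) := by
      rw [← Equiv.sum_comp (flipAt i) (fun x => (A x + ρ * sg (x i) * B x) ^ (2 * r))]
      refine Finset.sum_congr rfl fun x _ => ?_
      rw [hAf, hBf, sg_flipAt]
      congr 1
      ring
    have h2 : ∑ x, (A x + ρ * sg (x i) * B x) ^ (2 * r)
        = ∑ x, ((A x + ρ * B x) ^ (2 * r) + (A x - ρ * B x) ^ (2 * r)) / 2 := by
      have : ∑ x, (A x + ρ * sg (x i) * B x) ^ (2 * r)
          = ∑ x, ((A x + ρ * sg (x i) * B x) ^ (2 * r) + (A x - ρ * sg (x i) * B x) ^ (2 * r)) / 2 := by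
        rw [← Finset.sum_div, Finset.sum_add_distrib, ← h1]
        ring
      rw [this]
      refine Finset.sum_congr rfl fun x _ => ?_
      rcases sg_eq_or (x i) with h | h <;> rw [h] <;> ring_nf
    have h3 : ∑ x, ((A x + ρ * B x) ^ (2 * r) + (A x - ρ * B x) ^ (2 * r)) / 2
        ≤ ∑ x, (A x ^ 2 + B x ^ 2) ^ r :=
      Finset.sum_le_sum fun x _ => two_point r hr ρ (A x) (B x) hρ
    have h4 := ih c
    have h5 := ih (fun U => c (insert i U))
    have h6 : ∑ x, (A x ^ 2 + B x ^ 2) ^ r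
        ≤ (2 : ℝ) ^ Fintype.card W * ((∑ U ∈ S.powerset, (c U) ^ 2)
          + ∑ U ∈ S.powerset, (c (insert i U)) ^ 2) ^ r := by
      refine minkowski_pow Finset.univ (fun x => A x ^ 2) (fun x => B x ^ 2)
        (fun x _ => sq_nonneg _) (fun x _ => sq_nonneg _) r hr _ _ _
        (Finset.sum_nonneg fun _ _ => sq_nonneg _) (Finset.sum_nonneg fun _ _ => sq_nonneg _)
        (by positivity) ?_ ?_
      · simp only [← pow_mul]; exact h4
      · simp only [← pow_mul]; exact h5
    simp_rw [hP]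
    rw [Finset.sum_powerset_insert hi]
    linarith

/-! ### The level inequality -/

/-- The weight of `φ` on the level `k`. -/
noncomputable def levelW (φ : (W → Bool) → ℝ) (k : ℕ) : ℝ :=
  ∑ U ∈ Finset.univ.filter (fun U : Finset W => U.card = k), (fh φ U) ^ 2

/-- The basic hypercontractive estimate for bounded nonnegative functions. -/
theorem noise_weight_bound (φ : (W → Bool) → ℝ) (hφ : ∀ x, 0 ≤ φ x) (V : ℝ) (hV : ∀ x, φ x ≤ V)
    (a : ℝ) (ha : a = (∑ x, φ x) / 2 ^ Fintype.card W) (ha0 : 0 < a) (r : ℕ) (hr : 1 ≤ r) :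
    (∑ U : Finset W, (1 / (2 * (r : ℝ) - 1)) ^ U.card * (fh φ U) ^ 2) ^ r
      ≤ a ^ (2 * r - 1) * V := by
  have hr1 : (1 : ℝ) ≤ r := by exact_mod_cast hr
  have hL : 0 < 2 * (r : ℝ) - 1 := by linarith
  set ρ := Real.sqrt (1 / (2 * (r : ℝ) - 1)) with hρdef
  have hρ2 : ρ ^ 2 = 1 / (2 * (r : ℝ) - 1) := Real.sq_sqrt (by positivity)
  have hρ : ρ ^ 2 * (2 * (r : ℝ) - 1) = 1 := by rw [hρ2]; field_simp
  set Q := ∑ U : Finset W, (1 / (2 * (r : ℝ) - 1)) ^ U.card * (fh φ U) ^ 2 with hQ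
  have hQ0 : 0 ≤ Q := Finset.sum_nonneg fun U _ => by positivity
  set N := (2 : ℝ) ^ Fintype.card W with hN
  have hNpos : 0 < N := by positivity
  -- the smoothed function
  set c : Finset W → ℝ := fun U => ρ ^ U.card * fh φ U with hc
  set G := noisePoly ρ (Finset.univ : Finset W) c with hG
  have hcsum : ∑ U ∈ (Finset.univ : Finset W).powerset, (c U) ^ 2 = Q := by
    rw [Finset.powerset_univ]
    refine Finset.sum_congr rfl fun U _ => ?_
    simp only [hc]
    rw [mul_pow, ← pow_mul, mul_comm U.card 2, pow_mul, hρ2]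
  have hmom : ∑ x, (G x) ^ (2 * r) ≤ N * Q ^ r := by
    have := bonami_moment r hr ρ hρ (Finset.univ : Finset W) c
    rwa [hcsum] at this
  -- E[φ G] = Q
  have hcorr : (∑ x, φ x * G x) / N = Q := by
    have : ∀ x, φ x * G x = ∑ U : Finset W, (1 / (2 * (r : ℝ) - 1)) ^ U.card * fh φ U * (φ x * chi U x) := by
      intro x
      simp only [hG, noisePoly, Finset.powerset_univ, hc]
      rw [Finset.mul_sum]
      refine Finset.sum_congr rfl fun U _ => ?_
      have : (1 / (2 * (r : ℝ) - 1)) ^ U.card = ρ ^ U.card * ρ ^ U.card := by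
        rw [← hρ2, ← pow_mul, ← pow_add]; congr 1; ring
      rw [this]; ring
    simp_rw [this]
    rw [Finset.sum_comm, Finset.sum_div, hQ]
    refine Finset.sum_congr rfl fun U _ => ?_
    rw [← Finset.mul_sum, mul_div_assoc]
    unfold fh
    ring
  -- Jensen
  have hsumφ : ∑ x, φ x = a * N := by rw [ha]; field_simp
  have hsumpos : 0 < ∑ x, φ x := by rw [hsumφ]; positivity
  have hJ : (∑ x, (φ x / ∑ y, φ y) * |G x|) ^ (2 * r) ≤ ∑ x, (φ x / ∑ y, φ y) * |G x| ^ (2 * r) :=
    Real.pow_arith_mean_le_arith_mean_pow Finset.univ (fun x => φ x / ∑ y, φ y) (fun x => |G x|)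
      (fun x _ => div_nonneg (hφ x) hsumpos.le)
      (by rw [← Finset.sum_div]; exact div_self hsumpos.ne') (fun x _ => abs_nonneg _) (2 * r)
  have h1 : Q ≤ (∑ x, (φ x / ∑ y, φ y) * |G x|) * a := by
    have e1 : (∑ x, (φ x / ∑ y, φ y) * |G x|) * a = (∑ x, φ x * |G x|) / N := by
      have : ∑ x, (φ x / ∑ y, φ y) * |G x| = (∑ x, φ x * |G x|) / ∑ y, φ y := by
        rw [Finset.sum_div]
        exact Finset.sum_congr rfl fun x _ => by ring
      rw [this, hsumφ]
      field_simp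
    rw [e1, ← hcorr]
    apply div_le_div_of_nonneg_right _ hNpos.le
    refine Finset.sum_le_sum fun x _ => ?_
    exact mul_le_mul_of_nonneg_left (le_abs_self _) (hφ x)
  have h2 : ∑ x, (φ x / ∑ y, φ y) * |G x| ^ (2 * r) ≤ V / (a * N) * (N * Q ^ r) := by
    rw [hsumφ]
    have : ∀ x, φ x / (a * N) * |G x| ^ (2 * r) ≤ V / (a * N) * (G x) ^ (2 * r) := by
      intro x
      have e : |G x| ^ (2 * r) = (G x) ^ (2 * r) := by
        rw [pow_mul, sq_abs, ← pow_mul]
      rw [e]
      apply mul_le_mul_of_nonneg_right _ (by rw [pow_mul]; positivity)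
      exact div_le_div_of_nonneg_right (hV x) (by positivity)
    calc _ ≤ ∑ x, V / (a * N) * (G x) ^ (2 * r) := Finset.sum_le_sum fun x _ => this x
      _ = V / (a * N) * ∑ x, (G x) ^ (2 * r) := by rw [Finset.mul_sum]
      _ ≤ _ := by
        apply mul_le_mul_of_nonneg_left hmom
        have hV0 : 0 ≤ V := le_trans (hφ (fun _ => false)) (hV _)
        positivity
  have h3 : Q ^ (2 * r) ≤ a ^ (2 * r - 1) * V * Q ^ r := by
    have hA0 : 0 ≤ ∑ x, (φ x / ∑ y, φ y) * |G x| :=
      Finset.sum_nonneg fun x _ => mul_nonneg (div_nonneg (hφ x) hsumpos.le) (abs_nonneg _)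
    have e1 : Q ^ (2 * r) ≤ ((∑ x, (φ x / ∑ y, φ y) * |G x|) * a) ^ (2 * r) :=
      pow_le_pow_left₀ hQ0 h1 _
    have e2 : ((∑ x, (φ x / ∑ y, φ y) * |G x|) * a) ^ (2 * r)
        = (∑ x, (φ x / ∑ y, φ y) * |G x|) ^ (2 * r) * a ^ (2 * r) := by rw [mul_pow]
    have e3 : (∑ x, (φ x / ∑ y, φ y) * |G x|) ^ (2 * r) * a ^ (2 * r)
        ≤ (V / (a * N) * (N * Q ^ r)) * a ^ (2 * r) :=
      mul_le_mul_of_nonneg_right (le_trans hJ h2) (by positivity)
    have e4 : (V / (a * N) * (N * Q ^ r)) * a ^ (2 * r) = a ^ (2 * r - 1) * V * Q ^ r := by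
      have : a ^ (2 * r) = a ^ (2 * r - 1) * a := by
        rw [← pow_succ]; congr 1; omega
      rw [this]
      field_simp
    linarith
  -- cancel
  rcases hQ0.eq_or_lt with h0 | hQpos
  · rw [← h0, zero_pow (by omega)]
    have hV0 : 0 ≤ V := le_trans (hφ (fun _ => false)) (hV _)
    positivity
  · have e : Q ^ (2 * r) = Q ^ r * Q ^ r := by rw [two_mul, pow_add]
    rw [e] at h3
    exact le_of_mul_le_mul_right h3 (by positivity)

/-- The level inequality. -/
theorem level_bound (φ : (W → Bool) → ℝ) (hφ : ∀ x, 0 ≤ φ x) (V : ℝ) (hV : ∀ x, φ x ≤ V)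
    (a : ℝ) (ha : a = (∑ x, φ x) / 2 ^ Fintype.card W) (ha0 : 0 < a)
    (w : ℝ) (hw : 0 < w) (hVw : V ≤ a * Real.exp w) (k : ℕ) (hk : 1 ≤ k) :
    levelW φ k ≤ a ^ 2 * (Real.exp 1 * ((2 * w + k) / k)) ^ k := by
  have hk0 : (0 : ℝ) < k := by exact_mod_cast hk
  set r := ⌈w / k⌉₊ with hrdef
  have hwk : 0 < w / k := div_pos hw hk0
  have hr : 1 ≤ r := Nat.one_le_ceil_iff.2 hwk
  have hr1 : (1 : ℝ) ≤ r := by exact_mod_cast hr
  have hrw : w / k ≤ r := Nat.le_ceil _
  have hrw2 : (r : ℝ) < w / k + 1 := Nat.ceil_lt_add_one hwk.le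
  have hL1 : 1 ≤ 2 * (r : ℝ) - 1 := by linarith
  have hLpos : 0 < 2 * (r : ℝ) - 1 := by linarith
  set L := 2 * (r : ℝ) - 1 with hL
  have hmain := noise_weight_bound φ hφ V hV a ha ha0 r hr
  set Q := ∑ U : Finset W, (1 / L) ^ U.card * (fh φ U) ^ 2 with hQ
  have hlev : levelW φ k / L ^ k ≤ Q := by
    unfold levelW
    rw [Finset.sum_div]
    calc _ = ∑ U ∈ Finset.univ.filter (fun U : Finset W => U.card = k), (1 / L) ^ U.card * (fh φ U) ^ 2 := by
          refine Finset.sum_congr rfl fun U hU => ?_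
          rw [(Finset.mem_filter.1 hU).2, one_div, inv_pow]
          field_simp
      _ ≤ Q := by
          refine Finset.sum_le_sum_of_subset_of_nonneg (Finset.filter_subset _ _) ?_
          intro U _ _
          positivity
  have hW0 : 0 ≤ levelW φ k := Finset.sum_nonneg fun U _ => sq_nonneg _
  have h1 : (levelW φ k / L ^ k / a ^ 2) ^ r ≤ (Real.exp (w / r)) ^ r := by
    have e0 : (levelW φ k / L ^ k) ^ r ≤ Q ^ r := pow_le_pow_left₀ (by positivity) hlev _
    have e1 : a ^ (2 * r - 1) * V ≤ a ^ (2 * r - 1) * (a * Real.exp w) :=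
      mul_le_mul_of_nonneg_left hVw (by positivity)
    have e2 : a ^ (2 * r - 1) * (a * Real.exp w) = a ^ (2 * r) * Real.exp w := by
      have : a ^ (2 * r) = a ^ (2 * r - 1) * a := by
        rw [← pow_succ]; congr 1; omega
      rw [this]; ring
    have e3 : (levelW φ k / L ^ k) ^ r ≤ a ^ (2 * r) * Real.exp w := by linarith
    rw [div_pow, ← pow_mul]
    have hr0 : (r : ℝ) ≠ 0 := by positivity
    rw [← Real.exp_nat_mul, mul_div_cancel₀ _ hr0]
    rw [div_le_iff₀ (by positivity)]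
    linarith
  have h2 : levelW φ k / L ^ k / a ^ 2 ≤ Real.exp (w / r) :=
    le_of_pow_le_pow_left₀ (by omega) (Real.exp_pos _).le h1
  have h3 : Real.exp (w / r) ≤ Real.exp 1 ^ k := by
    rw [← Real.exp_nat_mul, mul_one]
    apply Real.exp_le_exp.2
    rw [div_le_iff₀ (by positivity)]
    rw [div_le_iff₀ hk0] at hrw
    linarith
  have h4 : levelW φ k ≤ a ^ 2 * L ^ k * Real.exp 1 ^ k := by
    have : levelW φ k / L ^ k / a ^ 2 ≤ Real.exp 1 ^ k := le_trans h2 h3
    rw [div_div, div_le_iff₀ (by positivity)] at this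
    linarith
  have h5 : L ≤ (2 * w + k) / k := by
    rw [le_div_iff₀ hk0, hL]
    have : (r : ℝ) * k < (w / k + 1) * k := mul_lt_mul_of_pos_right hrw2 hk0
    have e : (w / k + 1) * k = w + k := by field_simp
    rw [e] at this
    nlinarith
  calc levelW φ k ≤ a ^ 2 * L ^ k * Real.exp 1 ^ k := h4
    _ = a ^ 2 * (Real.exp 1 * L) ^ k := by rw [mul_pow]; ring
    _ ≤ _ := by
      apply mul_le_mul_of_nonneg_left _ (by positivity)
      apply pow_le_pow_left₀ (by positivity)
      exact mul_le_mul_of_nonneg_left h5 (Real.exp_pos _).le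

/-- `Parseval` bound for a bounded nonnegative function. -/
theorem sum_fh_sq_le (φ : (W → Bool) → ℝ) (hφ : ∀ x, 0 ≤ φ x) (V : ℝ) (hV : ∀ x, φ x ≤ V) :
    ∑ U : Finset W, (fh φ U) ^ 2 ≤ V * ((∑ x, φ x) / 2 ^ Fintype.card W) := by
  have h := parseval φ φ
  have : ∀ U : Finset W, fh φ U * fh φ U = (fh φ U) ^ 2 := fun U => by ring
  simp_rw [this] at h
  rw [← h, ← mul_div_assoc]
  apply div_le_div_of_nonneg_right _ (by positivity)
  rw [Finset.mul_sum]
  refine Finset.sum_le_sum fun x _ => ?_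
  have := hV x
  have := hφ x
  nlinarith

end Vale.Agent.Lib.P162
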