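import Vale.Agent.Lib.P162.Pieces

/-!
Decomposition of a density on the slice into a bounded part and pieces, and the resulting
bilinear estimate.
-/

set_option linter.unusedSectionVars false
set_option linter.unusedVariables false

namespace Vale.Agent.Lib.P162

open Finset

/-- The convex function in the entropy. -/
noncomputable def phiF (x : ℝ) : ℝ := x * Real.log x - x + 1

theorem phiF_ge_sq {x : ℝ} (hx : 0 ≤ x) : (Real.sqrt x - 1) ^ 2 ≤ phiF x := by
  unfold phiF
  have s1 := Real.sq_sqrt hx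
  rcases hx.eq_or_lt with h0 | h0
  · rw [← h0]; simp
  · have r1 := Real.sqrt_pos.2 h0
    have hl : 1 - (Real.sqrt x)⁻¹ ≤ Real.log (Real.sqrt x) := Real.one_sub_inv_le_log_of_pos r1
    rw [Real.log_sqrt hx] at hl
    have h3 : x * (1 - (Real.sqrt x)⁻¹) = x - Real.sqrt x := by
      field_simp
      nlinarith
    have h4 := mul_le_mul_of_nonneg_left hl hx
    rw [h3] at h4
    nlinarith

theorem phiF_nonneg {x : ℝ} (hx : 0 ≤ x) : 0 ≤ phiF x :=
  le_trans (sq_nonneg _) (phiF_ge_sq hx)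

theorem sq_le_phiF_low {x : ℝ} (hx : 0 ≤ x) (hl : Real.log x ≤ 2) : (x - 1) ^ 2 ≤ 16 * phiF x := by
  have h1 := phiF_ge_sq hx
  have s1 := Real.sq_sqrt hx
  have hs0 := Real.sqrt_nonneg x
  have hs3 : Real.sqrt x ≤ 3 := by
    rcases hx.eq_or_lt with h0 | h0
    · rw [← h0]; simp
    · have h2 : x ≤ Real.exp 2 := by
        rw [← Real.exp_log h0]
        exact Real.exp_le_exp.2 hl
      have h3 : Real.exp 2 = Real.exp 1 ^ 2 := by
        rw [← Real.exp_nat_mul]; norm_num
      have h4 := exp_one_sq_le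
      apply Real.sqrt_le_iff.2
      constructor
      · norm_num
      · rw [h3] at h2; linarith
  have h5 : (x - 1) ^ 2 = (Real.sqrt x - 1) ^ 2 * (Real.sqrt x + 1) ^ 2 := by
    have : x - 1 = (Real.sqrt x - 1) * (Real.sqrt x + 1) := by nlinarith
    rw [this, mul_pow]
  rw [h5]
  have h6 : (Real.sqrt x + 1) ^ 2 ≤ 16 := by nlinarith
  have h7 : 0 ≤ (Real.sqrt x - 1) ^ 2 := sq_nonneg _
  nlinarith [mul_le_mul_of_nonneg_left h6 h7]

theorem one_le_phiF_high {x : ℝ} (hl : 2 < Real.log x) (hx : 0 ≤ x) : 1 ≤ phiF x := by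
  unfold phiF
  have : 0 ≤ x * (Real.log x - 1) := mul_nonneg hx (by linarith)
  nlinarith

theorem mul_log_le_phiF_high {x : ℝ} (hl : 2 < Real.log x) (hx : 0 ≤ x) :
    x * Real.log x ≤ 2 * phiF x := by
  unfold phiF
  have : 0 ≤ x * (Real.log x - 2) := mul_nonneg hx (by linarith)
  nlinarith

variable {W : Type*} [Fintype W] [DecidableEq W]

/-- The entropy of a density on the slice. -/
noncomputable def Ent (W : Type*) [Fintype W] [DecidableEq W] (M : ℕ) (n : (W → Bool) → ℝ) : ℝ :=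
  Emean W M (fun x => n x * Real.log (n x))

/-- Being a probability density on the slice. -/
structure IsDens (W : Type*) [Fintype W] [DecidableEq W] (M : ℕ) (n : (W → Bool) → ℝ) : Prop where
  nonneg : ∀ x, 0 ≤ n x
  supp : Supp W M n
  mean : Emean W M n = 1

theorem Emean_const {M : ℕ} (hW : Fintype.card W = 2 * M) (c : ℝ) :
    Emean W M (fun _ => c) = c := by
  have hpos := nOm_pos hW
  unfold Emean
  simp only [Finset.sum_const, nsmul_eq_mul]
  unfold nOm at hpos ⊢
  field_simp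

theorem Emean_add {M : ℕ} (φ ψ : (W → Bool) → ℝ) :
    Emean W M (fun x => φ x + ψ x) = Emean W M φ + Emean W M ψ := by
  unfold Emean
  rw [Finset.sum_add_distrib, add_div]

theorem Emean_sub {M : ℕ} (φ ψ : (W → Bool) → ℝ) :
    Emean W M (fun x => φ x - ψ x) = Emean W M φ - Emean W M ψ := by
  unfold Emean
  rw [Finset.sum_sub_distrib, sub_div]

theorem Emean_mul_const {M : ℕ} (c : ℝ) (φ : (W → Bool) → ℝ) :
    Emean W M (fun x => c * φ x) = c * Emean W M φ := by
  unfold Emean
  rw [← Finset.mul_sum, mul_div_assoc]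

theorem Emean_sum {ι : Type*} {M : ℕ} (S : Finset ι) (φ : ι → (W → Bool) → ℝ) :
    Emean W M (fun x => ∑ j ∈ S, φ j x) = ∑ j ∈ S, Emean W M (φ j) := by
  unfold Emean
  rw [Finset.sum_comm, Finset.sum_div]

theorem Emean_le {M : ℕ} (hW : Fintype.card W = 2 * M) {φ ψ : (W → Bool) → ℝ}
    (h : ∀ x ∈ Om W M, φ x ≤ ψ x) : Emean W M φ ≤ Emean W M ψ := by
  have hpos := nOm_pos hW
  unfold Emean
  exact div_le_div_of_nonneg_right (Finset.sum_le_sum h) hpos.le

theorem Emean_congr {M : ℕ} {φ ψ : (W → Bool) → ℝ}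
    (h : ∀ x ∈ Om W M, φ x = ψ x) : Emean W M φ = Emean W M ψ := by
  unfold Emean
  rw [Finset.sum_congr rfl h]

theorem Emean_nonneg {M : ℕ} (hW : Fintype.card W = 2 * M) {φ : (W → Bool) → ℝ}
    (h : ∀ x ∈ Om W M, 0 ≤ φ x) : 0 ≤ Emean W M φ := by
  have hpos := nOm_pos hW
  unfold Emean
  exact div_nonneg (Finset.sum_nonneg h) hpos.le

theorem Ent_eq_phiF {M : ℕ} (hW : Fintype.card W = 2 * M) {n : (W → Bool) → ℝ}
    (hn : IsDens W M n) : Ent W M n = Emean W M (fun x => phiF (n x)) := by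
  have e : (fun x => phiF (n x)) = (fun x => (n x * Real.log (n x) - n x) + 1) := by
    funext x; unfold phiF; ring
  rw [e, Emean_add, Emean_sub, Emean_const hW, hn.mean]
  unfold Ent
  ring

theorem Ent_nonneg {M : ℕ} (hW : Fintype.card W = 2 * M) {n : (W → Bool) → ℝ}
    (hn : IsDens W M n) : 0 ≤ Ent W M n := by
  rw [Ent_eq_phiF hW hn]
  exact Emean_nonneg hW fun x _ => phiF_nonneg (hn.nonneg x)

/-- The upper bound on a density. -/
theorem dens_le {M : ℕ} (hW : Fintype.card W = 2 * M) {n : (W → Bool) → ℝ}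
    (hn : IsDens W M n) (x : W → Bool) : n x ≤ nOm W M := by
  have hpos := nOm_pos hW
  by_cases hx : x ∈ Om W M
  · have h1 : n x ≤ ∑ y ∈ Om W M, n y :=
      Finset.single_le_sum (f := n) (fun y _ => hn.nonneg y) hx
    have h2 : ∑ y ∈ Om W M, n y = nOm W M := by
      have := hn.mean
      unfold Emean at this
      field_simp at this
      linarith
    linarith
  · rw [hn.supp x hx]; exact hpos.le

theorem nOm_le_two_pow (M : ℕ) : nOm W M ≤ 2 ^ Fintype.card W := by
  have hq := qq_le_one (W := W) M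
  unfold qq at hq
  rwa [div_le_one (by positivity)] at hq

/-- The pieces. -/
noncomputable def pieceF (n : (W → Bool) → ℝ) (j : ℕ) : (W → Bool) → ℝ :=
  fun x => if ⌈Real.log (n x)⌉₊ = j + 3 then n x else 0

/-- The bounded part. -/
noncomputable def lowF (n : (W → Bool) → ℝ) : (W → Bool) → ℝ :=
  fun x => if Real.log (n x) ≤ 2 then n x else 0

theorem pieceF_log {n : (W → Bool) → ℝ} {j : ℕ} {x : W → Bool}
    (h : ⌈Real.log (n x)⌉₊ = j + 3) :
    (j : ℝ) + 2 < Real.log (n x) ∧ Real.log (n x) ≤ (j : ℝ) + 3 := by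
  rw [Nat.ceil_eq_iff (by omega)] at h
  have e1 : ((j + 3 - 1 : ℕ) : ℝ) = (j : ℝ) + 2 := by
    have : j + 3 - 1 = j + 2 := by omega
    rw [this]; push_cast; ring
  rw [e1] at h
  constructor
  · exact h.1
  · have := h.2
    push_cast at this
    exact this

/-- Sum of the values of the pieces weighted by a function of the index. -/
theorem sum_pieceF_eq {n : (W → Bool) → ℝ} {M J : ℕ} (hJ : Real.log (nOm W M) ≤ J)
    (hW : Fintype.card W = 2 * M) (hn : IsDens W M n) (x : W → Bool) (g : ℕ → ℝ) :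
    ∑ j ∈ Finset.range J, pieceF n j x * g j =
      if 2 < Real.log (n x) then n x * g (⌈Real.log (n x)⌉₊ - 3) else 0 := by
  by_cases hl : 2 < Real.log (n x)
  · rw [if_pos hl]
    have hc : 3 ≤ ⌈Real.log (n x)⌉₊ := by
      apply Nat.succ_le_of_lt
      apply Nat.lt_ceil.2
      exact_mod_cast hl
    have hpos : 0 < n x := by
      rcases (hn.nonneg x).eq_or_lt with h | h
      · rw [← h] at hl; simp at hl; linarith
      · exact h
    have hle : Real.log (n x) ≤ J := le_trans (Real.log_le_log hpos (dens_le hW hn x)) hJ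
    have hc2 : ⌈Real.log (n x)⌉₊ ≤ J := Nat.ceil_le.2 hle
    rw [Finset.sum_eq_single (⌈Real.log (n x)⌉₊ - 3)]
    · unfold pieceF
      rw [if_pos (by omega)]
    · intro b _ hb
      unfold pieceF
      rw [if_neg (by omega), zero_mul]
    · intro hb
      exact absurd (Finset.mem_range.2 (by omega)) hb
  · rw [if_neg hl]
    refine Finset.sum_eq_zero fun j _ => ?_
    unfold pieceF
    rw [if_neg, zero_mul]
    intro h
    have := (pieceF_log h).1
    have hj : (0 : ℝ) ≤ j := Nat.cast_nonneg j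
    apply hl
    linarith

theorem low_add_high {n : (W → Bool) → ℝ} {M J : ℕ} (hJ : Real.log (nOm W M) ≤ J)
    (hW : Fintype.card W = 2 * M) (hn : IsDens W M n) (x : W → Bool) :
    n x = lowF n x + ∑ j ∈ Finset.range J, pieceF n j x := by
  have h := sum_pieceF_eq hJ hW hn x (fun _ => 1)
  simp only [mul_one] at h
  rw [h]
  unfold lowF
  by_cases hl : 2 < Real.log (n x)
  · rw [if_pos hl, if_neg (not_le.2 hl), zero_add]
  · rw [if_neg hl, if_pos (not_lt.1 hl), add_zero]

/-- The package of data for a density. -/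
structure PieceData (W : Type*) [Fintype W] [DecidableEq W] (M' : ℕ) (φ : (W → Bool) → ℝ)
    (w : ℝ) : Prop where
  supp : Supp W (2 * M') φ
  nonneg : ∀ x, 0 ≤ φ x
  one_le : 1 ≤ w
  bound : 0 < Emean W (2 * M') φ →
    ∃ V, (∀ x, φ x ≤ V) ∧ V ≤ qq W (2 * M') * Emean W (2 * M') φ * Real.exp w

theorem eq_zero_of_Emean_zero {M : ℕ} (hW : Fintype.card W = 2 * M) {φ : (W → Bool) → ℝ}
    (hs : Supp W M φ) (h0 : ∀ x, 0 ≤ φ x) (hm : Emean W M φ = 0) (x : W → Bool) : φ x = 0 := by
  by_cases hx : x ∈ Om W M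
  · have hpos := nOm_pos hW
    unfold Emean at hm
    have h1 : ∑ y ∈ Om W M, φ y = 0 := by
      rcases div_eq_zero_iff.1 hm with h | h
      · exact h
      · exact absurd h hpos.ne'
    exact (Finset.sum_eq_zero_iff_of_nonneg fun y _ => h0 y).1 h1 x hx
  · exact hs x hx

theorem BB_eq_zero_left {M' : ℕ} {φ ψ : (W → Bool) → ℝ} (h : ∀ x, φ x = 0) : BB W M' φ ψ = 0 := by
  unfold BB
  simp [h]

theorem BB_eq_zero_right {M' : ℕ} {φ ψ : (W → Bool) → ℝ} (h : ∀ x, ψ x = 0) : BB W M' φ ψ = 0 := by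
  unfold BB
  simp [h]

theorem Emean_nonneg' {M' : ℕ} (hW : Fintype.card W = 4 * M') {φ : (W → Bool) → ℝ}
    (h : ∀ x, 0 ≤ φ x) : 0 ≤ Emean W (2 * M') φ :=
  Emean_nonneg (by omega) fun x _ => h x

/-- Lemma P for piece data. -/
theorem BB_pieceData_le {M' : ℕ} (hM : 2 ^ 30 ≤ 2 * M') (hW : Fintype.card W = 4 * M')
    {φ ψ : (W → Bool) → ℝ} {w w' : ℝ} (hφ : PieceData W M' φ w) (hψ : PieceData W M' ψ w') :
    BB W M' φ ψ ≤ Emean W (2 * M') φ * Emean W (2 * M') ψ *
      (2 * qq W (2 * M') * Psi W M' + 322 * (Psi W M' / ((2 * M' : ℕ) : ℝ)) * (w * w')) := by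
  have hW' : Fintype.card W = 2 * (2 * M') := by omega
  rcases (Emean_nonneg' hW hφ.nonneg).eq_or_lt with h1 | h1
  · rw [BB_eq_zero_left (eq_zero_of_Emean_zero hW' hφ.supp hφ.nonneg h1.symm), ← h1]
    simp
  rcases (Emean_nonneg' hW hψ.nonneg).eq_or_lt with h2 | h2
  · rw [BB_eq_zero_right (eq_zero_of_Emean_zero hW' hψ.supp hψ.nonneg h2.symm), ← h2]
    simp
  obtain ⟨V, hV, hV2⟩ := hφ.bound h1
  obtain ⟨V', hV', hV2'⟩ := hψ.bound h2
  exact BB_piece_le hM hW hφ.supp hψ.supp hφ.nonneg hψ.nonneg hV hV' h1 h2 hφ.one_le hψ.one_le hV2 hV2'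

/-- Lemma Q for piece data. -/
theorem abs_BB_pieceData {M' : ℕ} (hM : 2 ^ 30 ≤ 2 * M') (hW : Fintype.card W = 4 * M')
    {h ψ : (W → Bool) → ℝ} {w' : ℝ} (hh : Supp W (2 * M') h) (hmean : Emean W (2 * M') h = 0)
    (hψ : PieceData W M' ψ w') :
    |BB W M' h ψ| ≤ 128 * (Psi W M' / ((2 * M' : ℕ) : ℝ)) *
      (Real.sqrt (Emean W (2 * M') (fun x => h x ^ 2)) * (Emean W (2 * M') ψ * w')) := by
  have hW' : Fintype.card W = 2 * (2 * M') := by omega
  rcases (Emean_nonneg' hW hψ.nonneg).eq_or_lt with h2 | h2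
  · rw [BB_eq_zero_right (eq_zero_of_Emean_zero hW' hψ.supp hψ.nonneg h2.symm), ← h2]
    simp
  obtain ⟨V', hV', hV2'⟩ := hψ.bound h2
  exact abs_BB_piece hM hW hh hψ.supp hmean hψ.nonneg hV' h2 hψ.one_le hV2'

/-- The constant appearing in the decomposition. -/
noncomputable def cc (W : Type*) [Fintype W] [DecidableEq W] (M' : ℕ) : ℝ :=
  - Real.log (qq W (2 * M')) + Real.log ((4 * M' : ℕ) : ℝ) + 2

/-- The entropy bound for a finite subprobability vector. -/
theorem sum_neg_mul_log_le {J : ℕ} (hJ : 1 ≤ J) (m : ℕ → ℝ)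
    (hm : ∀ j ∈ Finset.range J, 0 ≤ m j) (μ : ℝ) (hμ : μ = ∑ j ∈ Finset.range J, m j) (hμ0 : 0 < μ) :
    ∑ j ∈ Finset.range J, (- (m j * Real.log (m j))) ≤ μ * Real.log J - μ * Real.log μ := by
  have hJ0 : (0 : ℝ) < J := by exact_mod_cast hJ
  have hpt : ∀ j ∈ Finset.range J,
      m j * Real.log (μ / J) - m j * Real.log (m j) ≤ μ / J - m j := by
    intro j hj
    rcases (hm j hj).eq_or_lt with h | h
    · rw [← h]; simp
      positivity
    · have hr : 0 < (μ / J) / m j := by positivity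
      have hl := Real.log_le_sub_one_of_pos hr
      rw [Real.log_div (by positivity) h.ne'] at hl
      have := mul_le_mul_of_nonneg_left hl h.le
      have e : m j * ((μ / J) / m j - 1) = μ / J - m j := by field_simp
      rw [e] at this
      linarith
  have hsum := Finset.sum_le_sum hpt
  rw [Finset.sum_sub_distrib, Finset.sum_sub_distrib, ← Finset.sum_mul, ← hμ, Finset.sum_const,
    Finset.card_range, nsmul_eq_mul] at hsum
  have e1 : (J : ℝ) * (μ / J) = μ := by field_simp
  rw [e1, sub_self, Real.log_div hμ0.ne' hJ0.ne'] at hsum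
  rw [Finset.sum_neg_distrib]
  linarith

theorem neg_mul_log_le_sqrt {μ : ℝ} (h0 : 0 ≤ μ) (h1 : μ ≤ 1) :
    - (μ * Real.log μ) ≤ 2 * Real.sqrt μ := by
  rcases h0.eq_or_lt with h | h
  · rw [← h]; simp
  · have hs := Real.sqrt_pos.2 h
    have hs2 := Real.sq_sqrt h0
    have hl : 1 - (Real.sqrt μ)⁻¹ ≤ Real.log (Real.sqrt μ) := Real.one_sub_inv_le_log_of_pos hs
    rw [Real.log_sqrt h0] at hl
    have h3 : μ * (1 - (Real.sqrt μ)⁻¹) = μ - Real.sqrt μ := by
      field_simp
      nlinarith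
    have h4 := mul_le_mul_of_nonneg_left hl h0
    rw [h3] at h4
    nlinarith

/-- The decomposition of a density. -/
theorem dens_decomp {M' : ℕ} (hM : 2 ^ 30 ≤ 2 * M') (hW : Fintype.card W = 4 * M')
    {n : (W → Bool) → ℝ} (hn : IsDens W (2 * M') n) :
    ∃ (μ : ℝ) (h : (W → Bool) → ℝ) (φ : ℕ → (W → Bool) → ℝ) (w : ℕ → ℝ),
      (∀ x, n x = (1 - μ) * indOm W (2 * M') x + h x + ∑ j ∈ Finset.range (4 * M'), φ j x) ∧
      Supp W (2 * M') h ∧ Emean W (2 * M') h = 0 ∧
      Emean W (2 * M') (fun x => h x ^ 2) ≤ 16 * Ent W (2 * M') n ∧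
      (∀ j, PieceData W M' (φ j) (w j)) ∧
      μ = ∑ j ∈ Finset.range (4 * M'), Emean W (2 * M') (φ j) ∧
      0 ≤ μ ∧ μ ≤ 1 ∧ μ ≤ Real.sqrt (Ent W (2 * M') n) ∧
      ∑ j ∈ Finset.range (4 * M'), Emean W (2 * M') (φ j) * w j
        ≤ Real.sqrt (Ent W (2 * M') n) * (3 * Real.sqrt (Ent W (2 * M') n) + cc W M') := by
  have hM'1 : 1 ≤ M' := by
    by_contra h
    have : M' = 0 := by omega
    rw [this] at hM
    norm_num at hM
  have hW' : Fintype.card W = 2 * (2 * M') := by omega
  have hq := qq_pos hW'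
  have hq1 := qq_le_one (W := W) (2 * M')
  have hpos : 0 < nOm W (2 * M') := nOm_pos hW'
  -- the level bound on the density
  have hJ : Real.log (nOm W (2 * M')) ≤ ((4 * M' : ℕ) : ℝ) := by
    have h1 : nOm W (2 * M') ≤ (2 : ℝ) ^ (4 * M') := by
      have := nOm_le_two_pow (W := W) (2 * M')
      rwa [hW] at this
    have h2 : Real.log (nOm W (2 * M')) ≤ Real.log ((2 : ℝ) ^ (4 * M')) := Real.log_le_log hpos h1
    rw [Real.log_pow] at h2
    have h3 : Real.log 2 ≤ 1 := by
      have := Real.log_two_lt_d9; linarith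
    have h4 : (0 : ℝ) ≤ ((4 * M' : ℕ) : ℝ) := Nat.cast_nonneg _
    nlinarith
  set J := 4 * M' with hJdef
  set A := Ent W (2 * M') n with hA
  have hA0 : 0 ≤ A := Ent_nonneg hW' hn
  have hAphi : A = Emean W (2 * M') (fun x => phiF (n x)) := Ent_eq_phiF hW' hn
  set m : ℕ → ℝ := fun j => Emean W (2 * M') (pieceF n j) with hm
  set μ := ∑ j ∈ Finset.range J, m j with hμ
  -- supports and signs
  have hpS : ∀ j, Supp W (2 * M') (pieceF n j) := by
    intro j x hx
    unfold pieceF
    rw [hn.supp x hx]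
    simp
  have hp0 : ∀ j x, 0 ≤ pieceF n j x := by
    intro j x
    unfold pieceF
    split_ifs
    · exact hn.nonneg x
    · exact le_rfl
  have hpn : ∀ j x, pieceF n j x ≤ n x := by
    intro j x
    unfold pieceF
    split_ifs
    · exact le_rfl
    · exact hn.nonneg x
  have hm0 : ∀ j, 0 ≤ m j := fun j => Emean_nonneg hW' fun x _ => hp0 j x
  have hm1 : ∀ j, m j ≤ 1 := fun j => by
    have := Emean_le hW' (φ := pieceF n j) (ψ := n) fun x _ => hpn j x
    rw [hn.mean] at this
    exact this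
  have hμ0 : 0 ≤ μ := Finset.sum_nonneg fun j _ => hm0 j
  -- the low part
  have hdec := low_add_high hJ hW' hn
  have hEsum : Emean W (2 * M') (fun x => ∑ j ∈ Finset.range J, pieceF n j x) = μ := Emean_sum _ _
  have hElow : Emean W (2 * M') (lowF n) = 1 - μ := by
    have h1 : Emean W (2 * M') n = Emean W (2 * M') (lowF n)
        + Emean W (2 * M') (fun x => ∑ j ∈ Finset.range J, pieceF n j x) := by
      rw [← Emean_add]
      exact Emean_congr fun x _ => hdec x
    rw [hn.mean, hEsum] at h1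
    linarith
  have hlow0 : ∀ x, 0 ≤ lowF n x := by
    intro x
    unfold lowF
    split_ifs
    · exact hn.nonneg x
    · exact le_rfl
  have hμ1 : μ ≤ 1 := by
    have := Emean_nonneg hW' (φ := lowF n) fun x _ => hlow0 x
    rw [hElow] at this
    linarith
  -- the mean zero part
  set c := 1 - μ with hc
  set h : (W → Bool) → ℝ := fun x => lowF n x - c * indOm W (2 * M') x with hh
  have hhS : Supp W (2 * M') h := by
    intro x hx
    simp only [hh]
    unfold lowF
    rw [indOm_supp _ x hx, hn.supp x hx]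
    simp
  have hhE : Emean W (2 * M') h = 0 := by
    simp only [hh]
    rw [Emean_sub, Emean_mul_const, Emean_ind hW', hElow]
    ring
  have hh2 : Emean W (2 * M') (fun x => h x ^ 2) ≤ 16 * A := by
    have e1 : Emean W (2 * M') (fun x => h x ^ 2) = Emean W (2 * M') (fun x => (lowF n x - c) ^ 2) := by
      refine Emean_congr fun x hx => ?_
      simp only [hh]
      unfold indOm
      rw [if_pos hx, mul_one]
    have e2 : Emean W (2 * M') (fun x => (lowF n x - 1) ^ 2)
        = Emean W (2 * M') (fun x => (lowF n x - c) ^ 2) + (c - 1) ^ 2 := by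
      have : (fun x => (lowF n x - 1) ^ 2) = fun x => (lowF n x - c) ^ 2 +
          (c - 1) * (2 * lowF n x - (c + 1)) := by
        funext x; ring
      rw [this, Emean_add, Emean_mul_const, Emean_sub, Emean_mul_const, Emean_const hW', hElow]
      ring
    have e3 : Emean W (2 * M') (fun x => (lowF n x - 1) ^ 2) ≤ 16 * A := by
      rw [hAphi, ← Emean_mul_const]
      refine Emean_le hW' fun x _ => ?_
      unfold lowF
      split_ifs with hl
      · exact sq_le_phiF_low (hn.nonneg x) hl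
      · have := one_le_phiF_high (not_le.1 hl) (hn.nonneg x)
        norm_num
        linarith
    rw [e1]
    nlinarith [sq_nonneg (c - 1)]
  -- piece data
  set w : ℕ → ℝ := fun j => (j : ℝ) + 3 - Real.log (qq W (2 * M') * m j) with hw
  have hlogneg : ∀ j, Real.log (qq W (2 * M') * m j) ≤ 0 := by
    intro j
    apply Real.log_nonpos (mul_nonneg hq.le (hm0 j))
    have := mul_le_mul hq1 (hm1 j) (hm0 j) (by norm_num : (0 : ℝ) ≤ 1)
    linarith
  have hpd : ∀ j, PieceData W M' (pieceF n j) (w j) := by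
    intro j
    refine ⟨hpS j, hp0 j, ?_, ?_⟩
    · have hj : (0 : ℝ) ≤ j := Nat.cast_nonneg j
      have := hlogneg j
      simp only [hw]
      linarith
    · intro hmj
      refine ⟨Real.exp ((j : ℝ) + 3), ?_, ?_⟩
      · intro x
        unfold pieceF
        split_ifs with hl
        · have hlg := pieceF_log hl
          have hj : (0 : ℝ) ≤ j := Nat.cast_nonneg j
          have hnx : 0 < n x := by
            rcases (hn.nonneg x).eq_or_lt with h' | h'
            · rw [← h'] at hlg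
              simp at hlg
              linarith
            · exact h'
          rw [← Real.exp_log hnx]
          exact Real.exp_le_exp.2 hlg.2
        · exact (Real.exp_pos _).le
      · have hqm : 0 < qq W (2 * M') * m j := mul_pos hq hmj
        apply le_of_eq
        show _ = qq W (2 * M') * m j * Real.exp (w j)
        simp only [hw]
        rw [Real.exp_sub, Real.exp_log hqm]
        have hmj' : m j ≠ 0 := ne_of_gt hmj
        field_simp
  -- the sum over levels with the linear weight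
  have hsum2 : ∑ j ∈ Finset.range J, m j * ((j : ℝ) + 2) ≤ 2 * A := by
    have e : ∑ j ∈ Finset.range J, m j * ((j : ℝ) + 2)
        = Emean W (2 * M') (fun x => ∑ j ∈ Finset.range J, pieceF n j x * ((j : ℝ) + 2)) := by
      have : ∀ j, m j * ((j : ℝ) + 2) = Emean W (2 * M') (fun x => pieceF n j x * ((j : ℝ) + 2)) := by
        intro j
        simp only [hm]
        unfold Emean
        rw [div_mul_eq_mul_div, Finset.sum_mul]
      simp_rw [this]
      rw [Emean_sum]
    rw [e, hAphi, ← Emean_mul_const]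
    refine Emean_le hW' fun x _ => ?_
    rw [sum_pieceF_eq hJ hW' hn x (fun j => (j : ℝ) + 2)]
    split_ifs with hl
    · have hc3 : 3 ≤ ⌈Real.log (n x)⌉₊ := by
        apply Nat.succ_le_of_lt
        apply Nat.lt_ceil.2
        exact_mod_cast hl
      have hlg := pieceF_log (n := n) (j := ⌈Real.log (n x)⌉₊ - 3) (x := x) (by omega)
      have h1 := mul_log_le_phiF_high hl (hn.nonneg x)
      have h2 := mul_le_mul_of_nonneg_left hlg.1.le (hn.nonneg x)
      linarith
    · have := phiF_nonneg (hn.nonneg x)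
      linarith
  have hμA : μ ≤ A := by
    have h1 : ∑ j ∈ Finset.range J, m j * 2 ≤ ∑ j ∈ Finset.range J, m j * ((j : ℝ) + 2) := by
      refine Finset.sum_le_sum fun j _ => ?_
      apply mul_le_mul_of_nonneg_left _ (hm0 j)
      have hj : (0 : ℝ) ≤ j := Nat.cast_nonneg j
      linarith
    rw [← Finset.sum_mul] at h1
    linarith
  have hsum3 : ∑ j ∈ Finset.range J, m j * ((j : ℝ) + 3) ≤ 3 * A := by
    have h1 : ∑ j ∈ Finset.range J, m j * ((j : ℝ) + 3)
        ≤ ∑ j ∈ Finset.range J, (3 / 2) * (m j * ((j : ℝ) + 2)) := by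
      refine Finset.sum_le_sum fun j _ => ?_
      have hj : (0 : ℝ) ≤ j := Nat.cast_nonneg j
      have := hm0 j
      nlinarith
    rw [← Finset.mul_sum] at h1
    linarith
  set α := Real.sqrt A with hα
  have hα0 : 0 ≤ α := Real.sqrt_nonneg _
  have hα2 : α ^ 2 = A := Real.sq_sqrt hA0
  have hμα : μ ≤ α := by
    by_cases h1 : 1 ≤ α
    · linarith
    · have h2 : α < 1 := not_le.1 h1
      have : α ^ 2 ≤ α := by nlinarith
      linarith
  have hsμ : Real.sqrt μ ≤ α := Real.sqrt_le_sqrt hμA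
  have hJ1 : 1 ≤ J := by omega
  have hJr : (1 : ℝ) ≤ (J : ℝ) := by exact_mod_cast hJ1
  have hlogJ : 0 ≤ Real.log (J : ℝ) := Real.log_nonneg hJr
  have hc0 : 0 ≤ - Real.log (qq W (2 * M')) := by
    have := Real.log_nonpos hq.le hq1
    linarith
  have hbar : ∑ j ∈ Finset.range J, m j * w j ≤ α * (3 * α + cc W M') := by
    have e : ∀ j, m j * w j = m j * ((j : ℝ) + 3) + m j * (- Real.log (qq W (2 * M')))
        + (- (m j * Real.log (m j))) := by
      intro j
      simp only [hw]
      rcases (hm0 j).eq_or_lt with h0 | h0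
      · rw [← h0]; simp
      · rw [Real.log_mul hq.ne' h0.ne']; ring
    simp_rw [e]
    rw [Finset.sum_add_distrib, Finset.sum_add_distrib, ← Finset.sum_mul]
    unfold cc
    rcases hμ0.eq_or_lt with h0 | h0
    · -- zero mass
      have hz : ∀ j ∈ Finset.range J, m j = 0 :=
        (Finset.sum_eq_zero_iff_of_nonneg fun j _ => hm0 j).1 h0.symm
      have e3 : ∑ j ∈ Finset.range J, (- (m j * Real.log (m j))) = 0 :=
        Finset.sum_eq_zero fun j hj => by rw [hz j hj]; simp
      rw [e3, ← hμ, ← h0]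
      have h5 : 0 ≤ α * (- Real.log (qq W (2 * M')) + Real.log (J : ℝ) + 2) := by positivity
      nlinarith
    · have h1 := sum_neg_mul_log_le hJ1 m (fun j _ => hm0 j) μ hμ h0
      have h2 := neg_mul_log_le_sqrt hμ0 hμ1
      rw [← hμ]
      have h3 : μ * (- Real.log (qq W (2 * M'))) ≤ α * (- Real.log (qq W (2 * M'))) :=
        mul_le_mul_of_nonneg_right hμα hc0
      have h4 : μ * Real.log (J : ℝ) ≤ α * Real.log (J : ℝ) :=
        mul_le_mul_of_nonneg_right hμα hlogJ
      nlinarith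
  refine ⟨μ, h, pieceF n, w, ?_, hhS, hhE, hh2, hpd, rfl, hμ0, hμ1, hμα, hbar⟩
  intro x
  simp only [hh]
  rw [hdec x, hc]
  have := hdec x
  ring_nf

/-- The main bilinear estimate for two densities. -/
theorem BB_dens_le {M' : ℕ} (hM : 2 ^ 30 ≤ 2 * M') (hW : Fintype.card W = 4 * M')
    {n f : (W → Bool) → ℝ} (hn : IsDens W (2 * M') n) (hf : IsDens W (2 * M') f) :
    BB W M' n f ≤ 1 + Psi W M' / ((2 * M' : ℕ) : ℝ) *
      (Real.sqrt (Ent W (2 * M') n) * Real.sqrt (Ent W (2 * M') f)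
        * (17 + 512 * (3 * Real.sqrt (Ent W (2 * M') f) + cc W M')
          + 512 * (3 * Real.sqrt (Ent W (2 * M') n) + cc W M')
          + 322 * ((3 * Real.sqrt (Ent W (2 * M') n) + cc W M')
            * (3 * Real.sqrt (Ent W (2 * M') f) + cc W M')))) := by
  have hM'1 : 1 ≤ M' := by
    by_contra h
    have : M' = 0 := by omega
    rw [this] at hM
    norm_num at hM
  have hW' : Fintype.card W = 2 * (2 * M') := by omega
  have hMr : (2 : ℝ) ^ 30 ≤ ((2 * M' : ℕ) : ℝ) := by exact_mod_cast hM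
  have hMpos : (0 : ℝ) < ((2 * M' : ℕ) : ℝ) := by
    have : (0 : ℝ) < 2 ^ 30 := by positivity
    linarith
  have hPsi := Psi_pos hW
  have hq := qq_pos hW'
  have hq1 := qq_le_one (W := W) (2 * M')
  obtain ⟨μ, h, φ, w, hdn, hhS, hhE, hh2, hpd, hμ, hμ0, hμ1, hμα, hbar⟩ := dens_decomp hM hW hn
  obtain ⟨μ', h', ψ, w', hdf, hhS', hhE', hh2', hpd', hμ', hμ0', hμ1', hμα', hbar'⟩ :=
    dens_decomp hM hW hf
  set A := Ent W (2 * M') n with hA
  set B := Ent W (2 * M') f with hB
  have hA0 : 0 ≤ A := Ent_nonneg hW' hn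
  have hB0 : 0 ≤ B := Ent_nonneg hW' hf
  set α := Real.sqrt A with hα
  set β := Real.sqrt B with hβ
  have hα0 : 0 ≤ α := Real.sqrt_nonneg _
  have hβ0 : 0 ≤ β := Real.sqrt_nonneg _
  set η := Psi W M' / ((2 * M' : ℕ) : ℝ) with hη
  have hη0 : 0 ≤ η := by positivity
  set c := cc W M' with hc
  have hc0 : 0 ≤ c := by
    rw [hc]; unfold cc
    have h1 : 0 ≤ - Real.log (qq W (2 * M')) := by
      have := Real.log_nonpos hq.le hq1
      linarith
    have h2 : 0 ≤ Real.log ((4 * M' : ℕ) : ℝ) := by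
      apply Real.log_nonneg
      have : 1 ≤ 4 * M' := by omega
      exact_mod_cast this
    linarith
  set I := indOm W (2 * M') with hI
  have hIS : Supp W (2 * M') I := indOm_supp _
  set N : (W → Bool) → ℝ := fun x => ∑ j ∈ Finset.range (4 * M'), φ j x with hN
  set F : (W → Bool) → ℝ := fun x => ∑ j ∈ Finset.range (4 * M'), ψ j x with hF
  have hNS : Supp W (2 * M') N := by
    intro x hx
    simp only [hN]
    exact Finset.sum_eq_zero fun j _ => (hpd j).supp x hx
  have hFS : Supp W (2 * M') F := by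
    intro x hx
    simp only [hF]
    exact Finset.sum_eq_zero fun j _ => (hpd' j).supp x hx
  have hEN : Emean W (2 * M') N = μ := by rw [hμ]; exact Emean_sum _ _
  have hEF : Emean W (2 * M') F = μ' := by rw [hμ']; exact Emean_sum _ _
  -- expansion
  have hnf : n = fun x => (1 - μ) * I x + (h x + N x) := by
    funext x; rw [hdn x]; simp only [hN]; ring
  have hff : f = fun x => (1 - μ') * I x + (h' x + F x) := by
    funext x; rw [hdf x]; simp only [hF]; ring
  have e1 : BB W M' n f = (1 - μ) * BB W M' I f + BB W M' h f + BB W M' N f := by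
    conv_lhs => rw [hnf]
    rw [BB_add_left, BB_smul_left, BB_add_left]
    ring
  have e2 : BB W M' I f = 1 := by
    rw [hI, BB_ind_left hW hf.supp, hf.mean]
  have e3 : BB W M' h f = BB W M' h h' + BB W M' h F := by
    conv_lhs => rw [hff]
    rw [BB_add_right, BB_smul_right, BB_add_right, hI, BB_ind_right hW hhS, hhE]
    ring
  have e4 : BB W M' N f = (1 - μ') * μ + BB W M' N h' + BB W M' N F := by
    conv_lhs => rw [hff]
    rw [BB_add_right, BB_smul_right, BB_add_right, hI, BB_ind_right hW hNS, hEN]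
    ring
  -- sizes of the mean zero parts
  have hs1 : Real.sqrt (Emean W (2 * M') (fun x => h x ^ 2)) ≤ 4 * α := by
    apply Real.sqrt_le_iff.2
    refine ⟨by positivity, ?_⟩
    have : (4 * α) ^ 2 = 16 * A := by
      rw [mul_pow, hα, Real.sq_sqrt hA0]; norm_num
    rw [this]; exact hh2
  have hs2 : Real.sqrt (Emean W (2 * M') (fun x => h' x ^ 2)) ≤ 4 * β := by
    apply Real.sqrt_le_iff.2
    refine ⟨by positivity, ?_⟩
    have : (4 * β) ^ 2 = 16 * B := by
      rw [mul_pow, hβ, Real.sq_sqrt hB0]; norm_num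
    rw [this]; exact hh2'
  have hs10 : 0 ≤ Real.sqrt (Emean W (2 * M') (fun x => h x ^ 2)) := Real.sqrt_nonneg _
  have hs20 : 0 ≤ Real.sqrt (Emean W (2 * M') (fun x => h' x ^ 2)) := Real.sqrt_nonneg _
  -- the four terms
  have t1 : BB W M' h h' ≤ η * (16 * (α * β)) := by
    have h1 := abs_BB_mean_zero hM'1 hW hhS hhS' hhE
    refine le_trans (le_abs_self _) (le_trans h1 ?_)
    apply mul_le_mul_of_nonneg_left _ hη0
    have := mul_le_mul hs1 hs2 hs20 (by positivity)
    nlinarith
  have hbar0 : ∀ (ϕ : ℕ → (W → Bool) → ℝ) (v : ℕ → ℝ), (∀ j, PieceData W M' (ϕ j) (v j)) →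
      0 ≤ ∑ j ∈ Finset.range (4 * M'), Emean W (2 * M') (ϕ j) * v j := by
    intro ϕ v hv
    refine Finset.sum_nonneg fun j _ => mul_nonneg (Emean_nonneg' hW (hv j).nonneg) ?_
    have := (hv j).one_le
    linarith
  have hQ : ∀ (g : (W → Bool) → ℝ) (ϕ : ℕ → (W → Bool) → ℝ) (v : ℕ → ℝ), Supp W (2 * M') g →
      Emean W (2 * M') g = 0 → (∀ j, PieceData W M' (ϕ j) (v j)) →
      |BB W M' g (fun x => ∑ j ∈ Finset.range (4 * M'), ϕ j x)|
        ≤ 128 * η * (Real.sqrt (Emean W (2 * M') (fun x => g x ^ 2))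
          * ∑ j ∈ Finset.range (4 * M'), Emean W (2 * M') (ϕ j) * v j) := by
    intro g ϕ v hg hg0 hv
    rw [BB_sum_right]
    refine le_trans (Finset.abs_sum_le_sum_abs _ _) ?_
    rw [Finset.mul_sum, Finset.mul_sum]
    exact Finset.sum_le_sum fun j _ => abs_BB_pieceData hM hW hg hg0 (hv j)
  have t2 : BB W M' h F ≤ η * (512 * (α * (β * (3 * β + c)))) := by
    have h1 := hQ h ψ w' hhS hhE hpd'
    refine le_trans (le_abs_self _) (le_trans h1 ?_)
    have h0 := hbar0 ψ w' hpd'
    have h3 := mul_le_mul hs1 hbar' h0 (by positivity)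
    have h4 : 128 * η * (Real.sqrt (Emean W (2 * M') (fun x => h x ^ 2))
          * ∑ j ∈ Finset.range (4 * M'), Emean W (2 * M') (ψ j) * w' j)
        ≤ 128 * η * (4 * α * (β * (3 * β + c))) :=
      mul_le_mul_of_nonneg_left h3 (by positivity)
    refine le_trans h4 (le_of_eq ?_)
    ring
  have t3 : BB W M' N h' ≤ η * (512 * (β * (α * (3 * α + c)))) := by
    rw [BB_comm]
    have h1 := hQ h' φ w hhS' hhE' hpd
    refine le_trans (le_abs_self _) (le_trans h1 ?_)
    have h0 := hbar0 φ w hpd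
    have h3 := mul_le_mul hs2 hbar h0 (by positivity)
    have h4 : 128 * η * (Real.sqrt (Emean W (2 * M') (fun x => h' x ^ 2))
          * ∑ j ∈ Finset.range (4 * M'), Emean W (2 * M') (φ j) * w j)
        ≤ 128 * η * (4 * β * (α * (3 * α + c))) :=
      mul_le_mul_of_nonneg_left h3 (by positivity)
    refine le_trans h4 (le_of_eq ?_)
    ring
  have t4 : BB W M' N F ≤ μ * μ' + η * (α * β + 322 * ((α * (3 * α + c)) * (β * (3 * β + c)))) := by
    have h1 : BB W M' N F = ∑ j ∈ Finset.range (4 * M'), ∑ k ∈ Finset.range (4 * M'),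
        BB W M' (φ j) (ψ k) := by
      simp only [hN, hF]
      rw [BB_sum_left]
      refine Finset.sum_congr rfl fun j _ => ?_
      rw [BB_sum_right]
    have h2 : ∑ j ∈ Finset.range (4 * M'), ∑ k ∈ Finset.range (4 * M'), BB W M' (φ j) (ψ k)
        ≤ ∑ j ∈ Finset.range (4 * M'), ∑ k ∈ Finset.range (4 * M'),
          (2 * qq W (2 * M') * Psi W M' * (Emean W (2 * M') (φ j) * Emean W (2 * M') (ψ k))
           + 322 * η * ((Emean W (2 * M') (φ j) * w j) * (Emean W (2 * M') (ψ k) * w' k))) := by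
      refine Finset.sum_le_sum fun j _ => Finset.sum_le_sum fun k _ => ?_
      refine le_trans (BB_pieceData_le hM hW (hpd j) (hpd' k)) (le_of_eq ?_)
      ring
    have h3 : ∑ j ∈ Finset.range (4 * M'), ∑ k ∈ Finset.range (4 * M'),
          (2 * qq W (2 * M') * Psi W M' * (Emean W (2 * M') (φ j) * Emean W (2 * M') (ψ k))
           + 322 * η * ((Emean W (2 * M') (φ j) * w j) * (Emean W (2 * M') (ψ k) * w' k)))
        = 2 * qq W (2 * M') * Psi W M' * (μ * μ')
          + 322 * η * ((∑ j ∈ Finset.range (4 * M'), Emean W (2 * M') (φ j) * w j)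
            * ∑ k ∈ Finset.range (4 * M'), Emean W (2 * M') (ψ k) * w' k) := by
      rw [hμ, hμ', Finset.sum_mul_sum, Finset.sum_mul_sum, Finset.mul_sum, Finset.mul_sum,
        ← Finset.sum_add_distrib]
      refine Finset.sum_congr rfl fun j _ => ?_
      rw [Finset.mul_sum, Finset.mul_sum, ← Finset.sum_add_distrib]
    rw [h1]
    refine le_trans h2 ?_
    rw [h3]
    have h4 := abs_sub_one_le hM'1 hW
    have h5 : 2 * qq W (2 * M') * Psi W M' ≤ 1 + η := by
      have := le_trans (le_abs_self _) h4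
      linarith
    have hμμ : 0 ≤ μ * μ' := mul_nonneg hμ0 hμ0'
    have h6 : 2 * qq W (2 * M') * Psi W M' * (μ * μ') ≤ (1 + η) * (μ * μ') :=
      mul_le_mul_of_nonneg_right h5 hμμ
    have h7 : μ * μ' ≤ α * β := mul_le_mul hμα hμα' hμ0' hα0
    have h8 := mul_le_mul hbar hbar' (hbar0 ψ w' hpd') (by positivity)
    have h9 : 322 * η * ((∑ j ∈ Finset.range (4 * M'), Emean W (2 * M') (φ j) * w j)
            * ∑ k ∈ Finset.range (4 * M'), Emean W (2 * M') (ψ k) * w' k)
        ≤ 322 * η * ((α * (3 * α + c)) * (β * (3 * β + c))) :=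
      mul_le_mul_of_nonneg_left h8 (by positivity)
    have h10 := mul_le_mul_of_nonneg_left h7 hη0
    have h11 : (1 + η) * (μ * μ') = μ * μ' + η * (μ * μ') := by ring
    have h12 : η * (α * β + 322 * ((α * (3 * α + c)) * (β * (3 * β + c))))
        = η * (α * β) + 322 * η * ((α * (3 * α + c)) * (β * (3 * β + c))) := by ring
    rw [h12]
    linarith
  -- putting it together
  have hmain : BB W M' n f ≤ 1 + η * (16 * (α * β) + 512 * (α * (β * (3 * β + c)))
      + 512 * (β * (α * (3 * α + c))) + (α * β + 322 * ((α * (3 * α + c)) * (β * (3 * β + c))))) := by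
    rw [e1, e2, e3, e4]
    have h13 : (1 - μ) * 1 + (1 - μ') * μ + μ * μ' = 1 := by ring
    have h14 : η * (16 * (α * β) + 512 * (α * (β * (3 * β + c)))
      + 512 * (β * (α * (3 * α + c))) + (α * β + 322 * ((α * (3 * α + c)) * (β * (3 * β + c)))))
        = η * (16 * (α * β)) + η * (512 * (α * (β * (3 * β + c))))
          + η * (512 * (β * (α * (3 * α + c))))
          + η * (α * β + 322 * ((α * (3 * α + c)) * (β * (3 * β + c)))) := by ring
    rw [h14]
    linarith
  refine le_trans hmain (le_of_eq ?_)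
  ring

end Vale.Agent.Lib.P162
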