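import Vale.Agent.Lib.P162.Decomp

/-!
The entropy bound for the orthogonality kernel on the slice.
-/

set_option linter.unusedSectionVars false
set_option linter.unusedVariables false

namespace Vale.Agent.Lib.P162

open Finset

variable {W : Type*} [Fintype W] [DecidableEq W]

/-- The arithmetic in the core estimate. -/
theorem K3_arith (α β c η δ S L : ℝ) (hα0 : 0 ≤ α) (hβ0 : 0 ≤ β) (hc2 : 2 ≤ c) (hη0 : 0 ≤ η)
    (hS : S = α ^ 2 + β ^ 2) (hcase : S < L) (hcond : η * (15120 * L + 840 * c ^ 2) ≤ δ) :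
    η * (α * β * (17 + 512 * (3 * β + c) + 512 * (3 * α + c)
        + 322 * ((3 * α + c) * (3 * β + c)))) ≤ δ * S := by
  have hS0 : 0 ≤ S := by rw [hS]; positivity
  have hc0 : 0 ≤ c := by linarith
  have hG2 : 2 ≤ 3 * α + 3 * β + c := by nlinarith
  obtain ⟨G, hG⟩ : ∃ G, G = 3 * α + 3 * β + c := ⟨_, rfl⟩
  rw [← hG] at hG2
  have hA1 : 0 ≤ 3 * α + c := by positivity
  have hB1 : 0 ≤ 3 * β + c := by positivity
  have hX : 17 + 512 * (3 * β + c) + 512 * (3 * α + c) + 322 * ((3 * α + c) * (3 * β + c))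
      ≤ 839 * G ^ 2 := by
    have h1 : 3 * α + c ≤ G := by rw [hG]; linarith
    have h2 : 3 * β + c ≤ G := by rw [hG]; linarith
    have h3 : (3 * α + c) * (3 * β + c) ≤ G * G := mul_le_mul h1 h2 hB1 (by linarith)
    nlinarith
  have hX0 : 0 ≤ 17 + 512 * (3 * β + c) + 512 * (3 * α + c) + 322 * ((3 * α + c) * (3 * β + c)) := by
    positivity
  have hab : α * β ≤ S / 2 := by
    rw [hS]
    nlinarith [sq_nonneg (α - β)]
  have hG3 : G ^ 2 ≤ 36 * S + 2 * c ^ 2 := by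
    rw [hG, hS]
    nlinarith [sq_nonneg (α - β), sq_nonneg (3 * α + 3 * β - c)]
  have hstep : α * β * (17 + 512 * (3 * β + c) + 512 * (3 * α + c)
      + 322 * ((3 * α + c) * (3 * β + c))) ≤ S * (15120 * S + 840 * c ^ 2) := by
    have h1 : α * β * (17 + 512 * (3 * β + c) + 512 * (3 * α + c)
      + 322 * ((3 * α + c) * (3 * β + c))) ≤ (S / 2) * (839 * G ^ 2) :=
      mul_le_mul hab hX hX0 (by positivity)
    have h2 : (S / 2) * (839 * G ^ 2) ≤ (S / 2) * (839 * (36 * S + 2 * c ^ 2)) := by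
      apply mul_le_mul_of_nonneg_left _ (by positivity)
      linarith
    have h3 : (S / 2) * (839 * (36 * S + 2 * c ^ 2)) ≤ S * (15120 * S + 840 * c ^ 2) := by
      have h4 : 0 ≤ S * S := by positivity
      have h5 : 0 ≤ S * c ^ 2 := by positivity
      nlinarith
    linarith
  calc _ ≤ η * (S * (15120 * S + 840 * c ^ 2)) := mul_le_mul_of_nonneg_left hstep hη0
    _ ≤ η * (S * (15120 * L + 840 * c ^ 2)) := by
        apply mul_le_mul_of_nonneg_left _ hη0
        apply mul_le_mul_of_nonneg_left _ hS0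
        linarith
    _ = S * (η * (15120 * L + 840 * c ^ 2)) := by ring
    _ ≤ S * δ := mul_le_mul_of_nonneg_left hcond hS0
    _ = _ := by ring

/-- Core form of the entropy bound. -/
theorem K3_core {M' : ℕ} (hM : 2 ^ 30 ≤ 2 * M') (hW : Fintype.card W = 4 * M')
    {n f : (W → Bool) → ℝ} (hn : IsDens W (2 * M') n) (hf : IsDens W (2 * M') f)
    {δ : ℝ} (hδ : 0 < δ)
    (hcond : Psi W M' / ((2 * M' : ℕ) : ℝ) *
      (15120 * (Real.log (Psi W M') / δ) + 840 * cc W M' ^ 2) ≤ δ) :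
    BB W M' n f ≤ Real.exp (δ * (Ent W (2 * M') n + Ent W (2 * M') f)) := by
  have hM'1 : 1 ≤ M' := by
    by_contra h
    have : M' = 0 := by omega
    rw [this] at hM
    norm_num at hM
  have hW' : Fintype.card W = 2 * (2 * M') := by omega
  have hMr : (2 : ℝ) ^ 30 ≤ ((2 * M' : ℕ) : ℝ) := by exact_mod_cast hM
  have hMpos : (0 : ℝ) < ((2 * M' : ℕ) : ℝ) := by
    have : (0 : ℝ) < 2 ^ 30 := by positivity
    linarith
  have hPsi := Psi_pos hW
  have hPsi1 := one_le_Psi hW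
  have hq := qq_pos hW'
  have hq1 := qq_le_one (W := W) (2 * M')
  have hmain := BB_dens_le hM hW hn hf
  have hA0 : 0 ≤ Ent W (2 * M') n := Ent_nonneg hW' hn
  have hB0 : 0 ≤ Ent W (2 * M') f := Ent_nonneg hW' hf
  by_cases hcase : Real.log (Psi W M') / δ ≤ Ent W (2 * M') n + Ent W (2 * M') f
  · -- the trivial bound
    have h1 := BB_le_trivial hW hn.supp hf.supp hn.nonneg hf.nonneg
    rw [hn.mean, hf.mean, mul_one, mul_one] at h1
    refine le_trans h1 ?_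
    have h2 : Real.log (Psi W M') ≤ δ * (Ent W (2 * M') n + Ent W (2 * M') f) := by
      rw [div_le_iff₀ hδ] at hcase
      linarith
    calc Psi W M' = Real.exp (Real.log (Psi W M')) := (Real.exp_log hPsi).symm
      _ ≤ _ := Real.exp_le_exp.2 h2
  · push Not at hcase
    have hc2 : 2 ≤ cc W M' := by
      unfold cc
      have h1 : 0 ≤ - Real.log (qq W (2 * M')) := by
        have := Real.log_nonpos hq.le hq1
        linarith
      have h2 : 0 ≤ Real.log ((4 * M' : ℕ) : ℝ) := by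
        apply Real.log_nonneg
        have : 1 ≤ 4 * M' := by omega
        exact_mod_cast this
      linarith
    have hfinal := K3_arith (Real.sqrt (Ent W (2 * M') n)) (Real.sqrt (Ent W (2 * M') f)) (cc W M')
      (Psi W M' / ((2 * M' : ℕ) : ℝ)) δ (Ent W (2 * M') n + Ent W (2 * M') f)
      (Real.log (Psi W M') / δ) (Real.sqrt_nonneg _) (Real.sqrt_nonneg _) hc2 (by positivity)
      (by rw [Real.sq_sqrt hA0, Real.sq_sqrt hB0]) hcase hcond
    have h1 : 1 + δ * (Ent W (2 * M') n + Ent W (2 * M') f)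
        ≤ Real.exp (δ * (Ent W (2 * M') n + Ent W (2 * M') f)) := by
      have := Real.add_one_le_exp (δ * (Ent W (2 * M') n + Ent W (2 * M') f)); linarith
    exact le_trans hmain (by linarith)

/-! ### Central binomial bounds -/

theorem cb_lower (n : ℕ) (hn : 1 ≤ n) :
    (16 : ℝ) ^ n ≤ 4 * n * (Nat.centralBinom n : ℝ) ^ 2 := by
  induction n, hn using Nat.le_induction with
  | base => norm_num [Nat.centralBinom]
  | succ n hn ih =>
    have h1 := Nat.succ_mul_centralBinom_succ n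
    have h2 : ((n : ℝ) + 1) * (Nat.centralBinom (n + 1) : ℝ)
        = 2 * (2 * (n : ℝ) + 1) * (Nat.centralBinom n : ℝ) := by exact_mod_cast h1
    have hn0 : (0 : ℝ) < (n : ℝ) + 1 := by positivity
    have h3 : (Nat.centralBinom (n + 1) : ℝ)
        = 2 * (2 * (n : ℝ) + 1) * (Nat.centralBinom n : ℝ) / ((n : ℝ) + 1) := by
      field_simp; linarith
    rw [h3, pow_succ (16 : ℝ)]
    push_cast
    set b := (Nat.centralBinom n : ℝ) with hb
    have hb0 : 0 ≤ b ^ 2 := sq_nonneg b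
    have e : 4 * ((n : ℝ) + 1) * (2 * (2 * (n : ℝ) + 1) * b / ((n : ℝ) + 1)) ^ 2
        = 16 * (2 * (n : ℝ) + 1) ^ 2 * b ^ 2 / ((n : ℝ) + 1) := by
      field_simp
      ring
    rw [e, le_div_iff₀ hn0]
    have hn1 : (0 : ℝ) ≤ n := Nat.cast_nonneg n
    calc (16 : ℝ) ^ n * 16 * ((n : ℝ) + 1) ≤ (4 * n * b ^ 2) * 16 * ((n : ℝ) + 1) := by
          apply mul_le_mul_of_nonneg_right _ hn0.le
          apply mul_le_mul_of_nonneg_right ih (by norm_num)
      _ ≤ _ := by nlinarith [mul_nonneg hn1 hb0]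

theorem cb_upper (n : ℕ) :
    (Nat.centralBinom n : ℝ) ^ 2 * (2 * (n : ℝ) + 1) ≤ (16 : ℝ) ^ n := by
  induction n with
  | zero => norm_num [Nat.centralBinom]
  | succ n ih =>
    have h1 := Nat.succ_mul_centralBinom_succ n
    have h2 : ((n : ℝ) + 1) * (Nat.centralBinom (n + 1) : ℝ)
        = 2 * (2 * (n : ℝ) + 1) * (Nat.centralBinom n : ℝ) := by exact_mod_cast h1
    have hn0 : (0 : ℝ) < (n : ℝ) + 1 := by positivity
    have h3 : (Nat.centralBinom (n + 1) : ℝ)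
        = 2 * (2 * (n : ℝ) + 1) * (Nat.centralBinom n : ℝ) / ((n : ℝ) + 1) := by
      field_simp; linarith
    rw [h3, pow_succ (16 : ℝ)]
    push_cast
    set b := (Nat.centralBinom n : ℝ) with hb
    have hb0 : 0 ≤ b ^ 2 := sq_nonneg b
    have e : (2 * (2 * (n : ℝ) + 1) * b / ((n : ℝ) + 1)) ^ 2 * (2 * ((n : ℝ) + 1) + 1)
        = 4 * (2 * (n : ℝ) + 1) ^ 2 * b ^ 2 * (2 * (n : ℝ) + 3) / ((n : ℝ) + 1) ^ 2 := by
      field_simp
      ring
    rw [e, div_le_iff₀ (by positivity)]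
    have hn1 : (0 : ℝ) ≤ n := Nat.cast_nonneg n
    have h16 : (0 : ℝ) ≤ (16 : ℝ) ^ n := by positivity
    calc 4 * (2 * (n : ℝ) + 1) ^ 2 * b ^ 2 * (2 * (n : ℝ) + 3)
        = 4 * (2 * (n : ℝ) + 1) * (2 * (n : ℝ) + 3) * (b ^ 2 * (2 * (n : ℝ) + 1)) := by ring
      _ ≤ 4 * (2 * (n : ℝ) + 1) * (2 * (n : ℝ) + 3) * (16 : ℝ) ^ n := by
          apply mul_le_mul_of_nonneg_left ih (by positivity)
      _ ≤ _ := by nlinarith [mul_nonneg hn1 h16, mul_nonneg (mul_nonneg hn1 hn1) h16]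

theorem nOm_eq_cb {M' : ℕ} (hW : Fintype.card W = 4 * M') :
    nOm W (2 * M') = (Nat.centralBinom (2 * M') : ℝ) := by
  rw [nOm_eq, hW, Nat.centralBinom_eq_two_mul_choose]
  congr 2
  ring

theorem oo_eq_cb (M' : ℕ) : oo M' = (Nat.centralBinom M' : ℝ) ^ 2 := by
  unfold oo
  rw [Nat.centralBinom_eq_two_mul_choose]

/-- The bound on `Psi`. -/
theorem Psi_sq_le {M' : ℕ} (hM' : 1 ≤ M') (hW : Fintype.card W = 4 * M') :
    Psi W M' ^ 2 ≤ 4 * (M' : ℝ) := by
  unfold Psi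
  rw [nOm_eq_cb hW, oo_eq_cb]
  have h1 := cb_upper (2 * M')
  have h2 := cb_lower M' hM'
  push_cast at h1
  have hb : (0 : ℝ) < (Nat.centralBinom M' : ℝ) := by
    exact_mod_cast Nat.centralBinom_pos M'
  set x := (Nat.centralBinom (2 * M') : ℝ) with hx
  set y := (Nat.centralBinom M' : ℝ) with hy
  have hM0 : (1 : ℝ) ≤ M' := by exact_mod_cast hM'
  have h3 : (16 : ℝ) ^ (2 * M') = (16 ^ M') ^ 2 := by
    rw [mul_comm, pow_mul]
  have h4 : ((16 : ℝ) ^ M') ^ 2 ≤ (4 * M' * y ^ 2) ^ 2 :=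
    pow_le_pow_left₀ (by positivity) h2 2
  rw [div_pow, div_le_iff₀ (by positivity)]
  have h5 : x ^ 2 * (2 * (2 * (M' : ℝ)) + 1) ≤ (4 * M' * y ^ 2) ^ 2 := by
    rw [h3] at h1
    linarith
  have hx0 : 0 ≤ x ^ 2 := sq_nonneg x
  have h6 : x ^ 2 * (4 * (M' : ℝ)) ≤ x ^ 2 * (2 * (2 * (M' : ℝ)) + 1) := by
    apply mul_le_mul_of_nonneg_left _ hx0
    linarith
  have h7 : x ^ 2 * (4 * (M' : ℝ)) ≤ (4 * M' * y ^ 2) ^ 2 := by linarith
  have h8 : (4 * M' * y ^ 2) ^ 2 = (4 * (M' : ℝ)) * (4 * (M' : ℝ) * (y ^ 2) ^ 2) := by ring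
  rw [h8, mul_comm (x ^ 2)] at h7
  exact le_of_mul_le_mul_left h7 (by positivity)

/-- The bound on `qq`. -/
theorem qq_sq_ge {M' : ℕ} (hM' : 1 ≤ M') (hW : Fintype.card W = 4 * M') :
    1 / (8 * (M' : ℝ)) ≤ qq W (2 * M') ^ 2 := by
  unfold qq
  rw [nOm_eq_cb hW, hW]
  have h2 := cb_lower (2 * M') (by omega)
  have hM0 : (1 : ℝ) ≤ M' := by exact_mod_cast hM'
  push_cast at h2
  rw [div_pow, div_le_div_iff₀ (by positivity) (by positivity)]
  have h3 : ((2 : ℝ) ^ (4 * M')) ^ 2 = (16 : ℝ) ^ (2 * M') := by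
    rw [← pow_mul, show (4 * M') * 2 = 4 * (2 * M') by ring, pow_mul]
    norm_num
  rw [h3]
  linarith

end Vale.Agent.Lib.P162
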