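import Vale.Agent.Lib.P162.Slice

/-!
The orthogonality kernel on the slice and its expression through Walsh coefficients.
-/

set_option linter.unusedSectionVars false
set_option linter.unusedVariables false

namespace Vale.Agent.Lib.P162

open Finset

variable {W : Type*} [Fintype W] [DecidableEq W]

/-- Indicator of the slice. -/
noncomputable def indOm (W : Type*) [Fintype W] [DecidableEq W] (M : ℕ) : (W → Bool) → ℝ :=
  fun x => if x ∈ Om W M then 1 else 0

/-- Size of the slice, as a real number. -/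
noncomputable def nOm (W : Type*) [Fintype W] [DecidableEq W] (M : ℕ) : ℝ := (Om W M).card

/-- The number of neighbours in the orthogonality relation. -/
noncomputable def oo (M' : ℕ) : ℝ := (((2 * M').choose M' : ℕ) : ℝ) ^ 2

/-- The orthogonality bilinear form, normalised by the size of the relation. -/
noncomputable def BB (W : Type*) [Fintype W] [DecidableEq W] (M' : ℕ)
    (φ ψ : (W → Bool) → ℝ) : ℝ :=
  (∑ s, ∑ t, φ s * ψ t * indOm W (2 * M') (bxor s t)) / (nOm W (2 * M') * oo M')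

/-- Mean over the slice. -/
noncomputable def Emean (W : Type*) [Fintype W] [DecidableEq W] (M : ℕ)
    (φ : (W → Bool) → ℝ) : ℝ :=
  (∑ x ∈ Om W M, φ x) / nOm W M

/-- Being supported on the slice. -/
def Supp (W : Type*) [Fintype W] [DecidableEq W] (M : ℕ) (φ : (W → Bool) → ℝ) : Prop :=
  ∀ x, x ∉ Om W M → φ x = 0

/-- Normalized character sums. -/
noncomputable def eU (M : ℕ) (U : Finset W) : ℝ := EE M U / nOm W M

/-- The relative size of the slice in the cube. -/
noncomputable def qq (W : Type*) [Fintype W] [DecidableEq W] (M : ℕ) : ℝ :=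
  nOm W M / 2 ^ Fintype.card W

/-- The inverse density of the orthogonality relation. -/
noncomputable def Psi (W : Type*) [Fintype W] [DecidableEq W] (M' : ℕ) : ℝ :=
  nOm W (2 * M') / oo M'

theorem oo_pos (M' : ℕ) : 0 < oo M' := by
  unfold oo
  have : 0 < (2 * M').choose M' := Nat.choose_pos (by omega)
  positivity

theorem nOm_eq (M : ℕ) : nOm W M = ((Fintype.card W).choose M : ℕ) := by
  unfold nOm
  rw [card_Om]

theorem nOm_pos {M : ℕ} (hW : Fintype.card W = 2 * M) : 0 < nOm W M := by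
  rw [nOm_eq, hW]
  have : 0 < (2 * M).choose M := Nat.choose_pos (by omega)
  exact_mod_cast this

theorem qq_pos {M : ℕ} (hW : Fintype.card W = 2 * M) : 0 < qq W M := by
  unfold qq
  exact div_pos (nOm_pos hW) (by positivity)

theorem qq_le_one (M : ℕ) : qq W M ≤ 1 := by
  unfold qq nOm
  rw [div_le_one (by positivity)]
  have : (Om W M).card ≤ (Finset.univ : Finset (W → Bool)).card :=
    Finset.card_le_card (Finset.subset_univ _)
  rw [Finset.card_univ, Fintype.card_pi] at this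
  simp only [Fintype.card_bool, Finset.prod_const, Finset.card_univ] at this
  exact_mod_cast this

theorem sum_eq_sum_Om {M : ℕ} {φ : (W → Bool) → ℝ} (hφ : Supp W M φ) :
    ∑ x, φ x = ∑ x ∈ Om W M, φ x := by
  symm
  refine Finset.sum_subset (Finset.subset_univ _) fun x _ hx => hφ x hx

theorem Psi_pos {M' : ℕ} (hW : Fintype.card W = 4 * M') : 0 < Psi W M' := by
  unfold Psi
  exact div_pos (nOm_pos (by omega)) (oo_pos M')

/-- The number of orthogonal pairs through a fixed vector, in real form. -/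
theorem sum_ind_bxor {M' : ℕ} (hW : Fintype.card W = 4 * M') {t : W → Bool}
    (ht : t ∈ Om W (2 * M')) :
    ∑ s ∈ Om W (2 * M'), indOm W (2 * M') (bxor s t) = oo M' := by
  unfold indOm oo
  rw [Finset.sum_ite, Finset.sum_const_zero, add_zero, Finset.sum_const, nsmul_eq_mul, mul_one,
    card_orth hW ht]
  push_cast
  rfl

theorem bxor_comm (s t : W → Bool) : bxor s t = bxor t s := by
  funext i
  simp [bxor, Bool.xor_comm]

/-! ### Bilinearity -/

theorem BB_add_left (M' : ℕ) (φ₁ φ₂ ψ : (W → Bool) → ℝ) :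
    BB W M' (fun x => φ₁ x + φ₂ x) ψ = BB W M' φ₁ ψ + BB W M' φ₂ ψ := by
  unfold BB
  rw [← add_div, ← Finset.sum_add_distrib]
  congr 1
  refine Finset.sum_congr rfl fun s _ => ?_
  rw [← Finset.sum_add_distrib]
  exact Finset.sum_congr rfl fun t _ => by ring

theorem BB_add_right (M' : ℕ) (φ ψ₁ ψ₂ : (W → Bool) → ℝ) :
    BB W M' φ (fun x => ψ₁ x + ψ₂ x) = BB W M' φ ψ₁ + BB W M' φ ψ₂ := by
  unfold BB
  rw [← add_div, ← Finset.sum_add_distrib]
  congr 1
  refine Finset.sum_congr rfl fun s _ => ?_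
  rw [← Finset.sum_add_distrib]
  exact Finset.sum_congr rfl fun t _ => by ring

theorem BB_smul_left (M' : ℕ) (c : ℝ) (φ ψ : (W → Bool) → ℝ) :
    BB W M' (fun x => c * φ x) ψ = c * BB W M' φ ψ := by
  unfold BB
  rw [← mul_div_assoc, Finset.mul_sum]
  congr 1
  refine Finset.sum_congr rfl fun s _ => ?_
  rw [Finset.mul_sum]
  exact Finset.sum_congr rfl fun t _ => by ring

theorem BB_smul_right (M' : ℕ) (c : ℝ) (φ ψ : (W → Bool) → ℝ) :
    BB W M' φ (fun x => c * ψ x) = c * BB W M' φ ψ := by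
  unfold BB
  rw [← mul_div_assoc, Finset.mul_sum]
  congr 1
  refine Finset.sum_congr rfl fun s _ => ?_
  rw [Finset.mul_sum]
  exact Finset.sum_congr rfl fun t _ => by ring

theorem BB_sum_left {ι : Type*} (M' : ℕ) (S : Finset ι) (φ : ι → (W → Bool) → ℝ)
    (ψ : (W → Bool) → ℝ) :
    BB W M' (fun x => ∑ j ∈ S, φ j x) ψ = ∑ j ∈ S, BB W M' (φ j) ψ := by
  unfold BB
  rw [← Finset.sum_div]
  congr 1
  calc ∑ s, ∑ t, (∑ j ∈ S, φ j s) * ψ t * indOm W (2 * M') (bxor s t)
      = ∑ s, ∑ t, ∑ j ∈ S, φ j s * ψ t * indOm W (2 * M') (bxor s t) := by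
        refine Finset.sum_congr rfl fun s _ => Finset.sum_congr rfl fun t _ => ?_
        rw [Finset.sum_mul, Finset.sum_mul]
    _ = ∑ s, ∑ j ∈ S, ∑ t, φ j s * ψ t * indOm W (2 * M') (bxor s t) :=
        Finset.sum_congr rfl fun s _ => Finset.sum_comm
    _ = _ := Finset.sum_comm

theorem BB_sum_right {ι : Type*} (M' : ℕ) (S : Finset ι) (φ : (W → Bool) → ℝ)
    (ψ : ι → (W → Bool) → ℝ) :
    BB W M' φ (fun x => ∑ j ∈ S, ψ j x) = ∑ j ∈ S, BB W M' φ (ψ j) := by
  unfold BB
  rw [← Finset.sum_div]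
  congr 1
  calc ∑ s, ∑ t, φ s * (∑ j ∈ S, ψ j t) * indOm W (2 * M') (bxor s t)
      = ∑ s, ∑ t, ∑ j ∈ S, φ s * ψ j t * indOm W (2 * M') (bxor s t) := by
        refine Finset.sum_congr rfl fun s _ => Finset.sum_congr rfl fun t _ => ?_
        rw [Finset.mul_sum, Finset.sum_mul]
    _ = ∑ s, ∑ j ∈ S, ∑ t, φ s * ψ j t * indOm W (2 * M') (bxor s t) :=
        Finset.sum_congr rfl fun s _ => Finset.sum_comm
    _ = _ := Finset.sum_comm

theorem BB_congr_left {M' : ℕ} {φ₁ φ₂ ψ : (W → Bool) → ℝ} (h : ∀ x, φ₁ x = φ₂ x) :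
    BB W M' φ₁ ψ = BB W M' φ₂ ψ := by
  have : φ₁ = φ₂ := funext h
  rw [this]

theorem BB_congr_right {M' : ℕ} {φ ψ₁ ψ₂ : (W → Bool) → ℝ} (h : ∀ x, ψ₁ x = ψ₂ x) :
    BB W M' φ ψ₁ = BB W M' φ ψ₂ := by
  have : ψ₁ = ψ₂ := funext h
  rw [this]

/-! ### Evaluations of the kernel against constants -/

/-- Any function supported on the slice: pairing with the indicator gives the mean. -/
theorem BB_ind_left {M' : ℕ} (hW : Fintype.card W = 4 * M') {ψ : (W → Bool) → ℝ}
    (hψ : Supp W (2 * M') ψ) : BB W M' (indOm W (2 * M')) ψ = Emean W (2 * M') ψ := by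
  unfold BB Emean
  have hpos : 0 < nOm W (2 * M') := nOm_pos (by omega)
  have ho := oo_pos M'
  have h1 : ∑ s, ∑ t, indOm W (2 * M') s * ψ t * indOm W (2 * M') (bxor s t)
      = oo M' * ∑ t ∈ Om W (2 * M'), ψ t := by
    rw [Finset.sum_comm, ← sum_eq_sum_Om hψ, Finset.mul_sum]
    refine Finset.sum_congr rfl fun t _ => ?_
    by_cases ht : t ∈ Om W (2 * M')
    · rw [← sum_ind_bxor hW ht, Finset.sum_mul]
      have : ∀ s, indOm W (2 * M') s * ψ t * indOm W (2 * M') (bxor s t)
          = (if s ∈ Om W (2 * M') then indOm W (2 * M') (bxor s t) * ψ t else 0) := by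
        intro s
        unfold indOm
        by_cases hs : s ∈ Om W (2 * M') <;> simp [hs]
      simp_rw [this]
      rw [Finset.sum_ite_mem, Finset.univ_inter]
    · rw [hψ t ht]; simp
  rw [h1]
  field_simp

theorem BB_comm (M' : ℕ) (φ ψ : (W → Bool) → ℝ) : BB W M' φ ψ = BB W M' ψ φ := by
  unfold BB
  rw [Finset.sum_comm]
  congr 1
  refine Finset.sum_congr rfl fun s _ => Finset.sum_congr rfl fun t _ => ?_
  rw [bxor_comm]; ring

theorem BB_ind_right {M' : ℕ} (hW : Fintype.card W = 4 * M') {φ : (W → Bool) → ℝ}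
    (hφ : Supp W (2 * M') φ) : BB W M' φ (indOm W (2 * M')) = Emean W (2 * M') φ := by
  rw [BB_comm, BB_ind_left hW hφ]

theorem indOm_supp (M : ℕ) : Supp W M (indOm W M) := by
  intro x hx
  unfold indOm
  rw [if_neg hx]

theorem Emean_ind {M : ℕ} (hW : Fintype.card W = 2 * M) : Emean W M (indOm W M) = 1 := by
  unfold Emean indOm
  have hpos := nOm_pos hW
  have : ∑ x ∈ Om W M, (if x ∈ Om W M then (1 : ℝ) else 0) = nOm W M := by
    rw [Finset.sum_congr rfl (fun x hx => if_pos hx)]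
    simp [nOm]
  rw [this]
  exact div_self hpos.ne'

/-- The trivial bound. -/
theorem BB_le_trivial {M' : ℕ} (hW : Fintype.card W = 4 * M') {φ ψ : (W → Bool) → ℝ}
    (hφ : Supp W (2 * M') φ) (hψ : Supp W (2 * M') ψ) (h0 : ∀ x, 0 ≤ φ x) (h0' : ∀ x, 0 ≤ ψ x) :
    BB W M' φ ψ ≤ Psi W M' * (Emean W (2 * M') φ * Emean W (2 * M') ψ) := by
  unfold BB Psi Emean
  have hpos : 0 < nOm W (2 * M') := nOm_pos (by omega)
  have ho := oo_pos M'
  have h1 : ∑ s, ∑ t, φ s * ψ t * indOm W (2 * M') (bxor s t)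
      ≤ (∑ s ∈ Om W (2 * M'), φ s) * (∑ t ∈ Om W (2 * M'), ψ t) := by
    rw [← sum_eq_sum_Om hφ, ← sum_eq_sum_Om hψ, Finset.sum_mul_sum]
    refine Finset.sum_le_sum fun s _ => Finset.sum_le_sum fun t _ => ?_
    have h3 : 0 ≤ φ s * ψ t := mul_nonneg (h0 s) (h0' t)
    unfold indOm
    split_ifs <;> simp [h3]
  rw [div_le_iff₀ (by positivity)]
  refine le_trans h1 (le_of_eq ?_)
  field_simp

/-- The pointwise bound of the kernel applied to an arbitrary function. -/
theorem abs_BB_le_sqrt {M' : ℕ} (hW : Fintype.card W = 4 * M') {h ψ : (W → Bool) → ℝ}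
    (hh : Supp W (2 * M') h) (hψ : Supp W (2 * M') ψ) (h0' : ∀ x, 0 ≤ ψ x) :
    |BB W M' h ψ| ≤ Real.sqrt (Psi W M') * Real.sqrt (Emean W (2 * M') (fun x => h x ^ 2))
      * Emean W (2 * M') ψ := by
  have hpos : 0 < nOm W (2 * M') := nOm_pos (by omega)
  have ho := oo_pos M'
  set E2 := Emean W (2 * M') (fun x => h x ^ 2) with hE2
  have hE20 : 0 ≤ E2 := by
    rw [hE2]; unfold Emean
    exact div_nonneg (Finset.sum_nonneg fun _ _ => sq_nonneg _) hpos.le
  -- for fixed t, the inner sum is bounded by Cauchy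
  have hin : ∀ t ∈ Om W (2 * M'), |∑ s, h s * indOm W (2 * M') (bxor s t)|
      ≤ Real.sqrt (nOm W (2 * M') * E2 * oo M') := by
    intro t ht
    have e1 : ∑ s, h s * indOm W (2 * M') (bxor s t)
        = ∑ s ∈ Om W (2 * M'), h s * indOm W (2 * M') (bxor s t) := by
      symm
      refine Finset.sum_subset (Finset.subset_univ _) fun x _ hx => ?_
      rw [hh x hx, zero_mul]
    rw [e1]
    apply Real.abs_le_sqrt
    have hcs := Finset.sum_mul_sq_le_sq_mul_sq (Om W (2 * M')) h
      (fun s => indOm W (2 * M') (bxor s t))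
    have e2 : ∑ s ∈ Om W (2 * M'), (indOm W (2 * M') (bxor s t)) ^ 2 = oo M' := by
      rw [← sum_ind_bxor hW ht]
      refine Finset.sum_congr rfl fun s _ => ?_
      unfold indOm
      split_ifs <;> simp
    have e3 : ∑ s ∈ Om W (2 * M'), h s ^ 2 = nOm W (2 * M') * E2 := by
      rw [hE2]; unfold Emean; field_simp
    rw [e2, e3] at hcs
    exact hcs
  have hsum : BB W M' h ψ = (∑ t ∈ Om W (2 * M'), ψ t * ∑ s, h s * indOm W (2 * M') (bxor s t))
      / (nOm W (2 * M') * oo M') := by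
    unfold BB
    rw [Finset.sum_comm, ← sum_eq_sum_Om (φ := fun t => ψ t * ∑ s, h s * indOm W (2 * M') (bxor s t))
      (fun t ht => by simp [hψ t ht])]
    congr 1
    refine Finset.sum_congr rfl fun t _ => ?_
    rw [Finset.mul_sum]
    exact Finset.sum_congr rfl fun s _ => by ring
  rw [hsum, abs_div, abs_of_pos (mul_pos hpos ho : 0 < nOm W (2 * M') * oo M'),
    div_le_iff₀ (by positivity)]
  have hb : |∑ t ∈ Om W (2 * M'), ψ t * ∑ s, h s * indOm W (2 * M') (bxor s t)|
      ≤ (∑ t ∈ Om W (2 * M'), ψ t) * Real.sqrt (nOm W (2 * M') * E2 * oo M') := by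
    refine le_trans (Finset.abs_sum_le_sum_abs _ _) ?_
    rw [Finset.sum_mul]
    refine Finset.sum_le_sum fun t ht => ?_
    rw [abs_mul, abs_of_nonneg (h0' t)]
    exact mul_le_mul_of_nonneg_left (hin t ht) (h0' t)
  refine le_trans hb (le_of_eq ?_)
  unfold Psi Emean
  have e4 : Real.sqrt (nOm W (2 * M') * E2 * oo M')
      = Real.sqrt (nOm W (2 * M') / oo M') * Real.sqrt E2 * oo M' := by
    have e5 : nOm W (2 * M') * E2 * oo M' = (nOm W (2 * M') / oo M') * E2 * oo M' ^ 2 := by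
      field_simp
    rw [e5, Real.sqrt_mul (by positivity), Real.sqrt_mul (by positivity), Real.sqrt_sq ho.le]
  rw [e4]
  field_simp

/-! ### The Walsh expression -/

theorem fh_ind (M : ℕ) (U : Finset W) :
    fh (indOm W M) U = EE M U / 2 ^ Fintype.card W := by
  unfold fh EE indOm
  congr 1
  have : ∀ x, (if x ∈ Om W M then (1 : ℝ) else 0) * chi U x
      = if x ∈ Om W M then chi U x else 0 := by
    intro x; split_ifs <;> simp
  simp_rw [this]
  rw [Finset.sum_ite_mem, Finset.univ_inter]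

theorem BB_eq_walsh {M' : ℕ} (hW : Fintype.card W = 4 * M') (φ ψ : (W → Bool) → ℝ) :
    BB W M' φ ψ = (2 ^ Fintype.card W / oo M') *
      ∑ U : Finset W, eU (2 * M') U * fh φ U * fh ψ U := by
  have hpos : 0 < nOm W (2 * M') := nOm_pos (by omega)
  have ho := oo_pos M'
  have h2 : (0 : ℝ) < 2 ^ Fintype.card W := by positivity
  have h := conv_identity φ ψ (indOm W (2 * M'))
  unfold BB
  have e : ∑ s, ∑ t, φ s * ψ t * indOm W (2 * M') (bxor s t)
      = (2 ^ Fintype.card W * 2 ^ Fintype.card W) *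
        ∑ U : Finset W, fh (indOm W (2 * M')) U * fh φ U * fh ψ U := by
    rw [← h]; field_simp
  rw [e, Finset.mul_sum, Finset.mul_sum, Finset.sum_div]
  refine Finset.sum_congr rfl fun U _ => ?_
  rw [fh_ind]
  unfold eU
  field_simp

theorem fh_compl {M' : ℕ} {φ : (W → Bool) → ℝ} (hφ : Supp W (2 * M') φ) (U : Finset W) :
    fh φ Uᶜ = fh φ U := by
  unfold fh
  congr 1
  refine Finset.sum_congr rfl fun x _ => ?_
  by_cases hx : x ∈ Om W (2 * M')
  · rw [chi_compl_Om U hx]
  · rw [hφ x hx]; simp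

theorem fh_empty {M : ℕ} (hW : Fintype.card W = 2 * M) {φ : (W → Bool) → ℝ} (hφ : Supp W M φ) :
    fh φ ∅ = qq W M * Emean W M φ := by
  have hpos := nOm_pos hW
  unfold fh qq Emean chi
  simp only [Finset.prod_empty, mul_one]
  rw [sum_eq_sum_Om hφ]
  field_simp

theorem eU_empty {M : ℕ} (hW : Fintype.card W = 2 * M) : eU M (∅ : Finset W) = 1 := by
  have hpos := nOm_pos hW
  unfold eU EE chi
  simp only [Finset.prod_empty, Finset.sum_const, nsmul_eq_mul, mul_one]
  exact div_self hpos.ne'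

theorem eU_compl {M' : ℕ} (U : Finset W) : eU (2 * M') Uᶜ = eU (2 * M') U := by
  unfold eU EE
  congr 1
  exact Finset.sum_congr rfl fun z hz => chi_compl_Om U hz

theorem eU_eq_gk {M : ℕ} (hW : Fintype.card W = 2 * M) (hM : 1 ≤ M) (U : Finset W) :
    eU M U = gk (2 * M) U.card := by
  have hpos := nOm_pos hW
  unfold eU
  have hU : U.card ≤ 2 * M := by
    rw [← hW]; exact Finset.card_le_univ U
  rw [EE_eq hW hM _ hU U rfl]
  unfold nOm
  unfold nOm at hpos
  field_simp

theorem abs_eU_even {M : ℕ} (hW : Fintype.card W = 2 * M) (hM : 1 ≤ M) (U : Finset W) (j : ℕ)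
    (hj : U.card = 2 * j) : |eU M U| = aj (2 * M) j := by
  rw [eU_eq_gk hW hM, hj]
  apply abs_gk_even
  have hU : U.card ≤ 2 * M := by
    rw [← hW]; exact Finset.card_le_univ U
  omega

theorem eU_odd {M : ℕ} (hW : Fintype.card W = 2 * M) (hM : 1 ≤ M) (U : Finset W) (j : ℕ)
    (hj : U.card = 2 * j + 1) : eU M U = 0 := by
  rw [eU_eq_gk hW hM, hj, gk_odd]

/-- The family of nontrivial Walsh indices. -/
def midU (W : Type*) [Fintype W] [DecidableEq W] : Finset (Finset W) :=
  Finset.univ.filter fun U => U ≠ ∅ ∧ U ≠ Finset.univ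

theorem abs_eU_mid {M' : ℕ} (hM' : 1 ≤ M') (hW : Fintype.card W = 4 * M') {U : Finset W}
    (hU : U ∈ midU W) : |eU (2 * M') U| ≤ 1 / ((2 * M' : ℕ) : ℝ) := by
  have hW' : Fintype.card W = 2 * (2 * M') := by omega
  have hM : 1 ≤ 2 * M' := by omega
  obtain ⟨h1, h2⟩ := (Finset.mem_filter.1 hU).2
  rcases Nat.even_or_odd' U.card with ⟨j, hj | hj⟩
  · have hj1 : 1 ≤ j := by
      by_contra hlt
      have : j = 0 := by omega
      rw [this] at hj
      exact h1 (Finset.card_eq_zero.1 (by omega))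
    by_cases hjM : 2 * j ≤ 2 * M'
    · rw [abs_eU_even hW' hM U j hj]
      exact aj_le_inv (2 * M') j hM hj1 hjM
    · -- pass to the complement
      have hcard : Uᶜ.card = 2 * (2 * M' - j) := by
        rw [Finset.card_compl, hW, hj]; omega
      have hUc : U.card ≠ 4 * M' := by
        intro h
        apply h2
        apply Finset.card_eq_iff_eq_univ U |>.1
        omega
      have hUle : U.card ≤ 4 * M' := by
        rw [← hW]; exact Finset.card_le_univ U
      rw [← eU_compl, abs_eU_even hW' hM Uᶜ _ hcard]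
      exact aj_le_inv (2 * M') _ hM (by omega) (by omega)
  · rw [eU_odd hW' hM U j hj, abs_zero]
    positivity

/-- The rest of the Walsh sum. -/
noncomputable def restS (M' : ℕ) (φ ψ : (W → Bool) → ℝ) : ℝ :=
  ∑ U ∈ midU W, eU (2 * M') U * fh φ U * fh ψ U

theorem BB_decomp {M' : ℕ} (hM' : 1 ≤ M') (hW : Fintype.card W = 4 * M') {φ ψ : (W → Bool) → ℝ}
    (hφ : Supp W (2 * M') φ) (hψ : Supp W (2 * M') ψ) :
    BB W M' φ ψ = 2 * qq W (2 * M') * Psi W M' * (Emean W (2 * M') φ * Emean W (2 * M') ψ)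
      + (2 ^ Fintype.card W / oo M') * restS M' φ ψ := by
  have hW' : Fintype.card W = 2 * (2 * M') := by omega
  have hpos : 0 < nOm W (2 * M') := nOm_pos hW'
  have ho := oo_pos M'
  rw [BB_eq_walsh hW]
  have hne : (∅ : Finset W) ≠ Finset.univ := by
    intro h
    have : Fintype.card W = 0 := by
      rw [← Finset.card_univ, ← h]; simp
    omega
  have hsplit : ∑ U : Finset W, eU (2 * M') U * fh φ U * fh ψ U
      = (eU (2 * M') (∅ : Finset W) * fh φ ∅ * fh ψ ∅
        + eU (2 * M') (Finset.univ : Finset W) * fh φ Finset.univ * fh ψ Finset.univ)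
        + restS M' φ ψ := by
    unfold restS midU
    rw [← Finset.sum_filter_add_sum_filter_not Finset.univ
      (fun U : Finset W => U ≠ ∅ ∧ U ≠ Finset.univ), add_comm]
    congr 1
    have : Finset.univ.filter (fun U : Finset W => ¬ (U ≠ ∅ ∧ U ≠ Finset.univ))
        = {∅, Finset.univ} := by
      ext U
      simp only [Finset.mem_filter, Finset.mem_univ, true_and, Finset.mem_insert,
        Finset.mem_singleton]
      tauto
    rw [this, Finset.sum_pair hne]
  have hcu : (Finset.univ : Finset W) = (∅ : Finset W)ᶜ := by simp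
  have h1 : fh φ Finset.univ = fh φ ∅ := by rw [hcu, fh_compl hφ]
  have h2 : fh ψ Finset.univ = fh ψ ∅ := by rw [hcu, fh_compl hψ]
  have h3 : eU (2 * M') (Finset.univ : Finset W) = 1 := by
    rw [hcu, eU_compl, eU_empty hW']
  rw [hsplit, h1, h2, h3, eU_empty hW', fh_empty hW' hφ, fh_empty hW' hψ, mul_add]
  congr 1
  unfold Psi qq
  field_simp
  ring

/-- Cauchy-Schwarz bound of the rest with the uniform coefficient bound. -/
theorem abs_restS_le {M' : ℕ} (hM' : 1 ≤ M') (hW : Fintype.card W = 4 * M')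
    (φ ψ : (W → Bool) → ℝ) :
    |restS M' φ ψ| ≤ 1 / ((2 * M' : ℕ) : ℝ) *
      (Real.sqrt (∑ U : Finset W, fh φ U ^ 2) * Real.sqrt (∑ U : Finset W, fh ψ U ^ 2)) := by
  unfold restS
  refine le_trans (Finset.abs_sum_le_sum_abs _ _) ?_
  have hb : ∀ U ∈ midU W, |eU (2 * M') U * fh φ U * fh ψ U|
      ≤ 1 / ((2 * M' : ℕ) : ℝ) * (|fh φ U| * |fh ψ U|) := by
    intro U hU
    rw [abs_mul, abs_mul, mul_assoc]
    exact mul_le_mul_of_nonneg_right (abs_eU_mid hM' hW hU) (by positivity)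
  refine le_trans (Finset.sum_le_sum hb) ?_
  rw [← Finset.mul_sum]
  apply mul_le_mul_of_nonneg_left _ (by positivity)
  have hcs := Real.sum_mul_le_sqrt_mul_sqrt (midU W) (fun U => |fh φ U|) (fun U => |fh ψ U|)
  refine le_trans hcs ?_
  simp only [sq_abs]
  apply mul_le_mul
  · apply Real.sqrt_le_sqrt
    exact Finset.sum_le_sum_of_subset_of_nonneg (Finset.subset_univ _) fun _ _ _ => sq_nonneg _
  · apply Real.sqrt_le_sqrt
    exact Finset.sum_le_sum_of_subset_of_nonneg (Finset.subset_univ _) fun _ _ _ => sq_nonneg _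
  · exact Real.sqrt_nonneg _
  · exact Real.sqrt_nonneg _

/-- Parseval on the slice. -/
theorem sum_fh_sq_eq {M : ℕ} (hW : Fintype.card W = 2 * M) {φ : (W → Bool) → ℝ}
    (hφ : Supp W M φ) :
    ∑ U : Finset W, fh φ U ^ 2 = qq W M * Emean W M (fun x => φ x ^ 2) := by
  have hpos := nOm_pos hW
  have h := parseval φ φ
  have h2 : ∀ U : Finset W, fh φ U ^ 2 = fh φ U * fh φ U := fun U => sq _
  simp_rw [h2]
  rw [← h]
  unfold qq Emean
  have h3 : ∑ x, φ x * φ x = ∑ x ∈ Om W M, φ x ^ 2 := by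
    rw [← sum_eq_sum_Om (φ := fun x => φ x ^ 2) (fun x hx => by simp [hφ x hx])]
    exact Finset.sum_congr rfl fun x _ => by ring
  rw [h3]
  field_simp

/-- The spectral bound for mean zero functions. -/
theorem abs_BB_mean_zero {M' : ℕ} (hM' : 1 ≤ M') (hW : Fintype.card W = 4 * M')
    {h h' : (W → Bool) → ℝ} (hh : Supp W (2 * M') h) (hh' : Supp W (2 * M') h')
    (hm : Emean W (2 * M') h = 0) :
    |BB W M' h h'| ≤ Psi W M' / ((2 * M' : ℕ) : ℝ) *
      (Real.sqrt (Emean W (2 * M') (fun x => h x ^ 2))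
        * Real.sqrt (Emean W (2 * M') (fun x => h' x ^ 2))) := by
  have hW' : Fintype.card W = 2 * (2 * M') := by omega
  have hpos : 0 < nOm W (2 * M') := nOm_pos hW'
  have ho := oo_pos M'
  have hq := qq_pos hW'
  rw [BB_decomp hM' hW hh hh', hm, zero_mul, mul_zero, zero_add, abs_mul,
    abs_of_pos (by positivity : (0 : ℝ) < 2 ^ Fintype.card W / oo M')]
  have h1 := abs_restS_le hM' hW h h'
  rw [sum_fh_sq_eq hW' hh, sum_fh_sq_eq hW' hh', Real.sqrt_mul hq.le, Real.sqrt_mul hq.le] at h1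
  have h2 : Real.sqrt (qq W (2 * M')) * Real.sqrt (qq W (2 * M')) = qq W (2 * M') :=
    Real.mul_self_sqrt hq.le
  set x := Real.sqrt (Emean W (2 * M') (fun x => h x ^ 2))
  set y := Real.sqrt (Emean W (2 * M') (fun x => h' x ^ 2))
  have h3 : (2 ^ Fintype.card W / oo M') * qq W (2 * M') = Psi W M' := by
    unfold qq Psi; field_simp
  calc (2 ^ Fintype.card W / oo M') * |restS M' h h'|
      ≤ (2 ^ Fintype.card W / oo M') * (1 / ((2 * M' : ℕ) : ℝ) *
          (Real.sqrt (qq W (2 * M')) * x * (Real.sqrt (qq W (2 * M')) * y))) :=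
        mul_le_mul_of_nonneg_left h1 (by positivity)
    _ = ((2 ^ Fintype.card W / oo M') * (Real.sqrt (qq W (2 * M')) * Real.sqrt (qq W (2 * M'))))
          / ((2 * M' : ℕ) : ℝ) * (x * y) := by ring
    _ = _ := by rw [h2, h3]

/-- The normalisation constant is close to one. -/
theorem abs_sub_one_le {M' : ℕ} (hM' : 1 ≤ M') (hW : Fintype.card W = 4 * M') :
    |2 * qq W (2 * M') * Psi W M' - 1| ≤ Psi W M' / ((2 * M' : ℕ) : ℝ) := by
  have hW' : Fintype.card W = 2 * (2 * M') := by omega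
  have hpos : 0 < nOm W (2 * M') := nOm_pos hW'
  have ho := oo_pos M'
  have hq := qq_pos hW'
  have hs := indOm_supp (W := W) (2 * M')
  have h0 := BB_decomp hM' hW hs hs
  rw [BB_ind_left hW hs, Emean_ind hW', mul_one, mul_one] at h0
  have h1 := abs_restS_le hM' hW (indOm W (2 * M')) (indOm W (2 * M'))
  have e : Emean W (2 * M') (fun x => indOm W (2 * M') x ^ 2) = 1 := by
    have : (fun x => indOm W (2 * M') x ^ 2) = indOm W (2 * M') := by
      funext x
      unfold indOm
      split_ifs <;> simp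
    rw [this, Emean_ind hW']
  rw [sum_fh_sq_eq hW' hs, e, mul_one, Real.mul_self_sqrt hq.le] at h1
  have h3 : (2 ^ Fintype.card W / oo M') * qq W (2 * M') = Psi W M' := by
    unfold qq Psi; field_simp
  have h4 : 2 * qq W (2 * M') * Psi W M' - 1 = - ((2 ^ Fintype.card W / oo M') * restS M' (indOm W (2 * M')) (indOm W (2 * M'))) := by
    linarith
  rw [h4, abs_neg, abs_mul, abs_of_pos (by positivity : (0 : ℝ) < 2 ^ Fintype.card W / oo M')]
  calc (2 ^ Fintype.card W / oo M') * |restS M' (indOm W (2 * M')) (indOm W (2 * M'))|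
      ≤ (2 ^ Fintype.card W / oo M') * (1 / ((2 * M' : ℕ) : ℝ) * qq W (2 * M')) :=
        mul_le_mul_of_nonneg_left h1 (by positivity)
    _ = ((2 ^ Fintype.card W / oo M') * qq W (2 * M')) / ((2 * M' : ℕ) : ℝ) := by ring
    _ = _ := by rw [h3]

/-- The parameter `Psi` is at least one. -/
theorem one_le_Psi {M' : ℕ} (hW : Fintype.card W = 4 * M') : 1 ≤ Psi W M' := by
  have hW' : Fintype.card W = 2 * (2 * M') := by omega
  have hpos : 0 < nOm W (2 * M') := nOm_pos hW'
  have ho := oo_pos M'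
  unfold Psi
  rw [one_le_div ho]
  -- pick a balanced vector
  have hne : (Om W (2 * M')).Nonempty := by
    rw [← Finset.card_pos]
    unfold nOm at hpos
    exact_mod_cast hpos
  obtain ⟨t, ht⟩ := hne
  have h := card_orth hW ht
  unfold nOm oo
  have h' : (((2 * M').choose M' : ℕ) : ℝ) ^ 2
      = (((Om W (2 * M')).filter (fun s => bxor s t ∈ Om W (2 * M'))).card : ℝ) := by
    rw [h]; push_cast; rfl
  rw [h']
  exact_mod_cast Finset.card_filter_le _ _

end Vale.Agent.Lib.P162
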