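import Vale.Agent.Lib.P162.BlockSmall

/-!
Permutations of the discrete cube, the resampling operators, and the entropy of the bit marginals.
-/

set_option linter.unusedSectionVars false
set_option linter.unusedVariables false

namespace Vale.Agent.Lib.P162

open Finset

variable {D : ℕ}

/-- Positions, as bit vectors. -/
abbrev QQ (D : ℕ) := Fin D → Bool

/-- Permutations of positions. -/
abbrev GG (D : ℕ) := Equiv.Perm (QQ D)

theorem perm_apply_inv (g : GG D) (x : QQ D) : g (g⁻¹ x) = x := by simp

theorem perm_inv_apply (g : GG D) (x : QQ D) : g⁻¹ (g x) = x := by simp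

theorem mass_eq_filter {Ξ α : Type*} [Fintype Ξ] (p : Ξ → ℝ) (X : Ξ → α) (a : α)
    [DecidablePred fun y => X y = a] :
    mass p X a = ∑ y ∈ Finset.univ.filter (fun y => X y = a), p y := by
  classical
  unfold mass
  rw [Finset.sum_filter]
  refine Finset.sum_congr rfl fun y _ => ?_
  by_cases h : X y = a <;> simp [h]

/-- Keep the coordinates in `S` and erase the others. -/
def mask (S : Finset (Fin D)) (x : QQ D) : QQ D := fun j => if j ∈ S then x j else false

theorem mask_eq_iff {S : Finset (Fin D)} {x x' : QQ D} :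
    mask S x = mask S x' ↔ ∀ j ∈ S, x j = x' j := by
  constructor
  · intro h j hj
    have := congrFun h j
    simpa [mask, hj] using this
  · intro h
    funext j
    by_cases hj : j ∈ S
    · simp [mask, hj, h j hj]
    · simp [mask, hj]

/-- The bits in `S` of all the positions. -/
def YY (S : Finset (Fin D)) (η : GG D) : QQ D → QQ D := fun z => mask S (η z)

theorem YY_eq_iff {S : Finset (Fin D)} {η η' : GG D} :
    YY S η = YY S η' ↔ ∀ z, ∀ j ∈ S, η z j = η' z j := by
  constructor
  · intro h z
    exact mask_eq_iff.1 (congrFun h z)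
  · intro h
    funext z
    exact mask_eq_iff.2 (h z)

/-- The entropy of the bits in `S`. -/
noncomputable def hh (μ : GG D → ℝ) (S : Finset (Fin D)) : ℝ := H μ (YY S)

/-- The permutations which only change the coordinate `i`. -/
def InH (i : Fin D) (u : GG D) : Prop := ∀ x j, j ≠ i → u x j = x j

instance (i : Fin D) : DecidablePred (InH i) := fun u => by unfold InH; infer_instance

/-- The group of permutations which only change the coordinate `i`, as a finite set. -/
def HS (i : Fin D) : Finset (GG D) := Finset.univ.filter (InH i)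

theorem mem_HS {i : Fin D} {u : GG D} : u ∈ HS i ↔ InH i u := by
  simp [HS]

theorem one_mem_HS (i : Fin D) : (1 : GG D) ∈ HS i := mem_HS.2 fun x j _ => rfl

theorem mul_mem_HS {i : Fin D} {u v : GG D} (hu : u ∈ HS i) (hv : v ∈ HS i) : u * v ∈ HS i := by
  rw [mem_HS] at *
  intro x j hj
  simp only [Equiv.Perm.mul_apply]
  rw [hu _ j hj, hv _ j hj]

theorem inv_mem_HS {i : Fin D} {u : GG D} (hu : u ∈ HS i) : u⁻¹ ∈ HS i := by
  rw [mem_HS] at *
  intro x j hj
  have := hu (u⁻¹ x) j hj
  rw [perm_apply_inv] at this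
  exact this.symm

theorem HS_card_pos (i : Fin D) : 0 < (HS i).card := Finset.card_pos.2 ⟨1, one_mem_HS i⟩

theorem YY_mul_of_mem {i : Fin D} {S : Finset (Fin D)} (hi : i ∉ S) {u : GG D} (hu : u ∈ HS i)
    (η : GG D) : YY S (u * η) = YY S η := by
  rw [YY_eq_iff]
  intro z j hj
  have hji : j ≠ i := fun h => hi (h ▸ hj)
  exact mem_HS.1 hu _ j hji

theorem not_mem_erase_self (i : Fin D) : i ∉ (Finset.univ.erase i : Finset (Fin D)) := by
  simp

theorem fiber_iff {i : Fin D} {η η' : GG D} :
    YY (Finset.univ.erase i) η' = YY (Finset.univ.erase i) η ↔ η' * η⁻¹ ∈ HS i := by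
  rw [YY_eq_iff, mem_HS]
  constructor
  · intro h x j hj
    have := h (η⁻¹ x) j (by simp [hj])
    rw [perm_apply_inv] at this
    exact this
  · intro h z j hj
    have hj' : j ≠ i := by simpa using hj
    have := h (η z) j hj'
    simpa using this

/-- Uniform resampling of the coordinate `i` in all positions: multiply on the left by a uniform
element of the group `HS i`. -/
noncomputable def PP (i : Fin D) (μ : GG D → ℝ) (η : GG D) : ℝ :=
  (∑ u ∈ HS i, μ (u * η)) / (HS i).card

theorem PP_eq (i : Fin D) (μ : GG D → ℝ) (η : GG D) :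
    PP i μ η = mass μ (YY (Finset.univ.erase i)) (YY (Finset.univ.erase i) η) / (HS i).card := by
  classical
  unfold PP
  congr 1
  rw [mass_eq_filter]
  refine Finset.sum_nbij' (fun u => u * η) (fun η' => η' * η⁻¹) ?_ ?_ ?_ ?_ ?_
  · intro u hu
    rw [Finset.mem_filter]
    refine ⟨Finset.mem_univ _, fiber_iff.2 ?_⟩
    simpa using hu
  · intro η' hη'
    rw [Finset.mem_filter] at hη'
    exact fiber_iff.1 hη'.2
  · intro u _
    simp
  · intro η' _
    simp
  · intro u _
    rfl

theorem PP_isLaw (i : Fin D) {μ : GG D → ℝ} (hμ : IsLaw μ) : IsLaw (PP i μ) := by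
  have hc : (0 : ℝ) < (HS i).card := by exact_mod_cast HS_card_pos i
  constructor
  · intro η
    exact div_nonneg (Finset.sum_nonneg fun u _ => hμ.1 _) hc.le
  · unfold PP
    rw [← Finset.sum_div, Finset.sum_comm]
    have h1 : ∀ u ∈ HS i, ∑ η, μ (u * η) = 1 := by
      intro u _
      rw [← hμ.2]
      exact Equiv.sum_comp (Equiv.mulLeft u) μ
    rw [Finset.sum_congr rfl h1]
    simp only [Finset.sum_const, nsmul_eq_mul, mul_one]
    exact div_self hc.ne'

theorem PP_inv (i : Fin D) (μ : GG D → ℝ) {u : GG D} (hu : u ∈ HS i) (η : GG D) :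
    PP i μ (u * η) = PP i μ η := by
  rw [PP_eq, PP_eq, YY_mul_of_mem (not_mem_erase_self i) hu]

theorem mass_PP (i : Fin D) {μ : GG D → ℝ} {S : Finset (Fin D)} (hi : i ∉ S) (a : QQ D → QQ D) :
    mass (PP i μ) (YY S) a = mass μ (YY S) a := by
  classical
  have hc : (0 : ℝ) < (HS i).card := by exact_mod_cast HS_card_pos i
  rw [mass_eq_filter, mass_eq_filter, Finset.sum_filter, Finset.sum_filter]
  unfold PP
  have h1 : ∀ η, (if YY S η = a then (∑ u ∈ HS i, μ (u * η)) / ((HS i).card : ℝ) else 0)
      = (∑ u ∈ HS i, (if YY S (u * η) = a then μ (u * η) else 0)) / ((HS i).card : ℝ) := by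
    intro η
    by_cases h : YY S η = a
    · rw [if_pos h]
      congr 1
      refine Finset.sum_congr rfl fun u hu => ?_
      rw [YY_mul_of_mem hi hu, if_pos h]
    · rw [if_neg h]
      have : ∑ u ∈ HS i, (if YY S (u * η) = a then μ (u * η) else 0) = 0 := by
        refine Finset.sum_eq_zero fun u hu => ?_
        rw [YY_mul_of_mem hi hu, if_neg h]
      rw [this, zero_div]
  simp_rw [h1]
  rw [← Finset.sum_div, Finset.sum_comm]
  have h2 : ∀ u ∈ HS i, ∑ η, (if YY S (u * η) = a then μ (u * η) else 0)
      = ∑ η, (if YY S η = a then μ η else 0) := by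
    intro u _
    exact Equiv.sum_comp (Equiv.mulLeft u) (fun η => if YY S η = a then μ η else 0)
  rw [Finset.sum_congr rfl h2]
  simp only [Finset.sum_const, nsmul_eq_mul]
  field_simp

/-- The entropy depends only on the law of the variable. -/
theorem H_of_mass {Ξ α : Type*} [Fintype Ξ] [Fintype α] {p p' : Ξ → ℝ} {X : Ξ → α}
    (h : ∀ a, mass p X a = mass p' X a) : H p X = H p' X := by
  have h1 : ∀ q : Ξ → ℝ, H q X = - ∑ a, mass q X a * Real.log (mass q X a) := by
    intro q
    unfold H
    rw [sum_mass_mul X (fun a => Real.log (mass q X a))]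
  rw [h1 p, h1 p']
  simp_rw [h]

theorem hh_PP (i : Fin D) {μ : GG D → ℝ} {S : Finset (Fin D)} (hi : i ∉ S) :
    hh (PP i μ) S = hh μ S :=
  H_of_mass (mass_PP i hi)

/-- The entropy of all the bits is the entropy of the law. -/
theorem hh_univ (μ : GG D → ℝ) : hh μ Finset.univ = - ∑ η, μ η * Real.log (μ η) := by
  classical
  unfold hh H
  congr 1
  refine Finset.sum_congr rfl fun η _ => ?_
  congr 2
  unfold mass
  rw [Finset.sum_eq_single η]
  · simp
  · intro η' _ hne
    rw [if_neg]
    intro h
    apply hne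
    rw [YY_eq_iff] at h
    ext z j
    rw [h z j (Finset.mem_univ j)]
  · simp

theorem hh_PP_univ (i : Fin D) {μ : GG D → ℝ} (hμ : IsLaw μ) :
    hh (PP i μ) Finset.univ = hh μ (Finset.univ.erase i) + Real.log (HS i).card := by
  have hc : (0 : ℝ) < (HS i).card := by exact_mod_cast HS_card_pos i
  have hL := PP_isLaw i hμ
  set Y := YY (D := D) (Finset.univ.erase i) with hY
  have h1 : hh μ (Finset.univ.erase i) = hh (PP i μ) (Finset.univ.erase i) :=
    (hh_PP i (not_mem_erase_self i)).symm
  rw [h1, hh_univ]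
  unfold hh H
  rw [← hY]
  have h2 : ∀ η, PP i μ η * Real.log (PP i μ η)
      = PP i μ η * Real.log (mass (PP i μ) Y (Y η)) - PP i μ η * Real.log (HS i).card := by
    intro η
    rcases (hL.1 η).eq_or_lt with h0 | h0
    · rw [← h0]; simp
    · have h3 : mass (PP i μ) Y (Y η) = mass μ Y (Y η) := mass_PP i (not_mem_erase_self i) _
      have h4 : PP i μ η = mass μ Y (Y η) / (HS i).card := PP_eq i μ η
      have h5 : 0 < mass μ Y (Y η) := by
        rw [h4] at h0
        exact (div_pos_iff_of_pos_right hc).1 h0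
      rw [h3]
      nth_rewrite 2 [h4]
      rw [Real.log_div h5.ne' hc.ne']
      ring
  simp_rw [h2]
  rw [Finset.sum_sub_distrib, ← Finset.sum_mul, hL.2, one_mul]
  ring

/-! ### Blocks -/

/-- A block: the cards whose masked position equals `τ`. -/
abbrev Blk (F : QQ D → QQ D) (τ : QQ D) := {z : QQ D // F z = τ}

/-- The bit `k` of all positions. -/
def bitF (k : Fin D) (η : GG D) : QQ D → Bool := fun z => η z k

/-- The bit `k` of the positions in a block. -/
def cBlk (F : QQ D → QQ D) (τ : QQ D) (k : Fin D) (η : GG D) : Blk F τ → Bool := fun z => η z.1 k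

/-- The bit `k` of the positions in a union of blocks, padded with zeros. -/
def cS (F : QQ D → QQ D) (S : Finset (QQ D)) (k : Fin D) (η : GG D) : QQ D → Bool :=
  fun z => if F z ∈ S then η z k else false

theorem cS_insert_iff {F : QQ D → QQ D} {S : Finset (QQ D)} {τ : QQ D} {k : Fin D} {η η' : GG D} :
    cS F (insert τ S) k η = cS F (insert τ S) k η' ↔
      cBlk F τ k η = cBlk F τ k η' ∧ cS F S k η = cS F S k η' := by
  constructor
  · intro h
    constructor
    · funext z
      have := congrFun h z.1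
      simpa [cS, cBlk, z.2] using this
    · funext z
      have := congrFun h z
      by_cases hz : F z ∈ S
      · simpa [cS, hz] using this
      · simp [cS, hz]
  · rintro ⟨h1, h2⟩
    funext z
    by_cases hz : F z = τ
    · have := congrFun h1 ⟨z, hz⟩
      simpa [cS, cBlk, hz] using this
    · by_cases hz2 : F z ∈ S
      · have := congrFun h2 z
        simp only [cS, hz2, if_true] at this
        simp [cS, hz2, this]
      · simp [cS, hz, hz2]

/-- Flip one coordinate. -/
def flipB (k : Fin D) (x : QQ D) : QQ D := Function.update x k (!x k)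

theorem flipB_self (k : Fin D) (x : QQ D) : flipB k x k = !x k := by simp [flipB]

theorem flipB_ne {k j : Fin D} (h : j ≠ k) (x : QQ D) : flipB k x j = x j := by
  simp [flipB, Function.update_of_ne h]

theorem flipB_flipB (k : Fin D) (x : QQ D) : flipB k (flipB k x) = x := by
  funext j
  by_cases h : j = k
  · subst h; simp [flipB_self]
  · rw [flipB_ne h, flipB_ne h]

theorem mask_flipB {T : Finset (Fin D)} {k : Fin D} (hk : k ∉ T) (x : QQ D) :
    mask T (flipB k x) = mask T x := by
  rw [mask_eq_iff]
  intro j hj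
  refine flipB_ne ?_ x
  rintro rfl
  exact hk hj

/-- If the function `φ` flips under the involution `f` preserving the mask, the vector of values
of `φ` on a block is balanced. -/
theorem balance {T : Finset (Fin D)} {η : GG D} {F : QQ D → QQ D} (hF : YY T η = F) {τ : QQ D} {M : ℕ}
    (hcard : Fintype.card (Blk F τ) = 2 * M) (φ : QQ D → Bool) (f : QQ D → QQ D)
    (hf1 : ∀ x, f (f x) = x) (hf2 : ∀ x, φ (f x) = !φ x) (hf3 : ∀ x, mask T (f x) = mask T x) :
    (fun z : Blk F τ => φ (η z.1)) ∈ Om (Blk F τ) M := by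
  classical
  have hFa : ∀ z, F z = mask T (η z) := fun z => by rw [← hF]; rfl
  have hψ : ∀ z : Blk F τ, F (η⁻¹ (f (η z.1))) = τ := by
    intro z
    rw [hFa, perm_apply_inv, hf3, ← hFa]
    exact z.2
  set ψ : Blk F τ → Blk F τ := fun z => ⟨η⁻¹ (f (η z.1)), hψ z⟩ with hψd
  have hψψ : ∀ z, ψ (ψ z) = z := by
    intro z
    apply Subtype.ext
    simp only [hψd, perm_apply_inv, hf1, perm_inv_apply]
  have hφ : ∀ z, φ (η (ψ z).1) = !φ (η z.1) := by
    intro z
    simp only [hψd, perm_apply_inv, hf2]
  rw [mem_Om]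
  unfold wt
  set A := Finset.univ.filter fun z : Blk F τ => φ (η z.1) = true with hA
  set A' := Finset.univ.filter fun z : Blk F τ => ¬ φ (η z.1) = true with hA'
  have h1 : A.card = A'.card := by
    refine Finset.card_nbij' ψ ψ ?_ ?_ ?_ ?_
    · intro z hz
      have hz' := (Finset.mem_filter.1 (Finset.mem_coe.1 hz)).2
      refine Finset.mem_coe.2 (Finset.mem_filter.2 ⟨Finset.mem_univ _, ?_⟩)
      rw [hφ, hz']
      simp
    · intro z hz
      have hz' := (Finset.mem_filter.1 (Finset.mem_coe.1 hz)).2
      refine Finset.mem_coe.2 (Finset.mem_filter.2 ⟨Finset.mem_univ _, ?_⟩)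
      rw [hφ]
      simpa using hz'
    · intro z _; exact hψψ z
    · intro z _; exact hψψ z
  have h2 : A.card + A'.card = Fintype.card (Blk F τ) := by
    rw [← Finset.card_univ]
    exact Finset.card_filter_add_card_filter_not _
  omega

/-- The set of possible masks. -/
def BSet (T : Finset (Fin D)) : Finset (QQ D) := Finset.univ.image (mask T)

theorem card_fiber (T : Finset (Fin D)) {τ : QQ D} (hτ : τ ∈ BSet T) :
    Fintype.card {x : QQ D // mask T x = τ} = 2 ^ (D - T.card) := by
  classical
  obtain ⟨x0, _, rfl⟩ := Finset.mem_image.1 hτ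
  let e : {x : QQ D // mask T x = mask T x0} ≃ ({j : Fin D // ¬ j ∈ T} → Bool) :=
    { toFun := fun x j => x.1 j.1
      invFun := fun w => ⟨fun j => if h : j ∈ T then x0 j else w ⟨j, h⟩, by
        rw [mask_eq_iff]
        intro j hj
        simp [hj]⟩
      left_inv := by
        rintro ⟨x, hx⟩
        apply Subtype.ext
        funext j
        by_cases hj : j ∈ T
        · simp only [hj, dif_pos]
          exact (mask_eq_iff.1 hx j hj).symm
        · simp [hj]
      right_inv := by
        intro w
        funext ⟨j, hj⟩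
        simp [hj] }
  rw [Fintype.card_congr e, Fintype.card_fun, Fintype.card_bool,
    Fintype.card_subtype_compl, Fintype.card_fin]
  congr 2
  exact Fintype.card_coe T

theorem card_BSet (T : Finset (Fin D)) : (BSet T).card = 2 ^ T.card := by
  classical
  have h1 := Finset.card_eq_sum_card_image (mask T) (Finset.univ : Finset (QQ D))
  have h2 : ∀ τ ∈ BSet T, (Finset.univ.filter fun x : QQ D => mask T x = τ).card = 2 ^ (D - T.card) := by
    intro τ hτ
    rw [← card_fiber T hτ, Fintype.card_subtype]
  have h1' : (Finset.univ : Finset (QQ D)).card = (BSet T).card * 2 ^ (D - T.card) := by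
    rw [h1, ← smul_eq_mul]
    exact Finset.sum_const_nat h2
  have h3 : (Finset.univ : Finset (QQ D)).card = 2 ^ D := by simp
  rw [h3] at h1'
  have hT : T.card ≤ D := by
    have := Finset.card_le_univ T
    simpa using this
  have h4 : 2 ^ D = 2 ^ T.card * 2 ^ (D - T.card) := by
    rw [← pow_add]
    congr 1
    omega
  rw [h4] at h1'
  exact (Nat.eq_of_mul_eq_mul_right (by positivity) h1').symm

theorem mask_mem_BSet (T : Finset (Fin D)) (x : QQ D) : mask T x ∈ BSet T :=
  Finset.mem_image.2 ⟨x, Finset.mem_univ _, rfl⟩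

theorem card_Blk {T : Finset (Fin D)} {η : GG D} {F : QQ D → QQ D} (hF : YY T η = F) {τ : QQ D}
    (hτ : τ ∈ BSet T) : Fintype.card (Blk F τ) = 2 ^ (D - T.card) := by
  rw [← card_fiber T hτ]
  refine Fintype.card_congr (Equiv.subtypeEquiv η ?_)
  intro z
  rw [← hF]
  rfl

/-! ### The coupling permutation on a block -/

/-- Flip the coordinate `i` at the positions of the block `τ` which have coordinate `k` set. -/
def uFun (T : Finset (Fin D)) (i k : Fin D) (τ : QQ D) (x : QQ D) : QQ D :=
  if x k = true ∧ mask T x = τ then flipB i x else x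

theorem uFun_invol {T : Finset (Fin D)} {i k : Fin D} (hi : i ∉ T) (hik : i ≠ k) (τ : QQ D) :
    Function.Involutive (uFun T i k τ) := by
  intro x
  unfold uFun
  by_cases h : x k = true ∧ mask T x = τ
  · have h1 : flipB i x k = true ∧ mask T (flipB i x) = τ := by
      rw [flipB_ne hik.symm, mask_flipB hi]
      exact h
    rw [if_pos h, if_pos h1, flipB_flipB]
  · rw [if_neg h, if_neg h]

/-- The coupling permutation. -/
def uPerm {T : Finset (Fin D)} {i k : Fin D} (hi : i ∉ T) (hik : i ≠ k) (τ : QQ D) : GG D :=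
  Function.Involutive.toPerm (uFun T i k τ) (uFun_invol hi hik τ)

theorem uPerm_apply {T : Finset (Fin D)} {i k : Fin D} (hi : i ∉ T) (hik : i ≠ k) (τ : QQ D) (x : QQ D) :
    uPerm hi hik τ x = uFun T i k τ x := rfl

theorem uPerm_mem {T : Finset (Fin D)} {i k : Fin D} (hi : i ∉ T) (hik : i ≠ k) (τ : QQ D) :
    uPerm hi hik τ ∈ HS i := by
  rw [mem_HS]
  intro x j hj
  rw [uPerm_apply]
  unfold uFun
  split_ifs
  · exact flipB_ne hj x
  · rfl

/-- The bits `k` are not changed by the coupling. -/
theorem uPerm_k {T : Finset (Fin D)} {i k : Fin D} (hi : i ∉ T) (hik : i ≠ k) (τ : QQ D) (x : QQ D) :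
    uPerm hi hik τ x k = x k :=
  mem_HS.1 (uPerm_mem hi hik τ) x k hik.symm

/-- In the block, the bit `i` is shifted by the bit `k`. -/
theorem uPerm_i {T : Finset (Fin D)} {i k : Fin D} (hi : i ∉ T) (hik : i ≠ k) {τ : QQ D} {x : QQ D}
    (hx : mask T x = τ) : uPerm hi hik τ x i = xor (x i) (x k) := by
  rw [uPerm_apply]
  unfold uFun
  by_cases h : x k = true
  · rw [if_pos ⟨h, hx⟩, flipB_self, h]
    simp
  · rw [if_neg (fun h' => h h'.1)]
    simp at h
    simp [h]

/-! ### One block -/

section OneBlock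

variable {Θ : Type} [Fintype Θ] {T : Finset (Fin D)} {F : QQ D → QQ D}

theorem condL_pos_imp {Ξ γ : Type*} [Fintype Ξ] {q : Ξ → ℝ} {Z : Ξ → γ} {a : γ} (ha : 0 < mass q Z a)
    {x : Ξ} (h : 0 < condL q Z a x) : 0 < q x ∧ Z x = a := by
  classical
  unfold condL at h
  by_cases h1 : Z x = a
  · rw [if_pos h1] at h
    exact ⟨(div_pos_iff_of_pos_right ha).1 h, h1⟩
  · rw [if_neg h1] at h
    exact absurd h (lt_irrefl _)

/-- The block inequality, conditionally on the bits of the other blocks. -/
theorem block_step {q : GG D → ℝ} (hq : IsLaw q) {i k : Fin D} (hik : i ≠ k) (hi : i ∉ T) (hk : k ∉ T)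
    (hqF : ∀ η, 0 < q η → YY T η = F) (hinv : ∀ u ∈ HS i, ∀ η, q (u * η) = q η) {s : ℕ} {κ : ℝ}
    (hκ : BlockProp s κ) {τ : QQ D} (hcard : Fintype.card (Blk F τ) = 4 * 2 ^ s) (S : Finset (QQ D)) :
    κ * (Real.log (nOm (Blk F τ) (2 * 2 ^ s))
        - (H q (fun η => (cBlk F τ k η, cS F S k η)) - H q (cS F S k)))
      ≤ Real.log (oo (2 ^ s))
        - (H q (fun η => ((cBlk F τ k η, cBlk F τ i η), cS F S k η))
          - H q (fun η => (cBlk F τ i η, cS F S k η))) := by
  classical
  refine cond_average hq (cS F S k) (cBlk F τ k) (cBlk F τ i) κ _ _ ?_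
  intro γ hγ
  set r := condL q (cS F S k) γ with hr
  have hrL : IsLaw r := condL_isLaw hq _ γ hγ
  set u := uPerm hi hik τ with hu
  have hum : u ∈ HS i := uPerm_mem hi hik τ
  have hcS : ∀ η, cS F S k (u * η) = cS F S k η := by
    intro η
    funext z
    simp only [cS, Equiv.Perm.mul_apply]
    rw [hu, uPerm_k]
  have hrg : ∀ η, r (u * η) = r η := by
    intro η
    simp only [hr, condL]
    rw [hcS, hinv u hum]
  have hcard2 : Fintype.card (Blk F τ) = 2 * (2 * 2 ^ s) := by omega
  refine hκ (Blk F τ) hcard (GG D) r hrL (cBlk F τ k) (cBlk F τ i) (Equiv.mulLeft u) hrg ?_ ?_ ?_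
  · intro η _
    funext z
    simp only [cBlk, Equiv.coe_mulLeft, Equiv.Perm.mul_apply]
    rw [hu, uPerm_k]
  · intro η hη
    obtain ⟨h1, _⟩ := condL_pos_imp hγ hη
    have hF := hqF η h1
    funext z
    simp only [cBlk, Equiv.coe_mulLeft, Equiv.Perm.mul_apply, bxor]
    rw [hu]
    refine uPerm_i hi hik ?_
    have hz : YY T η z.1 = τ := by
      rw [hF]
      exact z.2
    exact hz
  · intro η hη
    obtain ⟨h1, _⟩ := condL_pos_imp hγ hη
    have hF := hqF η h1
    refine ⟨?_, ?_, ?_⟩
    · exact balance hF hcard2 (fun x => x k) (flipB k) (flipB_flipB k) (fun x => flipB_self k x)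
        (mask_flipB hk)
    · exact balance hF hcard2 (fun x => x i) (flipB i) (flipB_flipB i) (fun x => flipB_self i x)
        (mask_flipB hi)
    · have hb := balance hF hcard2 (fun x => xor (x k) (x i)) (flipB k) (flipB_flipB k)
        (fun x => by
          simp only [flipB_self, flipB_ne hik]
          cases x k <;> cases x i <;> rfl)
        (mask_flipB hk)
      exact hb

/-- The block inequality accumulates over a union of blocks. -/
theorem block_induct {q : GG D → ℝ} (hq : IsLaw q) {i k : Fin D} (hik : i ≠ k) (hi : i ∉ T) (hk : k ∉ T)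
    (hqF : ∀ η, 0 < q η → YY T η = F) (hinv : ∀ u ∈ HS i, ∀ η, q (u * η) = q η) {s : ℕ} {κ : ℝ}
    (hκ : BlockProp s κ) (hcard : ∀ τ ∈ BSet T, Fintype.card (Blk F τ) = 4 * 2 ^ s)
    (S : Finset (QQ D)) (hS : S ⊆ BSet T) :
    κ * ((S.card : ℝ) * Real.log (((4 * 2 ^ s).choose (2 * 2 ^ s) : ℕ) : ℝ) - H q (cS F S k))
      ≤ (S.card : ℝ) * Real.log (oo (2 ^ s))
        - (H q (fun η => (cS F S k η, bitF i η)) - H q (bitF i)) := by
  classical
  induction S using Finset.induction_on with
  | empty =>
    have h0 : H q (cS F ∅ k) = 0 := by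
      have : cS F ∅ k = fun _ => fun _ => false := by
        funext η z
        simp [cS]
      rw [this]
      exact H_const hq _
    have h1 : H q (fun η => (cS F ∅ k η, bitF i η)) = H q (bitF i) := by
      apply H_congr
      intro a b
      have : ∀ η, cS F ∅ k η = fun _ => false := by
        intro η
        funext z
        simp [cS]
      simp [this]
    rw [h0, h1]
    simp
  | insert τ S hτ ih =>
    have hS1 : S ⊆ BSet T := fun x hx => hS (Finset.mem_insert_of_mem hx)
    have hτB : τ ∈ BSet T := hS (Finset.mem_insert_self τ S)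
    have hIH := ih hS1
    have hC := hcard τ hτB
    have hstep := block_step hq hik hi hk hqF hinv hκ hC S
    rw [nOm_eq, hC] at hstep
    -- identities of partitions
    have e1 : H q (cS F (insert τ S) k) = H q (fun η => (cBlk F τ k η, cS F S k η)) := by
      apply H_congr
      intro a b
      rw [cS_insert_iff, Prod.mk.injEq]
    have hsub := H_submod hq (cBlk F τ k) (bitF i) (fun η => (cBlk F τ i η, cS F S k η))
    have e2 : H q (fun η => (cBlk F τ k η, bitF i η, cBlk F τ i η, cS F S k η))
        = H q (fun η => (cS F (insert τ S) k η, bitF i η)) := by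
      apply H_congr
      intro a b
      simp only [Prod.mk.injEq]
      rw [cS_insert_iff]
      constructor
      · rintro ⟨h1, h2, _, h4⟩
        exact ⟨⟨h1, h4⟩, h2⟩
      · rintro ⟨⟨h1, h4⟩, h2⟩
        refine ⟨h1, h2, ?_, h4⟩
        funext z
        exact congrFun h2 z.1
    have e3 : H q (fun η => (cBlk F τ k η, cBlk F τ i η, cS F S k η))
        = H q (fun η => ((cBlk F τ k η, cBlk F τ i η), cS F S k η)) := by
      apply H_congr
      intro a b
      simp only [Prod.mk.injEq, and_assoc]
    have e4 : H q (fun η => (bitF i η, cBlk F τ i η, cS F S k η))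
        = H q (fun η => (cS F S k η, bitF i η)) := by
      apply H_congr
      intro a b
      simp only [Prod.mk.injEq]
      constructor
      · rintro ⟨h1, _, h3⟩
        exact ⟨h3, h1⟩
      · rintro ⟨h3, h1⟩
        refine ⟨h1, ?_, h3⟩
        funext z
        exact congrFun h1 z.1
    rw [e2, e3, e4] at hsub
    rw [e1, Finset.card_insert_of_notMem hτ]
    push_cast
    have hexp : ∀ A B : ℝ, ((S.card : ℝ) + 1) * A - B = ((S.card : ℝ) * A - H q (cS F S k))
        + (A - (B - H q (cS F S k))) := by
      intro A B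
      ring
    rw [hexp, mul_add]
    have hexp2 : ∀ A : ℝ, ((S.card : ℝ) + 1) * A = (S.card : ℝ) * A + A := by
      intro A
      ring
    rw [hexp2]
    linarith

end OneBlock

/-- The full-scale maximum entropy of one level. -/
noncomputable def AA (D r : ℕ) : ℝ :=
  (2 : ℝ) ^ r * Real.log (((2 ^ (D - r)).choose (2 ^ (D - r - 1)) : ℕ) : ℝ)

theorem cS_BSet {T : Finset (Fin D)} {η0 : GG D} {F : QQ D → QQ D} (hF : YY T η0 = F) (k : Fin D) :
    cS F (BSet T) k = bitF k := by
  funext η z
  have : F z ∈ BSet T := by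
    rw [← hF]
    exact mask_mem_BSet T _
  simp [cS, this, bitF]

theorem exists_of_mass_pos {Ξ γ : Type*} [Fintype Ξ] {q : Ξ → ℝ} {Z : Ξ → γ} {a : γ}
    (ha : 0 < mass q Z a) : ∃ x, Z x = a := by
  classical
  by_contra hcon
  push Not at hcon
  have : mass q Z a = 0 := by
    unfold mass
    refine Finset.sum_eq_zero fun x _ => ?_
    rw [if_neg (hcon x)]
  rw [this] at ha
  exact lt_irrefl _ ha

theorem pair_bit_YY_iff {k : Fin D} {T : Finset (Fin D)} {a b : GG D} :
    (bitF k a, YY T a) = (bitF k b, YY T b) ↔ YY (insert k T) a = YY (insert k T) b := by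
  rw [Prod.mk.injEq, YY_eq_iff, YY_eq_iff]
  constructor
  · rintro ⟨h1, h2⟩ z j hj
    rcases Finset.mem_insert.1 hj with rfl | hj
    · exact congrFun h1 z
    · exact h2 z j hj
  · intro h
    exact ⟨funext fun z => h z k (Finset.mem_insert_self _ _),
      fun z j hj => h z j (Finset.mem_insert_of_mem hj)⟩

/-- The key inequality. -/
theorem main_lemma {ν : GG D → ℝ} (hν : IsLaw ν) {i k : Fin D} (hik : i ≠ k) {T : Finset (Fin D)}
    (hi : i ∉ T) (hk : k ∉ T) {s : ℕ} (hD : T.card + 2 + s = D) {κ : ℝ} (hκ : BlockProp s κ)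
    (hinv : ∀ u ∈ HS i, ∀ η, ν (u * η) = ν η) :
    κ * (AA D T.card - (hh ν (insert k T) - hh ν T))
      ≤ AA D (T.card + 1) - (hh ν (insert i (insert k T)) - hh ν (insert i T)) := by
  classical
  set r := T.card with hr
  have hA1 : AA D r = (2 : ℝ) ^ r * Real.log (((4 * 2 ^ s).choose (2 * 2 ^ s) : ℕ) : ℝ) := by
    unfold AA
    have h1 : D - r = s + 2 := by omega
    have h2 : D - r - 1 = s + 1 := by omega
    rw [h2, h1]
    have h3 : 2 ^ (s + 2) = 4 * 2 ^ s := by ring
    have h4 : 2 ^ (s + 1) = 2 * 2 ^ s := by ring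
    rw [h3, h4]
  have hA2 : AA D (r + 1) = (2 : ℝ) ^ r * Real.log (oo (2 ^ s)) := by
    unfold AA oo
    have h1 : D - (r + 1) = s + 1 := by omega
    have h2 : D - (r + 1) - 1 = s := by omega
    rw [h2, h1, Real.log_pow]
    have h4 : 2 ^ (s + 1) = 2 * 2 ^ s := by ring
    rw [h4]
    push_cast
    ring
  have e1 : H ν (fun η => (bitF k η, YY T η)) = hh ν (insert k T) := by
    exact H_congr fun a b => pair_bit_YY_iff
  have e2 : H ν (fun η => ((bitF k η, bitF i η), YY T η)) = hh ν (insert i (insert k T)) := by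
    apply H_congr
    intro a b
    have h5 : YY (insert i (insert k T)) a = YY (insert i (insert k T)) b ↔
        bitF i a = bitF i b ∧ (bitF k a = bitF k b ∧ YY T a = YY T b) := by
      rw [← pair_bit_YY_iff, Prod.mk.injEq, ← pair_bit_YY_iff, Prod.mk.injEq]
    rw [h5, Prod.mk.injEq, Prod.mk.injEq]
    tauto
  have e3 : H ν (fun η => (bitF i η, YY T η)) = hh ν (insert i T) :=
    H_congr fun a b => pair_bit_YY_iff
  have hmain := cond_average hν (YY T) (bitF k) (bitF i) κ (AA D r) (AA D (r + 1)) ?_
  · rw [e1, e2, e3] at hmain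
    exact hmain
  · intro F hF
    set q := condL ν (YY T) F with hq
    have hqL : IsLaw q := condL_isLaw hν _ F hF
    obtain ⟨η0, hη0⟩ := exists_of_mass_pos hF
    have hqF : ∀ η, 0 < q η → YY T η = F := fun η hη => (condL_pos_imp hF hη).2
    have hqinv : ∀ u ∈ HS i, ∀ η, q (u * η) = q η := by
      intro u hu η
      simp only [hq, condL]
      rw [YY_mul_of_mem hi hu, hinv u hu]
    have hcard : ∀ τ ∈ BSet T, Fintype.card (Blk F τ) = 4 * 2 ^ s := by
      intro τ hτ
      rw [card_Blk hη0 hτ, ← hr]
      have h1 : D - r = s + 2 := by omega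
      rw [h1]
      ring
    have hfinal := block_induct hqL hik hi hk hqF hqinv hκ hcard (BSet T) (Finset.Subset.refl _)
    rw [cS_BSet hη0, card_BSet, ← hr] at hfinal
    push_cast at hfinal
    rw [hA1, hA2]
    exact hfinal

/-- The trivial upper bound on the conditional entropy of a level. -/
theorem deficit_nonneg {ν : GG D → ℝ} (hν : IsLaw ν) {k : Fin D} {T : Finset (Fin D)} (hk : k ∉ T)
    {s : ℕ} (hD : T.card + 1 + s = D) :
    hh ν (insert k T) - hh ν T ≤ AA D T.card := by
  classical
  set r := T.card with hr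
  have hA1 : AA D r = (2 : ℝ) ^ r * Real.log (((2 * 2 ^ s).choose (2 ^ s) : ℕ) : ℝ) := by
    unfold AA
    have h1 : D - r = s + 1 := by omega
    have h2 : D - r - 1 = s := by omega
    rw [h2, h1]
    have h4 : 2 ^ (s + 1) = 2 * 2 ^ s := by ring
    rw [h4]
  have hN : 0 ≤ Real.log (((2 * 2 ^ s).choose (2 ^ s) : ℕ) : ℝ) := by
    apply Real.log_nonneg
    have : 0 < (2 * 2 ^ s).choose (2 ^ s) := Nat.choose_pos (by omega)
    exact_mod_cast this
  have e1 : H ν (fun η => (bitF k η, YY T η)) = hh ν (insert k T) := by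
    exact H_congr fun a b => pair_bit_YY_iff
  have hcond : ∀ F, 0 < mass ν (YY T) F → H (condL ν (YY T) F) (bitF k) ≤ AA D r := by
    intro F hF
    set q := condL ν (YY T) F with hq
    have hqL : IsLaw q := condL_isLaw hν _ F hF
    obtain ⟨η0, hη0⟩ := exists_of_mass_pos hF
    have hqF : ∀ η, 0 < q η → YY T η = F := fun η hη => (condL_pos_imp hF hη).2
    have hcard : ∀ τ ∈ BSet T, Fintype.card (Blk F τ) = 2 * 2 ^ s := by
      intro τ hτ
      rw [card_Blk hη0 hτ, ← hr]
      have h1 : D - r = s + 1 := by omega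
      rw [h1]
      ring
    have hind : ∀ S : Finset (QQ D), S ⊆ BSet T →
        H q (cS F S k) ≤ (S.card : ℝ) * Real.log (((2 * 2 ^ s).choose (2 ^ s) : ℕ) : ℝ) := by
      intro S
      induction S using Finset.induction_on with
      | empty =>
        intro _
        have : cS F ∅ k = fun _ => fun _ => false := by
          funext η z
          simp [cS]
        rw [this, H_const hqL]
        simp
      | insert τ S hτ ih =>
        intro hS
        have hS1 : S ⊆ BSet T := fun x hx => hS (Finset.mem_insert_of_mem hx)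
        have hτB : τ ∈ BSet T := hS (Finset.mem_insert_self τ S)
        have hC := hcard τ hτB
        have e : H q (cS F (insert τ S) k) = H q (fun η => (cBlk F τ k η, cS F S k η)) := by
          apply H_congr
          intro a b
          rw [cS_insert_iff, Prod.mk.injEq]
        rw [e]
        have h1 := H_pair_le hqL (cBlk F τ k) (cS F S k)
        have h2 : H q (cBlk F τ k) ≤ Real.log ((Om (Blk F τ) (2 ^ s)).card) := by
          refine H_le_log_card hqL _ _ fun η hη => ?_
          exact balance (hqF η hη) hC (fun x => x k) (flipB k) (flipB_flipB k)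
            (fun x => flipB_self k x) (mask_flipB hk)
        rw [card_Om, hC] at h2
        have h3 := ih hS1
        rw [Finset.card_insert_of_notMem hτ]
        push_cast
        linarith
    have hfinal := hind (BSet T) (Finset.Subset.refl _)
    rw [cS_BSet hη0, card_BSet, ← hr] at hfinal
    push_cast at hfinal
    rw [hA1]
    exact hfinal
  have h1 := H_cond_avg hν (bitF k) (YY T)
  rw [e1] at h1
  unfold hh at h1 ⊢
  rw [show H ν (YY (insert k T)) = hh ν (insert k T) from rfl] at *
  rw [← h1]
  have hA0 : 0 ≤ AA D r := by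
    rw [hA1]
    positivity
  calc ∑ z, mass ν (YY T) z * H (condL ν (YY T) z) (bitF k)
      ≤ ∑ z, mass ν (YY T) z * AA D r := by
        refine Finset.sum_le_sum fun z _ => ?_
        rcases (mass_nonneg hν (YY T) z).eq_or_lt with h0 | h0
        · rw [← h0]; simp
        · exact mul_le_mul_of_nonneg_left (hcond z h0) h0.le
    _ = AA D r := by
        rw [← Finset.sum_mul, sum_mass, hν.2, one_mul]

end Vale.Agent.Lib.P162
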