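import Vale.Agent.Lib.P162.Kernel

/-!
Bilinear bounds for pieces of densities through the level inequality.
-/

set_option linter.unusedSectionVars false
set_option linter.unusedVariables false

namespace Vale.Agent.Lib.P162

open Finset

variable {W : Type*} [Fintype W] [DecidableEq W]

/-- Subsets of a given size. -/
def lev (W : Type*) [Fintype W] [DecidableEq W] (k : ℕ) : Finset (Finset W) :=
  Finset.univ.filter fun U => U.card = k

/-- Summation over the nontrivial levels. -/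
theorem sum_levels {M' : ℕ} (hW : Fintype.card W = 4 * M') (x : Finset W → ℝ) (hx0 : ∀ U, 0 ≤ x U)
    (hodd : ∀ U j, U.card = 2 * j + 1 → x U = 0) (hsym : ∀ U, x Uᶜ = x U) :
    ∑ U ∈ midU W, x U ≤ 2 * ∑ j ∈ Finset.range M', ∑ U ∈ lev W (2 * (j + 1)), x U := by
  set A := (midU W).filter (fun U => U.card ≤ 2 * M') with hA
  set A' := (midU W).filter (fun U => ¬ U.card ≤ 2 * M') with hA'
  have h1 : ∑ U ∈ midU W, x U = ∑ U ∈ A, x U + ∑ U ∈ A', x U :=
    (Finset.sum_filter_add_sum_filter_not _ _ _).symm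
  have h2 : ∑ U ∈ A', x U ≤ ∑ U ∈ A, x U := by
    have e : ∑ U ∈ A', x U = ∑ U ∈ A'.image (fun U => Uᶜ), x U := by
      rw [Finset.sum_image (fun a _ b _ h => compl_injective h)]
      exact Finset.sum_congr rfl fun U _ => (hsym U).symm
    rw [e]
    refine Finset.sum_le_sum_of_subset_of_nonneg ?_ fun U _ _ => hx0 U
    intro V hV
    obtain ⟨U, hU, rfl⟩ := Finset.mem_image.1 hV
    obtain ⟨hU1, hU2⟩ := Finset.mem_filter.1 hU
    obtain ⟨_, hU3, hU4⟩ := Finset.mem_filter.1 hU1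
    have hc : Uᶜ.card = 4 * M' - U.card := by rw [Finset.card_compl, hW]
    have hle : U.card ≤ 4 * M' := by rw [← hW]; exact Finset.card_le_univ U
    refine Finset.mem_filter.2 ⟨Finset.mem_filter.2 ⟨Finset.mem_univ _, ?_, ?_⟩, by omega⟩
    · intro h
      apply hU4
      rw [← compl_compl U, h]
      simp
    · intro h
      apply hU3
      rw [← compl_compl U, h]
      simp
  have h3 : ∑ U ∈ A, x U ≤ ∑ j ∈ Finset.range M', ∑ U ∈ lev W (2 * (j + 1)), x U := by
    have hmaps : ∀ U ∈ A, U.card ∈ Finset.range (2 * M' + 1) := by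
      intro U hU
      have := (Finset.mem_filter.1 hU).2
      exact Finset.mem_range.2 (by omega)
    rw [← Finset.sum_fiberwise_of_maps_to hmaps]
    rw [sum_range_even (fun k => ∑ U ∈ A.filter (fun U => U.card = k), x U) ?_ M']
    · rw [Finset.sum_range_succ']
      have h0 : ∑ U ∈ A.filter (fun U => U.card = 2 * 0), x U = 0 := by
        refine Finset.sum_eq_zero fun U hU => ?_
        obtain ⟨hU1, hU2⟩ := Finset.mem_filter.1 hU
        obtain ⟨hU3, _⟩ := Finset.mem_filter.1 hU1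
        obtain ⟨_, hU4, _⟩ := Finset.mem_filter.1 hU3
        exact absurd (Finset.card_eq_zero.1 (by omega)) hU4
      rw [h0, add_zero]
      refine Finset.sum_le_sum fun j _ => ?_
      refine Finset.sum_le_sum_of_subset_of_nonneg ?_ fun U _ _ => hx0 U
      intro U hU
      exact Finset.mem_filter.2 ⟨Finset.mem_univ _, (Finset.mem_filter.1 hU).2⟩
    · intro j
      refine Finset.sum_eq_zero fun U hU => ?_
      exact hodd U j (Finset.mem_filter.1 hU).2
  linarith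

theorem sum_half_le (n : ℕ) : ∑ j ∈ Finset.range n, ((1 : ℝ) / 2) ^ j ≤ 2 := by
  have h : ∑ j ∈ Finset.range n, ((1 : ℝ) / 2) ^ j = 2 - 2 * (1 / 2) ^ n := by
    induction n with
    | zero => simp
    | succ n ih =>
      rw [Finset.sum_range_succ, ih, pow_succ]
      ring
  rw [h]
  have : (0 : ℝ) < (1 / 2) ^ n := by positivity
  linarith

theorem sum_succ_half_le (n : ℕ) :
    ∑ j ∈ Finset.range n, ((j : ℝ) + 1) * ((1 : ℝ) / 2) ^ j ≤ 4 := by
  have h : ∑ j ∈ Finset.range n, ((j : ℝ) + 1) * ((1 : ℝ) / 2) ^ j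
      = 4 - (2 * (n : ℝ) + 4) * (1 / 2) ^ n := by
    induction n with
    | zero => simp
    | succ n ih =>
      rw [Finset.sum_range_succ, ih, pow_succ]
      push_cast
      ring
  rw [h]
  have : (0 : ℝ) < (1 / 2) ^ n := by positivity
  have hn : (0 : ℝ) ≤ n := Nat.cast_nonneg n
  have : 0 ≤ (2 * (n : ℝ) + 4) * (1 / 2) ^ n := by positivity
  linarith

theorem exp_one_sq_le : Real.exp 1 ^ 2 ≤ 8 := by
  have h := Real.exp_one_lt_d9
  have h0 := Real.exp_pos 1
  nlinarith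

/-- Level bound in the form used below. -/
theorem sqrt_level_le (φ : (W → Bool) → ℝ) (hφ : ∀ x, 0 ≤ φ x) (V : ℝ) (hV : ∀ x, φ x ≤ V)
    (a : ℝ) (ha : a = (∑ x, φ x) / 2 ^ Fintype.card W) (ha0 : 0 < a)
    (w : ℝ) (hw : 0 < w) (hVw : V ≤ a * Real.exp w) (i : ℕ) (hi : 1 ≤ i) :
    levelW φ (2 * i) ≤ (a * (Real.exp 1 * ((w + i) / i)) ^ i) ^ 2 := by
  have h := level_bound φ hφ V hV a ha ha0 w hw hVw (2 * i) (by omega)
  refine le_trans h (le_of_eq ?_)
  have hi0 : (0 : ℝ) < i := by exact_mod_cast hi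
  have e : (2 * w + ((2 * i : ℕ) : ℝ)) / ((2 * i : ℕ) : ℝ) = (w + i) / i := by
    push_cast
    field_simp
  rw [e, mul_pow a _ 2, ← pow_mul, mul_comm i 2]

/-- The Parseval bound in the form used below. -/
theorem sum_fh_sq_le_exp (φ : (W → Bool) → ℝ) (hφ : ∀ x, 0 ≤ φ x) (V : ℝ) (hV : ∀ x, φ x ≤ V)
    (a : ℝ) (ha : a = (∑ x, φ x) / 2 ^ Fintype.card W) (ha0 : 0 < a)
    (w : ℝ) (hVw : V ≤ a * Real.exp w) :
    ∑ U : Finset W, fh φ U ^ 2 ≤ a ^ 2 * Real.exp w := by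
  have h := sum_fh_sq_le φ hφ V hV
  rw [← ha] at h
  have : V * a ≤ a * Real.exp w * a := mul_le_mul_of_nonneg_right hVw ha0.le
  nlinarith

theorem levelW_le_sum (φ : (W → Bool) → ℝ) (k : ℕ) :
    levelW φ k ≤ ∑ U : Finset W, fh φ U ^ 2 := by
  unfold levelW
  exact Finset.sum_le_sum_of_subset_of_nonneg (Finset.subset_univ _) fun _ _ _ => sq_nonneg _

/-- The exponential estimates for the tails. -/
theorem exp_tail_one (x : ℝ) (hx : (2 : ℝ) ^ 23 ≤ x) : 8192 * x ^ 2 ≤ Real.exp (3 * x - 4) := by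
  have hx1 : (8192 : ℝ) ≤ x := by
    have : (2 : ℝ) ^ 23 = 8388608 := by norm_num
    linarith
  have e : Real.exp (3 * x - 4) = Real.exp x * Real.exp (2 * x - 4) := by
    rw [← Real.exp_add]; congr 1; ring
  have h1 : x ≤ Real.exp x := by
    have := Real.add_one_le_exp x; linarith
  have h2 : x ^ 2 ≤ Real.exp (2 * x - 4) := by
    have h3 := Real.quadratic_le_exp_of_nonneg (x := 2 * x - 4) (by linarith)
    nlinarith
  rw [e]
  have hx0 : 0 ≤ x ^ 2 := sq_nonneg x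
  calc 8192 * x ^ 2 ≤ Real.exp x * x ^ 2 := mul_le_mul_of_nonneg_right (by linarith) hx0
    _ ≤ _ := mul_le_mul_of_nonneg_left h2 (Real.exp_pos _).le

theorem exp_tail_two (x : ℝ) (hx : (2 : ℝ) ^ 23 ≤ x) : 1048576 * x ^ 3 ≤ Real.exp (7 * x - 8) := by
  have hx1 : (1048576 : ℝ) ≤ x := by
    have : (2 : ℝ) ^ 23 = 8388608 := by norm_num
    linarith
  have e : Real.exp (7 * x - 8) = Real.exp x * (Real.exp x * (Real.exp x * Real.exp (4 * x - 8))) := by
    rw [← Real.exp_add, ← Real.exp_add, ← Real.exp_add]; congr 1; ring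
  have h1 : x ≤ Real.exp x := by
    have := Real.add_one_le_exp x; linarith
  have h2 : (1048576 : ℝ) ≤ Real.exp (4 * x - 8) := by
    have := Real.add_one_le_exp (4 * x - 8); linarith
  rw [e]
  have hx0 : 0 ≤ x := by linarith
  have h3 : 0 < Real.exp x := Real.exp_pos _
  have h4 : x * 1048576 ≤ Real.exp x * Real.exp (4 * x - 8) := mul_le_mul h1 h2 (by norm_num) h3.le
  have h5 : x * (x * 1048576) ≤ Real.exp x * (Real.exp x * Real.exp (4 * x - 8)) :=
    mul_le_mul h1 h4 (by positivity) h3.le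
  have h6 : x * (x * (x * 1048576)) ≤ Real.exp x * (Real.exp x * (Real.exp x * Real.exp (4 * x - 8))) :=
    mul_le_mul h1 h5 (by positivity) h3.le
  nlinarith

theorem one_div_64_pow_le (j : ℕ) : ((1 : ℝ) / 64) ^ j ≤ Real.exp (-(4 * (j : ℝ))) := by
  have h : (1 : ℝ) / 64 ≤ Real.exp (-4) := by
    rw [Real.exp_neg, one_div]
    apply inv_anti₀ (Real.exp_pos _)
    have : Real.exp 4 = Real.exp 1 ^ 4 := by
      rw [← Real.exp_nat_mul]; norm_num
    rw [this]
    have h1 := exp_one_sq_le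
    have h0 : 0 ≤ Real.exp 1 ^ 2 := by positivity
    nlinarith
  calc ((1 : ℝ) / 64) ^ j ≤ (Real.exp (-4)) ^ j := pow_le_pow_left₀ (by norm_num) h j
    _ = _ := by
      rw [← Real.exp_nat_mul]; congr 1; ring

/-- The tail estimate in Lemma P. -/
theorem tail_P {M' : ℕ} (hM : 2 ^ 30 ≤ 2 * M') :
    (M' : ℝ) * (((1 : ℝ) / 64) ^ ((2 * M') / 128) * Real.exp (((2 * M' : ℕ) : ℝ) / 128))
      ≤ 1 / ((2 * M' : ℕ) : ℝ) := by
  set M := 2 * M' with hMdef
  set x : ℝ := (M : ℝ) / 128 with hx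
  have hMr : (2 : ℝ) ^ 30 ≤ (M : ℝ) := by exact_mod_cast hM
  have hMpos : (0 : ℝ) < M := by
    have : (0 : ℝ) < 2 ^ 30 := by positivity
    linarith
  have hx1 : (2 : ℝ) ^ 23 ≤ x := by
    rw [hx, le_div_iff₀ (by norm_num)]
    have : (2 : ℝ) ^ 23 * 128 = 2 ^ 30 := by norm_num
    linarith
  have hj : x - 1 ≤ ((M / 128 : ℕ) : ℝ) := by
    have h1 : M < 128 * (M / 128) + 128 := by omega
    have h2 : (M : ℝ) < 128 * ((M / 128 : ℕ) : ℝ) + 128 := by exact_mod_cast h1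
    rw [hx]
    linarith
  have h1 := one_div_64_pow_le (M / 128)
  have h2 : Real.exp (-(4 * ((M / 128 : ℕ) : ℝ))) ≤ Real.exp (4 - 4 * x) := by
    apply Real.exp_le_exp.2; linarith
  have h3 : ((1 : ℝ) / 64) ^ (M / 128) * Real.exp x ≤ Real.exp (4 - 3 * x) := by
    calc _ ≤ Real.exp (4 - 4 * x) * Real.exp x :=
          mul_le_mul_of_nonneg_right (le_trans h1 h2) (Real.exp_pos _).le
      _ = _ := by rw [← Real.exp_add]; congr 1; ring
  have hMx : (M : ℝ) = 128 * x := by rw [hx]; ring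
  have hM' : (M' : ℝ) = 64 * x := by
    have : (M : ℝ) = 2 * M' := by rw [hMdef]; push_cast; ring
    linarith
  rw [le_div_iff₀ hMpos, hM']
  have h4 := exp_tail_one x hx1
  have h5 : Real.exp (4 - 3 * x) * Real.exp (3 * x - 4) = 1 := by
    rw [← Real.exp_add]; simp
  have hx0 : 0 ≤ x := by
    have : (0 : ℝ) < 2 ^ 23 := by positivity
    linarith
  have h6 : 64 * x * (((1 : ℝ) / 64) ^ (M / 128) * Real.exp x) * M
      ≤ 64 * x * Real.exp (4 - 3 * x) * M := by
    apply mul_le_mul_of_nonneg_right _ hMpos.le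
    exact mul_le_mul_of_nonneg_left h3 (by positivity)
  refine le_trans h6 ?_
  rw [hMx]
  have h7 : 64 * x * Real.exp (4 - 3 * x) * (128 * x) = Real.exp (4 - 3 * x) * (8192 * x ^ 2) := by ring
  rw [h7]
  calc _ ≤ Real.exp (4 - 3 * x) * Real.exp (3 * x - 4) :=
        mul_le_mul_of_nonneg_left h4 (Real.exp_pos _).le
    _ = 1 := h5

/-- The tail estimate in Lemma Q. -/
theorem tail_Q {M' : ℕ} (hM : 2 ^ 30 ≤ 2 * M') :
    (M' : ℝ) * ((((1 : ℝ) / 64) ^ ((2 * M') / 128)) ^ 2 * Real.exp (((2 * M' : ℕ) : ℝ) / 128))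
      ≤ 1 / ((2 * M' : ℕ) : ℝ) ^ 2 := by
  set M := 2 * M' with hMdef
  set x : ℝ := (M : ℝ) / 128 with hx
  have hMr : (2 : ℝ) ^ 30 ≤ (M : ℝ) := by exact_mod_cast hM
  have hMpos : (0 : ℝ) < M := by
    have : (0 : ℝ) < 2 ^ 30 := by positivity
    linarith
  have hx1 : (2 : ℝ) ^ 23 ≤ x := by
    rw [hx, le_div_iff₀ (by norm_num)]
    have : (2 : ℝ) ^ 23 * 128 = 2 ^ 30 := by norm_num
    linarith
  have hj : x - 1 ≤ ((M / 128 : ℕ) : ℝ) := by
    have h1 : M < 128 * (M / 128) + 128 := by omega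
    have h2 : (M : ℝ) < 128 * ((M / 128 : ℕ) : ℝ) + 128 := by exact_mod_cast h1
    rw [hx]
    linarith
  have h1 := one_div_64_pow_le (M / 128)
  have h2 : Real.exp (-(4 * ((M / 128 : ℕ) : ℝ))) ≤ Real.exp (4 - 4 * x) := by
    apply Real.exp_le_exp.2; linarith
  have h0 : (0 : ℝ) ≤ ((1 : ℝ) / 64) ^ (M / 128) := by positivity
  have h3 : (((1 : ℝ) / 64) ^ (M / 128)) ^ 2 * Real.exp x ≤ Real.exp (8 - 7 * x) := by
    have h4 : (((1 : ℝ) / 64) ^ (M / 128)) ^ 2 ≤ (Real.exp (4 - 4 * x)) ^ 2 :=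
      pow_le_pow_left₀ h0 (le_trans h1 h2) 2
    calc _ ≤ (Real.exp (4 - 4 * x)) ^ 2 * Real.exp x :=
          mul_le_mul_of_nonneg_right h4 (Real.exp_pos _).le
      _ = _ := by
        rw [sq, ← Real.exp_add, ← Real.exp_add]; congr 1; ring
  have hMx : (M : ℝ) = 128 * x := by rw [hx]; ring
  have hM' : (M' : ℝ) = 64 * x := by
    have : (M : ℝ) = 2 * M' := by rw [hMdef]; push_cast; ring
    linarith
  rw [le_div_iff₀ (by positivity), hM']
  have h4 := exp_tail_two x hx1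
  have h5 : Real.exp (8 - 7 * x) * Real.exp (7 * x - 8) = 1 := by
    rw [← Real.exp_add]; simp
  have hx0 : 0 ≤ x := by
    have : (0 : ℝ) < 2 ^ 23 := by positivity
    linarith
  have h6 : 64 * x * ((((1 : ℝ) / 64) ^ (M / 128)) ^ 2 * Real.exp x) * (M : ℝ) ^ 2
      ≤ 64 * x * Real.exp (8 - 7 * x) * (M : ℝ) ^ 2 := by
    apply mul_le_mul_of_nonneg_right _ (by positivity)
    exact mul_le_mul_of_nonneg_left h3 (by positivity)
  refine le_trans h6 ?_
  rw [hMx]
  have h7 : 64 * x * Real.exp (8 - 7 * x) * (128 * x) ^ 2 = Real.exp (8 - 7 * x) * (1048576 * x ^ 3) := by ring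
  rw [h7]
  calc _ ≤ Real.exp (8 - 7 * x) * Real.exp (7 * x - 8) :=
        mul_le_mul_of_nonneg_left h4 (Real.exp_pos _).le
    _ = 1 := h5


/-! ### Lemma P -/

/-- Pointwise bound on a level, for the product form. -/
theorem term_P {M' : ℕ} (hM : 2 ^ 30 ≤ 2 * M') {φ ψ : (W → Bool) → ℝ}
    (h0 : ∀ x, 0 ≤ φ x) (h0' : ∀ x, 0 ≤ ψ x) {V V' a a' w w' : ℝ}
    (hV : ∀ x, φ x ≤ V) (hV' : ∀ x, ψ x ≤ V')
    (ha : a = (∑ x, φ x) / 2 ^ Fintype.card W) (ha' : a' = (∑ x, ψ x) / 2 ^ Fintype.card W)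
    (ha0 : 0 < a) (ha0' : 0 < a')
    (hw : 1 ≤ w) (hw' : 1 ≤ w')
    (hVw : V ≤ a * Real.exp w) (hVw' : V' ≤ a' * Real.exp w')
    (hw1 : w ≤ ((2 * M' : ℕ) : ℝ) / 128) (hw1' : w' ≤ ((2 * M' : ℕ) : ℝ) / 128)
    (hww : w * w' ≤ ((2 * M' : ℕ) : ℝ) / 128) (j : ℕ) (hj : j < M') :
    aj (2 * (2 * M')) (j + 1) * (Real.sqrt (levelW φ (2 * (j + 1))) * Real.sqrt (levelW ψ (2 * (j + 1))))
      ≤ a * a' * (16 / ((2 * M' : ℕ) : ℝ) * ((3 * (w * w') + (j + 1)) * (1 / 2) ^ j)
        + ((1 : ℝ) / 64) ^ ((2 * M') / 128) * Real.exp (((2 * M' : ℕ) : ℝ) / 128)) := by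
  set M := 2 * M' with hMdef
  have hMr : (2 : ℝ) ^ 30 ≤ (M : ℝ) := by exact_mod_cast hM
  have hMpos : (0 : ℝ) < M := by
    have : (0 : ℝ) < 2 ^ 30 := by positivity
    linarith
  have hM1 : 1 ≤ M := by omega
  have hw0 : 0 < w := by linarith
  have hw0' : 0 < w' := by linarith
  set i := j + 1 with hi
  have hi1 : 1 ≤ i := by omega
  have hi0 : (0 : ℝ) < (i : ℝ) := by exact_mod_cast hi1
  have hi2 : 2 * i ≤ M := by omega
  have haj0 : 0 ≤ aj (2 * M) i := aj_nonneg _ _ (by omega)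
  have he1 : 0 < Real.exp 1 := Real.exp_pos 1
  have hexp0 : 0 < Real.exp ((M : ℝ) / 128) := Real.exp_pos _
  have hT0 : 0 ≤ ((1 : ℝ) / 64) ^ (M / 128) * Real.exp ((M : ℝ) / 128) := by positivity
  by_cases hlow : i ≤ M / 128
  · -- the level inequality regime
    have h1 : aj (2 * M) i ≤ (2 * (i : ℝ) / M) ^ i := aj_le_pow M i i hM1 le_rfl hi2
    have h2 : Real.sqrt (levelW φ (2 * i)) ≤ a * (Real.exp 1 * ((w + i) / i)) ^ i := by
      apply Real.sqrt_le_iff.2
      exact ⟨by positivity, sqrt_level_le φ h0 V hV a ha ha0 w hw0 hVw i hi1⟩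
    have h3 : Real.sqrt (levelW ψ (2 * i)) ≤ a' * (Real.exp 1 * ((w' + i) / i)) ^ i := by
      apply Real.sqrt_le_iff.2
      exact ⟨by positivity, sqrt_level_le ψ h0' V' hV' a' ha' ha0' w' hw0' hVw' i hi1⟩
    set y : ℝ := 2 * (i : ℝ) / M * ((Real.exp 1 * ((w + i) / i)) * (Real.exp 1 * ((w' + i) / i))) with hy
    have hy0 : 0 ≤ y := by positivity
    have hprod : aj (2 * M) i * (Real.sqrt (levelW φ (2 * i)) * Real.sqrt (levelW ψ (2 * i)))
        ≤ a * a' * y ^ i := by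
      calc _ ≤ (2 * (i : ℝ) / M) ^ i * ((a * (Real.exp 1 * ((w + i) / i)) ^ i)
              * (a' * (Real.exp 1 * ((w' + i) / i)) ^ i)) := by
            apply mul_le_mul h1 _ (by positivity) (by positivity)
            exact mul_le_mul h2 h3 (Real.sqrt_nonneg _) (by positivity)
        _ = _ := by
            have : ∀ (A X Y : ℝ), A ^ i * ((a * X ^ i) * (a' * Y ^ i)) = a * a' * (A * (X * Y)) ^ i := by
              intro A X Y
              rw [mul_pow, mul_pow]
              ring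
            rw [hy]
            exact this _ _ _
    -- bound for y
    have hi3 : (i : ℝ) ≤ (M : ℝ) / 128 := by
      have h4 : ((M / 128 : ℕ) : ℝ) ≤ (M : ℝ) / 128 := Nat.cast_div_le
      have h5 : (i : ℝ) ≤ ((M / 128 : ℕ) : ℝ) := by exact_mod_cast hlow
      linarith
    have hyeq : y = 2 * Real.exp 1 ^ 2 / M * ((w + i) * (w' + i) / i) := by
      rw [hy]; field_simp
    have hbr : (w + i) * (w' + i) / i ≤ w * w' + w + w' + i := by
      rw [div_le_iff₀ hi0]
      have hi4 : (1 : ℝ) ≤ i := by exact_mod_cast hi1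
      nlinarith [mul_nonneg hw0.le hw0'.le, mul_nonneg hw0.le hi0.le, mul_nonneg hw0'.le hi0.le,
        mul_nonneg (mul_nonneg hw0.le hw0'.le) (sub_nonneg.2 hi4)]
    have hecoef : 2 * Real.exp 1 ^ 2 / (M : ℝ) ≤ 16 / M := by
      apply div_le_div_of_nonneg_right _ hMpos.le
      have := exp_one_sq_le
      linarith
    have hecoef0 : 0 ≤ 16 / (M : ℝ) := by positivity
    have hfrac0 : 0 ≤ (w + i) * (w' + i) / i := by positivity
    have hy1 : y ≤ 1 / 2 := by
      rw [hyeq]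
      calc _ ≤ 16 / (M : ℝ) * (w * w' + w + w' + i) :=
            mul_le_mul hecoef hbr hfrac0 hecoef0
        _ ≤ 16 / (M : ℝ) * (4 * ((M : ℝ) / 128)) := by
            apply mul_le_mul_of_nonneg_left _ hecoef0
            linarith
        _ = 1 / 2 := by field_simp; norm_num
    have hy2 : y ≤ 16 / (M : ℝ) * (3 * (w * w') + i) := by
      rw [hyeq]
      have hw2 : w ≤ w * w' := by nlinarith
      have hw3 : w' ≤ w * w' := by nlinarith
      calc _ ≤ 16 / (M : ℝ) * (w * w' + w + w' + i) :=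
            mul_le_mul hecoef hbr hfrac0 hecoef0
        _ ≤ _ := by
            apply mul_le_mul_of_nonneg_left _ hecoef0
            linarith
    have hypow : y ^ i ≤ 16 / (M : ℝ) * ((3 * (w * w') + i) * (1 / 2) ^ j) := by
      have : y ^ i = y * y ^ j := by rw [hi, pow_succ]; ring
      rw [this]
      have hyj : y ^ j ≤ (1 / 2) ^ j := pow_le_pow_left₀ hy0 hy1 j
      calc y * y ^ j ≤ (16 / (M : ℝ) * (3 * (w * w') + i)) * (1 / 2) ^ j :=
            mul_le_mul hy2 hyj (by positivity) (by positivity)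
        _ = _ := by ring
    have hicast : (i : ℝ) = (j : ℝ) + 1 := by rw [hi]; push_cast; ring
    rw [hicast] at hypow
    refine le_trans hprod ?_
    apply mul_le_mul_of_nonneg_left _ (by positivity)
    linarith
  · -- the Parseval regime
    have hlow' : M / 128 ≤ i := by omega
    have h1 : aj (2 * M) i ≤ ((1 : ℝ) / 64) ^ (M / 128) := by
      refine le_trans (aj_antitone M (M / 128) i hlow' hi2) ?_
      refine le_trans (aj_le_pow M (M / 128) (M / 128) hM1 le_rfl (by omega)) ?_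
      apply pow_le_pow_left₀ (by positivity)
      rw [div_le_iff₀ hMpos]
      have h4 : ((M / 128 : ℕ) : ℝ) ≤ (M : ℝ) / 128 := Nat.cast_div_le
      linarith
    have hs : ∀ (f : (W → Bool) → ℝ) (b u Vb : ℝ), (∀ x, 0 ≤ f x) → (∀ x, f x ≤ Vb) →
        b = (∑ x, f x) / 2 ^ Fintype.card W → 0 < b → Vb ≤ b * Real.exp u →
        Real.sqrt (levelW f (2 * i)) ≤ b * Real.exp (u / 2) := by
      intro f b u Vb hf hf2 hb hb0 hVb
      apply Real.sqrt_le_iff.2
      refine ⟨by positivity, ?_⟩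
      refine le_trans (levelW_le_sum f _) (le_trans (sum_fh_sq_le_exp f hf Vb hf2 b hb hb0 u hVb) ?_)
      apply le_of_eq
      rw [mul_pow, ← Real.exp_nat_mul]
      congr 2
      push_cast
      ring
    have h2 := hs φ a w V h0 hV ha ha0 hVw
    have h3 := hs ψ a' w' V' h0' hV' ha' ha0' hVw'
    have hexp : Real.exp (w / 2) * Real.exp (w' / 2) ≤ Real.exp ((M : ℝ) / 128) := by
      rw [← Real.exp_add]
      apply Real.exp_le_exp.2
      linarith
    have hT1 : aj (2 * M) i * (Real.sqrt (levelW φ (2 * i)) * Real.sqrt (levelW ψ (2 * i)))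
        ≤ a * a' * (((1 : ℝ) / 64) ^ (M / 128) * Real.exp ((M : ℝ) / 128)) := by
      calc _ ≤ ((1 : ℝ) / 64) ^ (M / 128) * ((a * Real.exp (w / 2)) * (a' * Real.exp (w' / 2))) := by
            apply mul_le_mul h1 _ (by positivity) (by positivity)
            exact mul_le_mul h2 h3 (Real.sqrt_nonneg _) (by positivity)
        _ = a * a' * (((1 : ℝ) / 64) ^ (M / 128) * (Real.exp (w / 2) * Real.exp (w' / 2))) := by ring
        _ ≤ _ := by
            apply mul_le_mul_of_nonneg_left _ (by positivity)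
            exact mul_le_mul_of_nonneg_left hexp (by positivity)
    refine le_trans hT1 ?_
    apply mul_le_mul_of_nonneg_left _ (by positivity)
    have : 0 ≤ 16 / (M : ℝ) * ((3 * (w * w') + ((j : ℝ) + 1)) * (1 / 2) ^ j) := by positivity
    linarith

theorem sum_div_eq {M : ℕ} (hW : Fintype.card W = 2 * M) {φ : (W → Bool) → ℝ} (hφ : Supp W M φ) :
    (∑ x, φ x) / 2 ^ Fintype.card W = qq W M * Emean W M φ := by
  have hpos := nOm_pos hW
  unfold qq Emean
  rw [sum_eq_sum_Om hφ]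
  field_simp

/-- Reduction of the rest to the levels. -/
theorem abs_restS_le_levels {M' : ℕ} (hM' : 1 ≤ M') (hW : Fintype.card W = 4 * M')
    {φ ψ : (W → Bool) → ℝ} (hφ : Supp W (2 * M') φ) (hψ : Supp W (2 * M') ψ) :
    |restS M' φ ψ| ≤ 2 * ∑ j ∈ Finset.range M', aj (2 * (2 * M')) (j + 1) *
      (Real.sqrt (levelW φ (2 * (j + 1))) * Real.sqrt (levelW ψ (2 * (j + 1)))) := by
  have hW' : Fintype.card W = 2 * (2 * M') := by omega
  have hM : 1 ≤ 2 * M' := by omega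
  unfold restS
  refine le_trans (Finset.abs_sum_le_sum_abs _ _) ?_
  have h1 := sum_levels hW (fun U => |eU (2 * M') U * fh φ U * fh ψ U|) (fun U => abs_nonneg _)
    (fun U j hj => by
      show |eU (2 * M') U * fh φ U * fh ψ U| = 0
      rw [eU_odd hW' hM U j hj]; simp)
    (fun U => by
      show |eU (2 * M') Uᶜ * fh φ Uᶜ * fh ψ Uᶜ| = _
      rw [eU_compl, fh_compl hφ, fh_compl hψ])
  refine le_trans h1 ?_
  apply mul_le_mul_of_nonneg_left _ (by norm_num)
  refine Finset.sum_le_sum fun j hj => ?_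
  have hj' : j < M' := Finset.mem_range.1 hj
  have h2 : ∀ U ∈ lev W (2 * (j + 1)), |eU (2 * M') U * fh φ U * fh ψ U|
      = aj (2 * (2 * M')) (j + 1) * (|fh φ U| * |fh ψ U|) := by
    intro U hU
    rw [abs_mul, abs_mul, abs_eU_even hW' hM U (j + 1) (Finset.mem_filter.1 hU).2, mul_assoc]
  rw [Finset.sum_congr rfl h2, ← Finset.mul_sum]
  apply mul_le_mul_of_nonneg_left _ (aj_nonneg _ _ (by omega))
  have h3 := Real.sum_mul_le_sqrt_mul_sqrt (lev W (2 * (j + 1))) (fun U => |fh φ U|) (fun U => |fh ψ U|)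
  simp only [sq_abs] at h3
  exact h3

/-- Lemma P: the product bound for two pieces. -/
theorem BB_piece_le {M' : ℕ} (hM : 2 ^ 30 ≤ 2 * M') (hW : Fintype.card W = 4 * M')
    {φ ψ : (W → Bool) → ℝ} (hφ : Supp W (2 * M') φ) (hψ : Supp W (2 * M') ψ)
    (h0 : ∀ x, 0 ≤ φ x) (h0' : ∀ x, 0 ≤ ψ x) {V V' w w' : ℝ}
    (hV : ∀ x, φ x ≤ V) (hV' : ∀ x, ψ x ≤ V')
    (hm : 0 < Emean W (2 * M') φ) (hm' : 0 < Emean W (2 * M') ψ)
    (hw : 1 ≤ w) (hw' : 1 ≤ w')
    (hVw : V ≤ qq W (2 * M') * Emean W (2 * M') φ * Real.exp w)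
    (hVw' : V' ≤ qq W (2 * M') * Emean W (2 * M') ψ * Real.exp w') :
    BB W M' φ ψ ≤ Emean W (2 * M') φ * Emean W (2 * M') ψ *
      (2 * qq W (2 * M') * Psi W M' + 322 * (Psi W M' / ((2 * M' : ℕ) : ℝ)) * (w * w')) := by
  have hM'1 : 1 ≤ M' := by
    by_contra h
    have : M' = 0 := by omega
    rw [this] at hM
    norm_num at hM
  have hW' : Fintype.card W = 2 * (2 * M') := by omega
  have hMr : (2 : ℝ) ^ 30 ≤ ((2 * M' : ℕ) : ℝ) := by exact_mod_cast hM
  have hMpos : (0 : ℝ) < ((2 * M' : ℕ) : ℝ) := by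
    have : (0 : ℝ) < 2 ^ 30 := by positivity
    linarith
  have hPsi := Psi_pos hW
  have hq := qq_pos hW'
  have hq1 := qq_le_one (W := W) (2 * M')
  have hpos : 0 < nOm W (2 * M') := nOm_pos hW'
  have ho := oo_pos M'
  have hww1 : 1 ≤ w * w' := by nlinarith
  have hCN : 0 ≤ 2 * qq W (2 * M') * Psi W M' := by positivity
  by_cases hreg : w ≤ ((2 * M' : ℕ) : ℝ) / 128 ∧ w' ≤ ((2 * M' : ℕ) : ℝ) / 128
      ∧ w * w' ≤ ((2 * M' : ℕ) : ℝ) / 128
  · obtain ⟨hr1, hr2, hr3⟩ := hreg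
    have hae := (sum_div_eq hW' hφ).symm
    have hae' := (sum_div_eq hW' hψ).symm
    have ha0 : 0 < qq W (2 * M') * Emean W (2 * M') φ := mul_pos hq hm
    have ha0' : 0 < qq W (2 * M') * Emean W (2 * M') ψ := mul_pos hq hm'
    have hterm := fun j hj => term_P hM h0 h0' hV hV' hae hae' ha0 ha0' hw hw' hVw hVw' hr1 hr2 hr3 j hj
    set a := qq W (2 * M') * Emean W (2 * M') φ with ha
    set a' := qq W (2 * M') * Emean W (2 * M') ψ with ha'
    set T := ((1 : ℝ) / 64) ^ ((2 * M') / 128) * Real.exp (((2 * M' : ℕ) : ℝ) / 128) with hT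
    have hT0 : 0 ≤ T := by positivity
    have h1 := abs_restS_le_levels hM'1 hW hφ hψ
    have h2 : ∑ j ∈ Finset.range M', aj (2 * (2 * M')) (j + 1) *
        (Real.sqrt (levelW φ (2 * (j + 1))) * Real.sqrt (levelW ψ (2 * (j + 1))))
        ≤ ∑ j ∈ Finset.range M', a * a' * (16 / ((2 * M' : ℕ) : ℝ) *
          ((3 * (w * w') + ((j : ℝ) + 1)) * (1 / 2) ^ j) + T) :=
      Finset.sum_le_sum fun j hj => hterm j (Finset.mem_range.1 hj)
    have h3 : ∑ j ∈ Finset.range M', a * a' * (16 / ((2 * M' : ℕ) : ℝ) *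
          ((3 * (w * w') + ((j : ℝ) + 1)) * (1 / 2) ^ j) + T)
        = a * a' * (16 / ((2 * M' : ℕ) : ℝ) * (3 * (w * w') * ∑ j ∈ Finset.range M', ((1 : ℝ) / 2) ^ j
          + ∑ j ∈ Finset.range M', ((j : ℝ) + 1) * ((1 : ℝ) / 2) ^ j) + M' * T) := by
      have e1 : ∑ j ∈ Finset.range M', (3 * (w * w') + ((j : ℝ) + 1)) * ((1 : ℝ) / 2) ^ j
          = 3 * (w * w') * ∑ j ∈ Finset.range M', ((1 : ℝ) / 2) ^ j
            + ∑ j ∈ Finset.range M', ((j : ℝ) + 1) * ((1 : ℝ) / 2) ^ j := by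
        rw [Finset.mul_sum, ← Finset.sum_add_distrib]
        exact Finset.sum_congr rfl fun j _ => by ring
      rw [← Finset.mul_sum, Finset.sum_add_distrib, ← Finset.mul_sum, e1, Finset.sum_const,
        Finset.card_range, nsmul_eq_mul]
    have h4 : (M' : ℝ) * T ≤ 1 / ((2 * M' : ℕ) : ℝ) := tail_P hM
    have h5 := sum_half_le M'
    have h6 := sum_succ_half_le M'
    have hcoef : 0 < 16 / ((2 * M' : ℕ) : ℝ) := by positivity
    have hww0 : 0 ≤ 3 * (w * w') := by positivity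
    have h7 : 16 / ((2 * M' : ℕ) : ℝ) * (3 * (w * w') * ∑ j ∈ Finset.range M', ((1 : ℝ) / 2) ^ j
          + ∑ j ∈ Finset.range M', ((j : ℝ) + 1) * ((1 : ℝ) / 2) ^ j) + M' * T
        ≤ 161 * (w * w') / ((2 * M' : ℕ) : ℝ) := by
      have h8 : 3 * (w * w') * ∑ j ∈ Finset.range M', ((1 : ℝ) / 2) ^ j
          + ∑ j ∈ Finset.range M', ((j : ℝ) + 1) * ((1 : ℝ) / 2) ^ j ≤ 10 * (w * w') := by
        have := mul_le_mul_of_nonneg_left h5 hww0
        linarith
      have h9 := mul_le_mul_of_nonneg_left h8 hcoef.le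
      have h10 : 1 / ((2 * M' : ℕ) : ℝ) ≤ (w * w') / ((2 * M' : ℕ) : ℝ) :=
        div_le_div_of_nonneg_right hww1 hMpos.le
      have h11 : 161 * (w * w') / ((2 * M' : ℕ) : ℝ)
          = 16 / ((2 * M' : ℕ) : ℝ) * (10 * (w * w')) + (w * w') / ((2 * M' : ℕ) : ℝ) := by
        field_simp
        ring
      rw [h11]
      linarith
    have h12 : |restS M' φ ψ| ≤ 2 * (a * a' * (161 * (w * w') / ((2 * M' : ℕ) : ℝ))) := by
      refine le_trans h1 ?_
      apply mul_le_mul_of_nonneg_left _ (by norm_num)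
      rw [h3] at h2
      refine le_trans h2 ?_
      exact mul_le_mul_of_nonneg_left h7 (by positivity)
    rw [BB_decomp hM'1 hW hφ hψ]
    have h13 : (2 ^ Fintype.card W / oo M') * restS M' φ ψ
        ≤ (2 ^ Fintype.card W / oo M') * (2 * (a * a' * (161 * (w * w') / ((2 * M' : ℕ) : ℝ)))) := by
      apply mul_le_mul_of_nonneg_left _ (by positivity)
      exact le_trans (le_abs_self _) h12
    have h14 : (2 ^ Fintype.card W / oo M') * (2 * (a * a' * (161 * (w * w') / ((2 * M' : ℕ) : ℝ))))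
        ≤ Emean W (2 * M') φ * Emean W (2 * M') ψ * (322 * (Psi W M' / ((2 * M' : ℕ) : ℝ)) * (w * w')) := by
      have h15 : (2 ^ Fintype.card W / oo M') * qq W (2 * M') = Psi W M' := by
        unfold qq Psi; field_simp
      have h16 : (2 ^ Fintype.card W / oo M') * (2 * (a * a' * (161 * (w * w') / ((2 * M' : ℕ) : ℝ))))
          = ((2 ^ Fintype.card W / oo M') * qq W (2 * M')) * qq W (2 * M') *
            (Emean W (2 * M') φ * Emean W (2 * M') ψ * (322 * (w * w') / ((2 * M' : ℕ) : ℝ))) := by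
        rw [ha, ha']; ring
      rw [h16, h15]
      have h17 : Psi W M' * qq W (2 * M') ≤ Psi W M' := by nlinarith
      have h18 : 0 ≤ Emean W (2 * M') φ * Emean W (2 * M') ψ * (322 * (w * w') / ((2 * M' : ℕ) : ℝ)) := by
        positivity
      have h19 := mul_le_mul_of_nonneg_right h17 h18
      refine le_trans h19 (le_of_eq ?_)
      ring
    have h20 : 2 * qq W (2 * M') * Psi W M' * (Emean W (2 * M') φ * Emean W (2 * M') ψ)
        = Emean W (2 * M') φ * Emean W (2 * M') ψ * (2 * qq W (2 * M') * Psi W M') := by ring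
    rw [h20, mul_add]
    linarith
  · -- the trivial bound suffices
    have hge : ((2 * M' : ℕ) : ℝ) / 128 ≤ w * w' := by
      by_contra hlt
      push Not at hlt
      apply hreg
      refine ⟨?_, ?_, hlt.le⟩
      · nlinarith
      · nlinarith
    have h1 := BB_le_trivial hW hφ hψ h0 h0'
    refine le_trans h1 ?_
    have h2 : Psi W M' ≤ 2 * qq W (2 * M') * Psi W M' + 322 * (Psi W M' / ((2 * M' : ℕ) : ℝ)) * (w * w') := by
      have h3 : 1 ≤ 322 / ((2 * M' : ℕ) : ℝ) * (w * w') := by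
        have h4 : 322 / ((2 * M' : ℕ) : ℝ) * (((2 * M' : ℕ) : ℝ) / 128) ≤ 322 / ((2 * M' : ℕ) : ℝ) * (w * w') :=
          mul_le_mul_of_nonneg_left hge (by positivity)
        have h5 : 322 / ((2 * M' : ℕ) : ℝ) * (((2 * M' : ℕ) : ℝ) / 128) = 322 / 128 := by
          field_simp
        rw [h5] at h4
        linarith
      have h6 : 322 * (Psi W M' / ((2 * M' : ℕ) : ℝ)) * (w * w')
          = Psi W M' * (322 / ((2 * M' : ℕ) : ℝ) * (w * w')) := by ring
      rw [h6]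
      have h7 := mul_le_mul_of_nonneg_left h3 hPsi.le
      linarith
    calc _ = Emean W (2 * M') φ * Emean W (2 * M') ψ * Psi W M' := by ring
      _ ≤ _ := mul_le_mul_of_nonneg_left h2 (by positivity)

/-! ### Lemma Q -/

theorem one_add_sq_le (i : ℕ) (hi : 1 ≤ i) : ((1 : ℝ) + i) ^ 2 ≤ 4 * 32 ^ (i - 1) := by
  induction i, hi using Nat.le_induction with
  | base => norm_num
  | succ i hi ih =>
    have h1 : i + 1 - 1 = (i - 1) + 1 := by omega
    rw [h1, pow_succ (32 : ℝ)]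
    push_cast
    have hi0 : (0 : ℝ) ≤ i := Nat.cast_nonneg i
    have h2 : (1 + ((i : ℝ) + 1)) ^ 2 ≤ 32 * (1 + (i : ℝ)) ^ 2 := by nlinarith
    linarith

/-- Pointwise bound on a level, for the square form. -/
theorem term_Q {M' : ℕ} (hM : 2 ^ 30 ≤ 2 * M') {ψ : (W → Bool) → ℝ}
    (h0' : ∀ x, 0 ≤ ψ x) {V' a' w' : ℝ} (hV' : ∀ x, ψ x ≤ V')
    (ha' : a' = (∑ x, ψ x) / 2 ^ Fintype.card W) (ha0' : 0 < a') (hw' : 1 ≤ w')
    (hVw' : V' ≤ a' * Real.exp w') (hw1' : w' ≤ ((2 * M' : ℕ) : ℝ) / 128) (j : ℕ) (hj : j < M') :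
    aj (2 * (2 * M')) (j + 1) ^ 2 * levelW ψ (2 * (j + 1))
      ≤ a' ^ 2 * (128 * w' ^ 2 / ((2 * M' : ℕ) : ℝ) ^ 2 * (1 / 2) ^ j
        + (((1 : ℝ) / 64) ^ ((2 * M') / 128)) ^ 2 * Real.exp (((2 * M' : ℕ) : ℝ) / 128)) := by
  set M := 2 * M' with hMdef
  have hMr : (2 : ℝ) ^ 30 ≤ (M : ℝ) := by exact_mod_cast hM
  have hMpos : (0 : ℝ) < M := by
    have : (0 : ℝ) < 2 ^ 30 := by positivity
    linarith
  have hM1 : 1 ≤ M := by omega
  have hw0' : 0 < w' := by linarith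
  set i := j + 1 with hi
  have hi1 : 1 ≤ i := by omega
  have hi0 : (0 : ℝ) < (i : ℝ) := by exact_mod_cast hi1
  have hi11 : (1 : ℝ) ≤ (i : ℝ) := by exact_mod_cast hi1
  have hi2 : 2 * i ≤ M := by omega
  have haj0 : 0 ≤ aj (2 * M) i := aj_nonneg _ _ (by omega)
  have he1 : 0 < Real.exp 1 := Real.exp_pos 1
  have hexp0 : 0 < Real.exp ((M : ℝ) / 128) := Real.exp_pos _
  have hT0 : 0 ≤ (((1 : ℝ) / 64) ^ (M / 128)) ^ 2 * Real.exp ((M : ℝ) / 128) := by positivity
  have hW0 : 0 ≤ levelW ψ (2 * i) := Finset.sum_nonneg fun U _ => sq_nonneg _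
  by_cases hlow : i ≤ M / 128
  · have h1 : aj (2 * M) i ≤ (2 * (i : ℝ) / M) ^ i := aj_le_pow M i i hM1 le_rfl hi2
    have h2 := sqrt_level_le ψ h0' V' hV' a' ha' ha0' w' hw0' hVw' i hi1
    set z : ℝ := 2 * Real.exp 1 * (w' + i) / M with hz
    have hz0 : 0 ≤ z := by positivity
    have hprod : aj (2 * M) i ^ 2 * levelW ψ (2 * i) ≤ a' ^ 2 * (z ^ 2) ^ i := by
      have h3 : aj (2 * M) i ^ 2 ≤ ((2 * (i : ℝ) / M) ^ i) ^ 2 := pow_le_pow_left₀ haj0 h1 2
      calc _ ≤ ((2 * (i : ℝ) / M) ^ i) ^ 2 * (a' * (Real.exp 1 * ((w' + i) / i)) ^ i) ^ 2 :=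
            mul_le_mul h3 h2 hW0 (by positivity)
        _ = a' ^ 2 * (((2 * (i : ℝ) / M) * (Real.exp 1 * ((w' + i) / i))) ^ i) ^ 2 := by
            have : ∀ (A X : ℝ), (A ^ i) ^ 2 * (a' * X ^ i) ^ 2 = a' ^ 2 * ((A * X) ^ i) ^ 2 := by
              intro A X
              rw [mul_pow A X i, mul_pow a' _ 2]
              ring
            exact this _ _
        _ = _ := by
            have e : (2 * (i : ℝ) / M) * (Real.exp 1 * ((w' + i) / i)) = z := by
              rw [hz]; field_simp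
            rw [e, ← pow_mul, ← pow_mul, mul_comm i 2]
    have hi3 : (i : ℝ) ≤ (M : ℝ) / 128 := by
      have h4 : ((M / 128 : ℕ) : ℝ) ≤ (M : ℝ) / 128 := Nat.cast_div_le
      have h5 : (i : ℝ) ≤ ((M / 128 : ℕ) : ℝ) := by exact_mod_cast hlow
      linarith
    have hz1 : z ≤ 1 / 8 := by
      rw [hz, div_le_iff₀ hMpos]
      have he : Real.exp 1 ≤ 3 := by
        have := Real.exp_one_lt_d9; linarith
      have h6 : w' + i ≤ 2 * ((M : ℝ) / 128) := by linarith
      have h7 : 0 ≤ w' + i := by positivity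
      calc 2 * Real.exp 1 * (w' + i) ≤ 2 * 3 * (2 * ((M : ℝ) / 128)) :=
            mul_le_mul (by linarith) h6 h7 (by norm_num)
        _ ≤ _ := by linarith
    have hz2 : z ^ 2 ≤ 1 / 64 := by
      have := pow_le_pow_left₀ hz0 hz1 2
      norm_num at this ⊢
      linarith
    have hz3 : z ^ 2 ≤ 32 * (w' ^ 2 * (1 + (i : ℝ)) ^ 2) / (M : ℝ) ^ 2 := by
      rw [hz, div_pow, mul_pow, mul_pow]
      apply div_le_div_of_nonneg_right _ (by positivity)
      have h8 : (w' + i) ^ 2 ≤ w' ^ 2 * (1 + (i : ℝ)) ^ 2 := by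
        rw [← mul_pow]
        apply pow_le_pow_left₀ (by positivity)
        nlinarith
      have h9 := exp_one_sq_le
      have h10 : (0 : ℝ) ≤ (w' + i) ^ 2 := by positivity
      have h11 : 2 ^ 2 * Real.exp 1 ^ 2 * (w' + i) ^ 2 ≤ 2 ^ 2 * 8 * (w' + i) ^ 2 := by
        apply mul_le_mul_of_nonneg_right _ h10
        linarith
      have h12 : (2 : ℝ) ^ 2 * 8 * (w' + i) ^ 2 ≤ 32 * (w' ^ 2 * (1 + (i : ℝ)) ^ 2) := by
        nlinarith
      linarith
    have hpw : (z ^ 2) ^ i ≤ 128 * w' ^ 2 / (M : ℝ) ^ 2 * (1 / 2) ^ j := by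
      have e : (z ^ 2) ^ i = z ^ 2 * (z ^ 2) ^ j := by rw [hi, pow_succ]; ring
      rw [e]
      have h13 : (z ^ 2) ^ j ≤ (1 / 64) ^ j := pow_le_pow_left₀ (by positivity) hz2 j
      have h14 : (1 + (i : ℝ)) ^ 2 ≤ 4 * 32 ^ j := by
        have := one_add_sq_le i hi1
        rwa [show i - 1 = j by omega] at this
      have h15 : (32 : ℝ) ^ j * (1 / 64) ^ j = (1 / 2) ^ j := by
        rw [← mul_pow]; norm_num
      have hMM : (0 : ℝ) < (M : ℝ) ^ 2 := by positivity
      calc z ^ 2 * (z ^ 2) ^ j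
          ≤ (32 * (w' ^ 2 * (4 * 32 ^ j)) / (M : ℝ) ^ 2) * (1 / 64) ^ j := by
            apply mul_le_mul _ h13 (by positivity) (by positivity)
            refine le_trans hz3 ?_
            apply div_le_div_of_nonneg_right _ hMM.le
            apply mul_le_mul_of_nonneg_left _ (by norm_num)
            exact mul_le_mul_of_nonneg_left h14 (by positivity)
        _ = 128 * w' ^ 2 / (M : ℝ) ^ 2 * ((32 : ℝ) ^ j * (1 / 64) ^ j) := by ring
        _ = _ := by rw [h15]
    refine le_trans hprod ?_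
    apply mul_le_mul_of_nonneg_left _ (by positivity)
    linarith
  · have hlow' : M / 128 ≤ i := by omega
    have h1 : aj (2 * M) i ≤ ((1 : ℝ) / 64) ^ (M / 128) := by
      refine le_trans (aj_antitone M (M / 128) i hlow' hi2) ?_
      refine le_trans (aj_le_pow M (M / 128) (M / 128) hM1 le_rfl (by omega)) ?_
      apply pow_le_pow_left₀ (by positivity)
      rw [div_le_iff₀ hMpos]
      have h4 : ((M / 128 : ℕ) : ℝ) ≤ (M : ℝ) / 128 := Nat.cast_div_le
      linarith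
    have h2 : levelW ψ (2 * i) ≤ a' ^ 2 * Real.exp ((M : ℝ) / 128) := by
      refine le_trans (levelW_le_sum ψ _) (le_trans (sum_fh_sq_le_exp ψ h0' V' hV' a' ha' ha0' w' hVw') ?_)
      apply mul_le_mul_of_nonneg_left _ (by positivity)
      exact Real.exp_le_exp.2 hw1'
    have h3 : aj (2 * M) i ^ 2 ≤ (((1 : ℝ) / 64) ^ (M / 128)) ^ 2 := pow_le_pow_left₀ haj0 h1 2
    have hT1 : aj (2 * M) i ^ 2 * levelW ψ (2 * i)
        ≤ a' ^ 2 * ((((1 : ℝ) / 64) ^ (M / 128)) ^ 2 * Real.exp ((M : ℝ) / 128)) := by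
      calc _ ≤ (((1 : ℝ) / 64) ^ (M / 128)) ^ 2 * (a' ^ 2 * Real.exp ((M : ℝ) / 128)) :=
            mul_le_mul h3 h2 hW0 (by positivity)
        _ = _ := by ring
    refine le_trans hT1 ?_
    apply mul_le_mul_of_nonneg_left _ (by positivity)
    have : 0 ≤ 128 * w' ^ 2 / (M : ℝ) ^ 2 * (1 / 2) ^ j := by positivity
    linarith

/-- Lemma Q: a mean zero function against a piece. -/
theorem abs_BB_piece {M' : ℕ} (hM : 2 ^ 30 ≤ 2 * M') (hW : Fintype.card W = 4 * M')
    {h ψ : (W → Bool) → ℝ} (hh : Supp W (2 * M') h) (hψ : Supp W (2 * M') ψ)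
    (hmean : Emean W (2 * M') h = 0) (h0' : ∀ x, 0 ≤ ψ x) {V' w' : ℝ} (hV' : ∀ x, ψ x ≤ V')
    (hm' : 0 < Emean W (2 * M') ψ) (hw' : 1 ≤ w')
    (hVw' : V' ≤ qq W (2 * M') * Emean W (2 * M') ψ * Real.exp w') :
    |BB W M' h ψ| ≤ 128 * (Psi W M' / ((2 * M' : ℕ) : ℝ)) *
      (Real.sqrt (Emean W (2 * M') (fun x => h x ^ 2)) * (Emean W (2 * M') ψ * w')) := by
  have hM'1 : 1 ≤ M' := by
    by_contra h
    have : M' = 0 := by omega
    rw [this] at hM
    norm_num at hM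
  have hW' : Fintype.card W = 2 * (2 * M') := by omega
  have hMr : (2 : ℝ) ^ 30 ≤ ((2 * M' : ℕ) : ℝ) := by exact_mod_cast hM
  have hMpos : (0 : ℝ) < ((2 * M' : ℕ) : ℝ) := by
    have : (0 : ℝ) < 2 ^ 30 := by positivity
    linarith
  have hPsi := Psi_pos hW
  have hPsi1 := one_le_Psi hW
  have hq := qq_pos hW'
  have hq1 := qq_le_one (W := W) (2 * M')
  have ho := oo_pos M'
  have hpos : 0 < nOm W (2 * M') := nOm_pos hW'
  set E2 := Emean W (2 * M') (fun x => h x ^ 2) with hE2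
  have hE20 : 0 ≤ E2 := by
    rw [hE2]; unfold Emean
    exact div_nonneg (Finset.sum_nonneg fun _ _ => sq_nonneg _) hpos.le
  by_cases hreg : w' ≤ ((2 * M' : ℕ) : ℝ) / 128
  · have hae' := (sum_div_eq hW' hψ).symm
    have ha0' : 0 < qq W (2 * M') * Emean W (2 * M') ψ := mul_pos hq hm'
    have hterm := fun j hj => term_Q hM h0' hV' hae' ha0' hw' hVw' hreg j hj
    set a' := qq W (2 * M') * Emean W (2 * M') ψ with ha'
    set T := (((1 : ℝ) / 64) ^ ((2 * M') / 128)) ^ 2 * Real.exp (((2 * M' : ℕ) : ℝ) / 128) with hT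
    have hT0 : 0 ≤ T := by positivity
    -- the weighted sum
    have h1 : ∑ U ∈ midU W, (eU (2 * M') U * fh ψ U) ^ 2 ≤ 2 * ∑ j ∈ Finset.range M',
        aj (2 * (2 * M')) (j + 1) ^ 2 * levelW ψ (2 * (j + 1)) := by
      have hM2 : 1 ≤ 2 * M' := by omega
      have h2 := sum_levels hW (fun U => (eU (2 * M') U * fh ψ U) ^ 2) (fun U => sq_nonneg _)
        (fun U j hj => by
          show (eU (2 * M') U * fh ψ U) ^ 2 = 0
          rw [eU_odd hW' hM2 U j hj]; simp)
        (fun U => by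
          show (eU (2 * M') Uᶜ * fh ψ Uᶜ) ^ 2 = _
          rw [eU_compl, fh_compl hψ])
      refine le_trans h2 ?_
      apply mul_le_mul_of_nonneg_left _ (by norm_num)
      refine Finset.sum_le_sum fun j hj => le_of_eq ?_
      unfold levelW
      rw [Finset.mul_sum]
      refine Finset.sum_congr rfl fun U hU => ?_
      rw [mul_pow, ← sq_abs (eU (2 * M') U), abs_eU_even hW' hM2 U (j + 1) (Finset.mem_filter.1 hU).2]
    have h3 : ∑ j ∈ Finset.range M', aj (2 * (2 * M')) (j + 1) ^ 2 * levelW ψ (2 * (j + 1))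
        ≤ a' ^ 2 * (257 * w' ^ 2 / ((2 * M' : ℕ) : ℝ) ^ 2) := by
      calc _ ≤ ∑ j ∈ Finset.range M', a' ^ 2 * (128 * w' ^ 2 / ((2 * M' : ℕ) : ℝ) ^ 2 * (1 / 2) ^ j + T) :=
            Finset.sum_le_sum fun j hj => hterm j (Finset.mem_range.1 hj)
        _ = a' ^ 2 * (128 * w' ^ 2 / ((2 * M' : ℕ) : ℝ) ^ 2 * ∑ j ∈ Finset.range M', ((1 : ℝ) / 2) ^ j + M' * T) := by
            rw [← Finset.mul_sum, Finset.sum_add_distrib, ← Finset.mul_sum, Finset.sum_const,
              Finset.card_range, nsmul_eq_mul]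
        _ ≤ _ := by
            apply mul_le_mul_of_nonneg_left _ (by positivity)
            have h4 : (M' : ℝ) * T ≤ 1 / ((2 * M' : ℕ) : ℝ) ^ 2 := tail_Q hM
            have h5 := sum_half_le M'
            have hMM : (0 : ℝ) < ((2 * M' : ℕ) : ℝ) ^ 2 := by positivity
            have h6 : 1 / ((2 * M' : ℕ) : ℝ) ^ 2 ≤ w' ^ 2 / ((2 * M' : ℕ) : ℝ) ^ 2 := by
              apply div_le_div_of_nonneg_right _ hMM.le
              nlinarith
            have h7 := mul_le_mul_of_nonneg_left h5 (by positivity : 0 ≤ 128 * w' ^ 2 / ((2 * M' : ℕ) : ℝ) ^ 2)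
            have h8 : 257 * w' ^ 2 / ((2 * M' : ℕ) : ℝ) ^ 2
                = 128 * w' ^ 2 / ((2 * M' : ℕ) : ℝ) ^ 2 * 2 + w' ^ 2 / ((2 * M' : ℕ) : ℝ) ^ 2 := by
              ring
            rw [h8]
            linarith
    -- Cauchy
    have h9 : |restS M' h ψ| ≤ Real.sqrt (qq W (2 * M') * E2)
        * (23 * (a' * w' / ((2 * M' : ℕ) : ℝ))) := by
      unfold restS
      have h10 : ∀ U ∈ midU W, eU (2 * M') U * fh h U * fh ψ U = fh h U * (eU (2 * M') U * fh ψ U) :=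
        fun U _ => by ring
      rw [Finset.sum_congr rfl h10]
      refine le_trans (Finset.abs_sum_le_sum_abs _ _) ?_
      have h11 : ∀ U ∈ midU W, |fh h U * (eU (2 * M') U * fh ψ U)| = |fh h U| * |eU (2 * M') U * fh ψ U| :=
        fun U _ => abs_mul _ _
      rw [Finset.sum_congr rfl h11]
      have h12 := Real.sum_mul_le_sqrt_mul_sqrt (midU W) (fun U => |fh h U|)
        (fun U => |eU (2 * M') U * fh ψ U|)
      simp only [sq_abs] at h12
      refine le_trans h12 ?_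
      apply mul_le_mul
      · apply Real.sqrt_le_sqrt
        rw [← sum_fh_sq_eq hW' hh]
        exact Finset.sum_le_sum_of_subset_of_nonneg (Finset.subset_univ _) fun _ _ _ => sq_nonneg _
      · apply Real.sqrt_le_iff.2
        refine ⟨by positivity, ?_⟩
        refine le_trans h1 ?_
        refine le_trans (mul_le_mul_of_nonneg_left h3 (by norm_num)) ?_
        have e : (23 * (a' * w' / ((2 * M' : ℕ) : ℝ))) ^ 2
            = 529 * (a' ^ 2 * (w' ^ 2 / ((2 * M' : ℕ) : ℝ) ^ 2)) := by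
          ring
        rw [e]
        have h14 : 0 ≤ a' ^ 2 * (w' ^ 2 / ((2 * M' : ℕ) : ℝ) ^ 2) := by positivity
        have e2 : 2 * (a' ^ 2 * (257 * w' ^ 2 / ((2 * M' : ℕ) : ℝ) ^ 2))
            = 514 * (a' ^ 2 * (w' ^ 2 / ((2 * M' : ℕ) : ℝ) ^ 2)) := by ring
        rw [e2]
        linarith
      · exact Real.sqrt_nonneg _
      · exact Real.sqrt_nonneg _
    rw [BB_decomp hM'1 hW hh hψ, hmean, zero_mul, mul_zero, zero_add, abs_mul,
      abs_of_pos (by positivity : (0 : ℝ) < 2 ^ Fintype.card W / oo M')]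
    have h15 : (2 ^ Fintype.card W / oo M') * qq W (2 * M') = Psi W M' := by
      unfold qq Psi; field_simp
    have hsq : Real.sqrt (qq W (2 * M')) ≤ 1 := by
      apply Real.sqrt_le_iff.2
      exact ⟨by norm_num, by linarith⟩
    rw [Real.sqrt_mul hq.le] at h9
    have hS0 : 0 ≤ Real.sqrt E2 := Real.sqrt_nonneg _
    have hm0 : 0 ≤ Emean W (2 * M') ψ * w' := by positivity
    calc (2 ^ Fintype.card W / oo M') * |restS M' h ψ|
        ≤ (2 ^ Fintype.card W / oo M') * (Real.sqrt (qq W (2 * M')) * Real.sqrt E2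
          * (23 * (a' * w' / ((2 * M' : ℕ) : ℝ)))) :=
          mul_le_mul_of_nonneg_left h9 (by positivity)
      _ = ((2 ^ Fintype.card W / oo M') * qq W (2 * M')) * (Real.sqrt (qq W (2 * M')) *
          (23 * (Real.sqrt E2 * (Emean W (2 * M') ψ * w')) / ((2 * M' : ℕ) : ℝ))) := by
          rw [ha']; ring
      _ = Psi W M' * (Real.sqrt (qq W (2 * M')) *
          (23 * (Real.sqrt E2 * (Emean W (2 * M') ψ * w')) / ((2 * M' : ℕ) : ℝ))) := by rw [h15]
      _ ≤ Psi W M' * (1 * (23 * (Real.sqrt E2 * (Emean W (2 * M') ψ * w')) / ((2 * M' : ℕ) : ℝ))) := by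
          apply mul_le_mul_of_nonneg_left _ hPsi.le
          apply mul_le_mul_of_nonneg_right hsq (by positivity)
      _ ≤ _ := by
          have e : 128 * (Psi W M' / ((2 * M' : ℕ) : ℝ)) * (Real.sqrt E2 * (Emean W (2 * M') ψ * w'))
              = Psi W M' * (128 * (Real.sqrt E2 * (Emean W (2 * M') ψ * w')) / ((2 * M' : ℕ) : ℝ)) := by ring
          rw [e, one_mul]
          apply mul_le_mul_of_nonneg_left _ hPsi.le
          apply div_le_div_of_nonneg_right _ hMpos.le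
          have : 0 ≤ Real.sqrt E2 * (Emean W (2 * M') ψ * w') := by positivity
          linarith
  · push Not at hreg
    have h1 := abs_BB_le_sqrt hW hh hψ h0'
    refine le_trans h1 ?_
    have hsq : Real.sqrt (Psi W M') ≤ Psi W M' := by
      apply Real.sqrt_le_iff.2
      exact ⟨hPsi.le, by nlinarith⟩
    have h2 : 1 ≤ 128 / ((2 * M' : ℕ) : ℝ) * w' := by
      have h4 : 128 / ((2 * M' : ℕ) : ℝ) * (((2 * M' : ℕ) : ℝ) / 128) ≤ 128 / ((2 * M' : ℕ) : ℝ) * w' :=
        mul_le_mul_of_nonneg_left hreg.le (by positivity)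
      have h5 : 128 / ((2 * M' : ℕ) : ℝ) * (((2 * M' : ℕ) : ℝ) / 128) = 1 := by
        field_simp
      rwa [h5] at h4
    have hS0 : 0 ≤ Real.sqrt E2 := Real.sqrt_nonneg _
    calc Real.sqrt (Psi W M') * Real.sqrt E2 * Emean W (2 * M') ψ
        ≤ Psi W M' * Real.sqrt E2 * Emean W (2 * M') ψ := by
          apply mul_le_mul_of_nonneg_right _ hm'.le
          exact mul_le_mul_of_nonneg_right hsq hS0
      _ = 1 * (Psi W M' * (Real.sqrt E2 * Emean W (2 * M') ψ)) := by ring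
      _ ≤ (128 / ((2 * M' : ℕ) : ℝ) * w') * (Psi W M' * (Real.sqrt E2 * Emean W (2 * M') ψ)) := by
          apply mul_le_mul_of_nonneg_right h2 (by positivity)
      _ = _ := by ring

end Vale.Agent.Lib.P162
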