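import Vale.Agent.Lib.P162.Cube

/-!
The slice of balanced vectors in the cube and its Walsh coefficients.
-/

set_option linter.unusedSectionVars false
set_option linter.unusedVariables false

namespace Vale.Agent.Lib.P162

open Finset

variable {W : Type*} [Fintype W] [DecidableEq W]

/-- Hamming weight. -/
def wt (s : W → Bool) : ℕ := (Finset.univ.filter fun i => s i = true).card

/-- The vectors of weight `M`. -/
def Om (W : Type*) [Fintype W] [DecidableEq W] (M : ℕ) : Finset (W → Bool) :=
  Finset.univ.filter fun s => wt s = M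

theorem mem_Om {M : ℕ} {s : W → Bool} : s ∈ Om W M ↔ wt s = M := by
  simp [Om]

/-- The indicator vector of a set. -/
def indV (S : Finset W) : W → Bool := fun i => decide (i ∈ S)

/-- The support of a vector. -/
def suppV (s : W → Bool) : Finset W := Finset.univ.filter fun i => s i = true

theorem suppV_indV (S : Finset W) : suppV (indV S) = S := by
  ext i; simp [suppV, indV]

theorem indV_suppV (s : W → Bool) : indV (suppV s) = s := by
  funext i
  simp only [indV, suppV, Finset.mem_filter, Finset.mem_univ, true_and]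
  cases s i <;> simp

theorem wt_eq_card (s : W → Bool) : wt s = (suppV s).card := rfl

theorem card_Om (M : ℕ) : (Om W M).card = (Fintype.card W).choose M := by
  rw [← Finset.card_univ, ← Finset.card_powersetCard M (Finset.univ : Finset W)]
  refine Finset.card_nbij' suppV indV ?_ ?_ ?_ ?_
  · intro s hs
    have hs' : wt s = M := mem_Om.1 (Finset.mem_coe.1 hs)
    exact Finset.mem_coe.2 (Finset.mem_powersetCard.2 ⟨Finset.subset_univ _, hs'⟩)
  · intro S hS
    have hS' := (Finset.mem_powersetCard.1 (Finset.mem_coe.1 hS)).2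
    refine Finset.mem_coe.2 ?_
    rw [mem_Om, wt_eq_card, suppV_indV, hS']
  · intro s _; exact indV_suppV s
  · intro S _; exact suppV_indV S

/-- The sum of the signs of a vector. -/
theorem sum_sg (s : W → Bool) : ∑ i, sg (s i) = (Fintype.card W : ℝ) - 2 * wt s := by
  have h : ∀ i, sg (s i) = 1 - 2 * (if s i = true then (1 : ℝ) else 0) := by
    intro i
    cases s i <;> simp
    norm_num
  simp_rw [h]
  rw [Finset.sum_sub_distrib, ← Finset.mul_sum]
  simp [wt, Finset.card_univ]

theorem sum_sg_Om {M : ℕ} (hW : Fintype.card W = 2 * M) {z : W → Bool} (hz : z ∈ Om W M) :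
    ∑ i, sg (z i) = 0 := by
  rw [sum_sg, hW, mem_Om.1 hz]
  push_cast
  ring

theorem chi_univ (s : W → Bool) : chi Finset.univ s = (-1) ^ wt s := by
  unfold chi
  have h : ∀ i, sg (s i) = if s i = true then -1 else 1 := by
    intro i; cases s i <;> simp
  simp_rw [h]
  rw [Finset.prod_ite]
  simp [wt]

theorem chi_univ_Om {M' : ℕ} {z : W → Bool} (hz : z ∈ Om W (2 * M')) : chi Finset.univ z = 1 := by
  rw [chi_univ, mem_Om.1 hz, pow_mul]
  simp

theorem chi_compl (U : Finset W) (s : W → Bool) : chi Uᶜ s * chi U s = chi Finset.univ s := by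
  unfold chi
  rw [mul_comm, Finset.prod_mul_prod_compl]

theorem chi_compl_Om {M' : ℕ} (U : Finset W) {z : W → Bool} (hz : z ∈ Om W (2 * M')) :
    chi Uᶜ z = chi U z := by
  have h1 := chi_compl U z
  rw [chi_univ_Om hz] at h1
  have h2 := chi_mul_self U z
  calc chi Uᶜ z = chi Uᶜ z * (chi U z * chi U z) := by rw [h2, mul_one]
    _ = (chi Uᶜ z * chi U z) * chi U z := by ring
    _ = _ := by rw [h1, one_mul]

/-- The number of vectors orthogonal to a given balanced vector. -/
theorem card_orth {M' : ℕ} (hW : Fintype.card W = 4 * M') {t : W → Bool} (ht : t ∈ Om W (2 * M')) :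
    ((Om W (2 * M')).filter (fun s => bxor s t ∈ Om W (2 * M'))).card
      = ((2 * M').choose M') ^ 2 := by
  set T := suppV t with hT
  have hTc : T.card = 2 * M' := mem_Om.1 ht
  have hTcc : Tᶜ.card = 2 * M' := by
    rw [Finset.card_compl, hW, hTc]; omega
  have hwt : ∀ s : W → Bool, wt (bxor s t) + 2 * (suppV s ∩ T).card = wt s + T.card := by
    intro s
    have h1 : suppV (bxor s t) = (suppV s \ T) ∪ (T \ suppV s) := by
      ext i
      simp only [suppV, bxor, hT, Finset.mem_filter, Finset.mem_univ, true_and, Finset.mem_union,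
        Finset.mem_sdiff]
      by_cases h1 : s i = true <;> by_cases h2 : t i = true <;> simp [h1, h2]
    have h2 : wt (bxor s t) = (suppV s \ T).card + (T \ suppV s).card := by
      rw [wt_eq_card, h1, Finset.card_union_of_disjoint]
      rw [Finset.disjoint_left]
      intro i hi hi'
      exact (Finset.mem_sdiff.1 hi).2 (Finset.mem_sdiff.1 hi').1
    have h3 := Finset.card_sdiff_add_card_inter (suppV s) T
    have h4 := Finset.card_sdiff_add_card_inter T (suppV s)
    rw [Finset.inter_comm] at h4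
    rw [h2, wt_eq_card]
    omega
  have hpow : ((2 * M').choose M') ^ 2
      = ((T.powersetCard M') ×ˢ (Tᶜ.powersetCard M')).card := by
    rw [Finset.card_product, Finset.card_powersetCard, Finset.card_powersetCard, hTc, hTcc, sq]
  rw [hpow]
  refine Finset.card_nbij' (fun s => (suppV s ∩ T, suppV s ∩ Tᶜ))
    (fun A => indV (A.1 ∪ A.2)) ?_ ?_ ?_ ?_
  · intro s hs
    have hs := Finset.mem_filter.1 (Finset.mem_coe.1 hs)
    obtain ⟨hs1, hs2⟩ := hs
    rw [mem_Om] at hs1 hs2
    have h5 := hwt s
    rw [hs1, hs2, hTc] at h5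
    have h6 : (suppV s ∩ T).card = M' := by omega
    have h7 : (suppV s ∩ Tᶜ).card = M' := by
      have h8 : (suppV s ∩ T).card + (suppV s ∩ Tᶜ).card = (suppV s).card := by
        rw [← Finset.card_union_of_disjoint]
        · congr 1
          rw [← Finset.inter_union_distrib_left, Finset.union_compl, Finset.inter_univ]
        · exact Finset.disjoint_of_subset_left Finset.inter_subset_right
            (Finset.disjoint_of_subset_right Finset.inter_subset_right disjoint_compl_right)
      rw [← wt_eq_card, hs1, h6] at h8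
      omega
    exact Finset.mem_coe.2 (Finset.mem_product.2 ⟨Finset.mem_powersetCard.2 ⟨Finset.inter_subset_right, h6⟩,
      Finset.mem_powersetCard.2 ⟨Finset.inter_subset_right, h7⟩⟩)
  · rintro ⟨A, B⟩ hAB
    obtain ⟨hAB1, hAB2⟩ := Finset.mem_product.1 (Finset.mem_coe.1 hAB)
    obtain ⟨hA, hAc⟩ := Finset.mem_powersetCard.1 hAB1
    obtain ⟨hB, hBc⟩ := Finset.mem_powersetCard.1 hAB2
    have hdisj : Disjoint A B :=
      Finset.disjoint_of_subset_left hA (Finset.disjoint_of_subset_right hB disjoint_compl_right)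
    have hs : suppV (indV (A ∪ B)) = A ∪ B := suppV_indV _
    have hc : (A ∪ B).card = 2 * M' := by
      rw [Finset.card_union_of_disjoint hdisj, hAc, hBc]; omega
    have hint : (A ∪ B) ∩ T = A := by
      ext i
      simp only [Finset.mem_inter, Finset.mem_union]
      constructor
      · rintro ⟨h | h, h'⟩
        · exact h
        · exact absurd h' (Finset.mem_compl.1 (hB h))
      · intro h; exact ⟨Or.inl h, hA h⟩
    have hw1 : wt (indV (A ∪ B)) = 2 * M' := by rw [wt_eq_card, hs, hc]
    have h5 := hwt (indV (A ∪ B))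
    rw [hs, hint, hAc, hTc, hw1] at h5
    refine Finset.mem_coe.2 (Finset.mem_filter.2 ⟨mem_Om.2 hw1, mem_Om.2 ?_⟩)
    show wt (bxor (indV (A ∪ B)) t) = 2 * M'
    omega
  · intro s _
    simp only
    rw [← Finset.inter_union_distrib_left, Finset.union_compl, Finset.inter_univ, indV_suppV]
  · rintro ⟨A, B⟩ hAB
    obtain ⟨hAB1, hAB2⟩ := Finset.mem_product.1 (Finset.mem_coe.1 hAB)
    obtain ⟨hA, hAc⟩ := Finset.mem_powersetCard.1 hAB1
    obtain ⟨hB, hBc⟩ := Finset.mem_powersetCard.1 hAB2
    simp only [suppV_indV]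
    ext i
    · simp only [Finset.mem_inter, Finset.mem_union]
      constructor
      · rintro ⟨h | h, h'⟩
        · exact h
        · exact absurd h' (Finset.mem_compl.1 (hB h))
      · intro h; exact ⟨Or.inl h, hA h⟩
    · simp only [Finset.mem_inter, Finset.mem_union]
      constructor
      · rintro ⟨h | h, h'⟩
        · exact absurd (hA h) (Finset.mem_compl.1 h')
        · exact h
      · intro h; exact ⟨Or.inr h, hB h⟩

/-! ### The sums of characters over the slice -/

/-- The sum of a character over the slice. -/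
noncomputable def EE (M : ℕ) (U : Finset W) : ℝ := ∑ z ∈ Om W M, chi U z

theorem wt_comp_perm (σ : Equiv.Perm W) (z : W → Bool) : wt (z ∘ σ) = wt z := by
  unfold wt
  refine Finset.card_bijective σ σ.bijective ?_
  intro i
  simp

theorem chi_image_perm (σ : Equiv.Perm W) (U : Finset W) (z : W → Bool) :
    chi (U.image σ) z = chi U (z ∘ σ) := by
  unfold chi
  rw [Finset.prod_image (fun a _ b _ h => σ.injective h)]
  rfl

theorem EE_image_perm (M : ℕ) (σ : Equiv.Perm W) (U : Finset W) :
    EE M (U.image σ) = EE M U := by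
  unfold EE
  simp_rw [chi_image_perm]
  refine Finset.sum_nbij' (fun z => z ∘ σ) (fun z => z ∘ σ.symm) ?_ ?_ ?_ ?_ ?_
  · intro z hz
    rw [mem_Om] at hz ⊢
    rw [wt_comp_perm, hz]
  · intro z hz
    rw [mem_Om] at hz ⊢
    rw [wt_comp_perm, hz]
  · intro z _
    funext i; simp
  · intro z _
    funext i; simp
  · intro z _; rfl

theorem EE_insert_swap (M : ℕ) (U : Finset W) {i j : W} (hi : i ∉ U) (hj : j ∉ U) :
    EE M (insert j U) = EE M (insert i U) := by
  rw [← EE_image_perm M (Equiv.swap i j) (insert i U)]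
  congr 1
  rw [Finset.image_insert, Equiv.swap_apply_left]
  congr 1
  ext a
  simp only [Finset.mem_image]
  constructor
  · intro ha
    refine ⟨a, ha, ?_⟩
    have h1 : a ≠ i := fun h => hi (h ▸ ha)
    have h2 : a ≠ j := fun h => hj (h ▸ ha)
    exact Equiv.swap_apply_of_ne_of_ne h1 h2
  · rintro ⟨b, hb, rfl⟩
    have h1 : b ≠ i := fun h => hi (h ▸ hb)
    have h2 : b ≠ j := fun h => hj (h ▸ hb)
    rw [Equiv.swap_apply_of_ne_of_ne h1 h2]
    exact hb

/-- The recurrence from the balance of the slice. -/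
theorem EE_recurrence {M : ℕ} (hW : Fintype.card W = 2 * M) (U : Finset W) :
    ∑ j ∈ Uᶜ, EE M (insert j U) + ∑ j ∈ U, EE M (U.erase j) = 0 := by
  have h1 : ∀ z ∈ Om W M, ∑ j ∈ Uᶜ, chi (insert j U) z + ∑ j ∈ U, chi (U.erase j) z = 0 := by
    intro z hz
    have h2 : chi U z * ∑ j, sg (z j) = 0 := by rw [sum_sg_Om hW hz, mul_zero]
    rw [← Finset.sum_add_sum_compl U, mul_add, Finset.mul_sum, Finset.mul_sum] at h2
    have h3 : ∀ j ∈ Uᶜ, chi U z * sg (z j) = chi (insert j U) z := by
      intro j hj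
      unfold chi
      rw [Finset.prod_insert (Finset.mem_compl.1 hj), mul_comm]
    have h4 : ∀ j ∈ U, chi U z * sg (z j) = chi (U.erase j) z := by
      intro j hj
      unfold chi
      rw [← Finset.mul_prod_erase U _ hj]
      have := sg_mul_self (z j)
      calc (sg (z j) * ∏ x ∈ U.erase j, sg (z x)) * sg (z j)
          = (sg (z j) * sg (z j)) * ∏ x ∈ U.erase j, sg (z x) := by ring
        _ = _ := by rw [this, one_mul]
    rw [Finset.sum_congr rfl h3, Finset.sum_congr rfl h4] at h2
    linarith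
  unfold EE
  have h5 : ∑ j ∈ Uᶜ, ∑ z ∈ Om W M, chi (insert j U) z + ∑ j ∈ U, ∑ z ∈ Om W M, chi (U.erase j) z
      = ∑ z ∈ Om W M, (∑ j ∈ Uᶜ, chi (insert j U) z + ∑ j ∈ U, chi (U.erase j) z) := by
    rw [Finset.sum_add_distrib, Finset.sum_comm, Finset.sum_comm (s := U)]
  rw [h5]
  exact Finset.sum_eq_zero h1

/-- The values of the normalized characters of the slice on the levels. -/
noncomputable def gk (N : ℕ) : ℕ → ℝ
  | 0 => 1
  | 1 => 0
  | (k + 2) => - (((k : ℝ) + 1) / ((N : ℝ) - ((k : ℝ) + 1))) * gk N k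

theorem EE_eq {M : ℕ} (hW : Fintype.card W = 2 * M) (hM : 1 ≤ M) :
    ∀ k, k ≤ 2 * M → ∀ U : Finset W, U.card = k →
      EE M U = gk (2 * M) k * (Om W M).card := by
  intro k
  induction k using Nat.strong_induction_on with
  | _ k ih =>
    intro hk U hU
    match k, ih, hk, hU with
    | 0, _, _, hU =>
      rw [Finset.card_eq_zero] at hU
      subst hU
      simp [EE, chi, gk]
    | 1, _, _, hU =>
      obtain ⟨i, rfl⟩ := Finset.card_eq_one.1 hU
      have h := EE_recurrence (M := M) hW (∅ : Finset W)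
      simp only [Finset.compl_empty, Finset.sum_empty, add_zero] at h
      have h2 : ∀ j ∈ (Finset.univ : Finset W), EE M (insert j (∅ : Finset W)) = EE M {i} := by
        intro j _
        have := EE_insert_swap M (∅ : Finset W) (i := i) (j := j) (by simp) (by simp)
        simpa using this
      rw [Finset.sum_congr rfl h2, Finset.sum_const, Finset.card_univ, hW, nsmul_eq_mul] at h
      have hN : ((2 * M : ℕ) : ℝ) ≠ 0 := by
        have : 2 * M ≠ 0 := by omega
        exact_mod_cast this
      have h3 : EE M {i} = 0 := by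
        rcases mul_eq_zero.1 h with h | h
        · exact absurd h hN
        · exact h
      rw [h3]
      simp [gk]
    | (k + 2), ih, hk, hU =>
      have hne : U.Nonempty := by
        rw [← Finset.card_pos, hU]; omega
      obtain ⟨i, hi⟩ := hne
      set U0 := U.erase i with hU0
      have hU0c : U0.card = k + 1 := by
        rw [hU0, Finset.card_erase_of_mem hi, hU]; rfl
      have hiU0 : i ∉ U0 := Finset.notMem_erase i U
      have hUins : insert i U0 = U := Finset.insert_erase hi
      have hrec := EE_recurrence (M := M) hW U0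
      have h1 : ∀ j ∈ U0ᶜ, EE M (insert j U0) = EE M U := by
        intro j hj
        rw [← hUins]
        exact EE_insert_swap M U0 hiU0 (Finset.mem_compl.1 hj)
      have h2 : ∀ j ∈ U0, EE M (U0.erase j) = gk (2 * M) k * (Om W M).card := by
        intro j hj
        refine ih k (by omega) (by omega) _ ?_
        rw [Finset.card_erase_of_mem hj, hU0c]; rfl
      rw [Finset.sum_congr rfl h1, Finset.sum_congr rfl h2, Finset.sum_const, Finset.sum_const,
        Finset.card_compl, hU0c, hW, nsmul_eq_mul, nsmul_eq_mul] at hrec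
      have hcast : ((2 * M - (k + 1) : ℕ) : ℝ) = ((2 * M : ℕ) : ℝ) - ((k : ℝ) + 1) := by
        rw [Nat.cast_sub (by omega)]
        push_cast
        ring
      rw [hcast] at hrec
      have hpos : (0 : ℝ) < ((2 * M : ℕ) : ℝ) - ((k : ℝ) + 1) := by
        have : ((k + 1 : ℕ) : ℝ) < ((2 * M : ℕ) : ℝ) := by
          exact_mod_cast (by omega : k + 1 < 2 * M)
        push_cast at this ⊢
        linarith
      have hgk : gk (2 * M) (k + 2)
          = - (((k : ℝ) + 1) / (((2 * M : ℕ) : ℝ) - ((k : ℝ) + 1))) * gk (2 * M) k := rfl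
      rw [hgk]
      field_simp
      push_cast at hrec ⊢
      linarith

/-- `a_j`, the modulus of the normalized character sum on the level `2j`. -/
noncomputable def aj (N : ℕ) : ℕ → ℝ
  | 0 => 1
  | (j + 1) => aj N j * ((2 * (j : ℝ) + 1) / ((N : ℝ) - (2 * (j : ℝ) + 1)))

theorem gk_odd (N j : ℕ) : gk N (2 * j + 1) = 0 := by
  induction j with
  | zero => rfl
  | succ j ih =>
    have : 2 * (j + 1) + 1 = (2 * j + 1) + 2 := by ring
    rw [this]
    show - (_ / _) * gk N (2 * j + 1) = 0
    rw [ih, mul_zero]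

theorem abs_gk_even (N j : ℕ) (hj : 2 * j ≤ N) : |gk N (2 * j)| = aj N j := by
  induction j with
  | zero => simp [gk, aj]
  | succ j ih =>
    have h1 := ih (by omega)
    have : 2 * (j + 1) = 2 * j + 2 := by ring
    rw [this]
    show |(- (((2 * j : ℕ) + 1 : ℝ) / ((N : ℝ) - (((2 * j : ℕ) : ℝ) + 1))) * gk N (2 * j))| = aj N (j + 1)
    rw [abs_mul, abs_neg, h1]
    show _ = aj N j * _
    rw [mul_comm]
    congr 1
    have hN : ((2 * j + 2 : ℕ) : ℝ) ≤ (N : ℝ) := by exact_mod_cast (by omega : 2 * j + 2 ≤ N)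
    push_cast at hN ⊢
    have : 0 ≤ (2 * (j : ℝ) + 1) / ((N : ℝ) - (2 * (j : ℝ) + 1)) := by
      apply div_nonneg <;> [positivity; linarith]
    rw [abs_of_nonneg this]

theorem aj_nonneg (N j : ℕ) (hj : 2 * j ≤ N) : 0 ≤ aj N j := by
  rw [← abs_gk_even N j hj]
  exact abs_nonneg _

/-- Monotonicity of `a_j` in the lower half. -/
theorem aj_succ_le (M j : ℕ) (hj : 2 * (j + 1) ≤ M) : aj (2 * M) (j + 1) ≤ aj (2 * M) j := by
  have h0 := aj_nonneg (2 * M) j (by omega)
  show aj (2 * M) j * _ ≤ _
  have hM : ((2 * (j + 1) : ℕ) : ℝ) ≤ (M : ℝ) := by exact_mod_cast hj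
  push_cast at hM ⊢
  have hj0 : (0 : ℝ) ≤ j := Nat.cast_nonneg j
  have : (2 * (j : ℝ) + 1) / (2 * (M : ℝ) - (2 * (j : ℝ) + 1)) ≤ 1 := by
    rw [div_le_one (by linarith)]
    linarith
  nlinarith

theorem aj_antitone (M j₀ j : ℕ) (h : j₀ ≤ j) (hj : 2 * j ≤ M) :
    aj (2 * M) j ≤ aj (2 * M) j₀ := by
  induction j, h using Nat.le_induction with
  | base => exact le_rfl
  | succ j hj0 ih => exact le_trans (aj_succ_le M j hj) (ih (by omega))

theorem aj_one (N : ℕ) : aj N 1 = 1 / ((N : ℝ) - 1) := by
  show aj N 0 * _ = _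
  simp [aj]

/-- The first bound for `a_j`. -/
theorem aj_le_inv (M j : ℕ) (hM : 1 ≤ M) (h1 : 1 ≤ j) (hj : 2 * j ≤ M) :
    aj (2 * M) j ≤ 1 / (M : ℝ) := by
  refine le_trans (aj_antitone M 1 j h1 hj) ?_
  rw [aj_one]
  have hM' : (1 : ℝ) ≤ M := by exact_mod_cast hM
  push_cast
  apply one_div_le_one_div_of_le (by linarith)
  linarith

/-- The second bound for `a_j`. -/
theorem aj_le_pow (M j i : ℕ) (hM : 1 ≤ M) (hi : i ≤ j) (hj : 2 * j ≤ M) :
    aj (2 * M) i ≤ (2 * (j : ℝ) / M) ^ i := by
  have hM' : (1 : ℝ) ≤ M := by exact_mod_cast hM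
  induction i with
  | zero => simp [aj]
  | succ i ih =>
    have h0 := aj_nonneg (2 * M) i (by omega)
    have h1 := ih (by omega)
    show aj (2 * M) i * _ ≤ _
    rw [pow_succ]
    have hfac : (2 * (i : ℝ) + 1) / (((2 * M : ℕ) : ℝ) - (2 * (i : ℝ) + 1)) ≤ 2 * (j : ℝ) / M := by
      have hij : ((i + 1 : ℕ) : ℝ) ≤ j := by exact_mod_cast hi
      have hjM : ((2 * j : ℕ) : ℝ) ≤ M := by exact_mod_cast hj
      push_cast at hij hjM ⊢
      have hi0 : (0 : ℝ) ≤ i := Nat.cast_nonneg i
      rw [div_le_div_iff₀ (by linarith) (by linarith)]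
      nlinarith
    have hp : 0 ≤ (2 * (j : ℝ) / M) ^ i := by positivity
    have hq : 0 ≤ (2 * (i : ℝ) + 1) / (((2 * M : ℕ) : ℝ) - (2 * (i : ℝ) + 1)) := by
      apply div_nonneg (by positivity)
      have hij : ((i + 1 : ℕ) : ℝ) ≤ j := by exact_mod_cast hi
      have hjM : ((2 * j : ℕ) : ℝ) ≤ M := by exact_mod_cast hj
      push_cast at hij hjM ⊢
      linarith
    exact mul_le_mul h1 hfac hq hp

end Vale.Agent.Lib.P162
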