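import Mathlib

/-!
Definitions of the Thorp shuffle, its law, convolution powers, total variation and mixing time.
-/

namespace Vale.Agent.Lib.P162

open Finset

/-- The position map of one Thorp shuffle of a deck of `2 * m` cards (positions counted from `0`)
with the coins `c`: the cards in positions `i` and `m + i` are placed in positions `2 * i` and
`2 * i + 1`, the card from position `i` going first when `c i = false` and second when
`c i = true`. -/
def thorpFun (m : ℕ) (c : Fin m → Bool) (p : Fin (2 * m)) : Fin (2 * m) :=
  if h : p.val < m then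
    ⟨2 * p.val + (c ⟨p.val, h⟩).toNat, by
      have h1 := Bool.toNat_le (c ⟨p.val, h⟩)
      omega⟩
  else
    ⟨2 * (p.val - m) + (!c ⟨p.val - m, by have := p.2; omega⟩).toNat, by
      have h1 := Bool.toNat_le (!c ⟨p.val - m, by have := p.2; omega⟩)
      have := p.2
      omega⟩

/-- The law `q` of the permutation of positions produced by one Thorp shuffle of `2 * m` cards:
the probability of `g` is the fraction of the `2 ^ m` coin vectors whose position map is `g`. -/
noncomputable def thorpLaw (m : ℕ) (g : Equiv.Perm (Fin (2 * m))) : ℝ :=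
  ((Finset.univ.filter fun c : Fin m → Bool => ∀ p, g p = thorpFun m c p).card : ℝ) / 2 ^ m

/-- Convolution of two functions on the symmetric group. -/
noncomputable def conv {n : ℕ} (α β : Equiv.Perm (Fin n) → ℝ) (g : Equiv.Perm (Fin n)) : ℝ :=
  ∑ h, α h * β (h⁻¹ * g)

/-- The convolution powers `q^{*t}`. -/
noncomputable def convPow {n : ℕ} (q : Equiv.Perm (Fin n) → ℝ) :
    ℕ → Equiv.Perm (Fin n) → ℝ
  | 0 => fun g => if g = 1 then 1 else 0
  | t + 1 => conv q (convPow q t)

/-- The uniform law on the symmetric group. -/
noncomputable def unifLaw (n : ℕ) (_ : Equiv.Perm (Fin n)) : ℝ := 1 / (n.factorial : ℝ)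

/-- Total variation distance. -/
noncomputable def tv {n : ℕ} (α β : Equiv.Perm (Fin n) → ℝ) : ℝ :=
  (1 / 2) * ∑ g, |α g - β g|

/-- The mixing time of the Thorp shuffle of `2 * m` cards. -/
noncomputable def tmix (m : ℕ) : ℕ :=
  sInf {t : ℕ | tv (convPow (thorpLaw m) t) (unifLaw (2 * m)) ≤ 1 / 4}

end Vale.Agent.Lib.P162
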