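import Vale.Agent.Lib.P162.Chain
import Vale.Agent.Lib.P162.ThorpDefs

/-!
The Thorp shuffle in binary coordinates, and the final bound.
-/

set_option linter.unusedSectionVars false
set_option linter.unusedVariables false

namespace Vale.Agent.Lib.P162

open Finset

/-- The binary value of a bit vector, the first coordinate being the most significant. -/
def bitsVal : ∀ d : ℕ, (Fin d → Bool) → ℕ
  | 0, _ => 0
  | d + 1, x => (x 0).toNat * 2 ^ d + bitsVal d (Fin.tail x)

theorem bitsVal_lt : ∀ (d : ℕ) (x : Fin d → Bool), bitsVal d x < 2 ^ d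
  | 0, _ => by simp [bitsVal]
  | d + 1, x => by
    have h := bitsVal_lt d (Fin.tail x)
    simp only [bitsVal]
    have h1 := Nat.mul_le_mul_right (2 ^ d) (Bool.toNat_le (x 0))
    rw [pow_succ]
    omega

theorem bitsVal_inj : ∀ (d : ℕ) (x y : Fin d → Bool), bitsVal d x = bitsVal d y → x = y
  | 0, x, y, _ => Subsingleton.elim x y
  | d + 1, x, y, h => by
    simp only [bitsVal] at h
    have hx := bitsVal_lt d (Fin.tail x)
    have hy := bitsVal_lt d (Fin.tail y)
    have h0 : x 0 = y 0 := by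
      cases hx0 : x 0 <;> cases hy0 : y 0 <;> simp [hx0, hy0] at h ⊢ <;> omega
    have ht : bitsVal d (Fin.tail x) = bitsVal d (Fin.tail y) := by
      rw [h0] at h
      omega
    have h2 := bitsVal_inj d _ _ ht
    funext j
    exact Fin.cases h0 (fun j => congrFun h2 j) j

theorem bitsVal_snoc : ∀ (d : ℕ) (x : Fin (d + 1) → Bool),
    bitsVal (d + 1) x = 2 * bitsVal d (Fin.init x) + (x (Fin.last d)).toNat
  | 0, x => by
    simp [bitsVal, Fin.last]
  | d + 1, x => by
    have ih := bitsVal_snoc d (Fin.tail x)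
    show (x 0).toNat * 2 ^ (d + 1) + bitsVal (d + 1) (Fin.tail x)
      = 2 * ((Fin.init x 0).toNat * 2 ^ d + bitsVal d (Fin.tail (Fin.init x)))
        + (x (Fin.last (d + 1))).toNat
    rw [ih]
    have h1 : Fin.init (Fin.tail x) = Fin.tail (Fin.init x) := rfl
    have h2 : Fin.tail x (Fin.last d) = x (Fin.last (d + 1)) := rfl
    have h3 : Fin.init x 0 = x 0 := rfl
    rw [h1, h2, h3, pow_succ]
    ring

/-- Bit vectors as positions. -/
def bE (d : ℕ) (x : QQ (d + 1)) : Fin (2 * 2 ^ d) :=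
  ⟨bitsVal (d + 1) x, by
    have := bitsVal_lt (d + 1) x
    rw [pow_succ] at this
    omega⟩

theorem bE_val (d : ℕ) (x : QQ (d + 1)) : (bE d x).val = bitsVal (d + 1) x := rfl

theorem bE_bij (d : ℕ) : Function.Bijective (bE d) := by
  rw [Fintype.bijective_iff_injective_and_card]
  constructor
  · intro x y h
    exact bitsVal_inj _ _ _ (congrArg Fin.val h)
  · simp only [Fintype.card_pi, Finset.prod_const, Finset.card_univ, Fintype.card_fin,
      Fintype.card_bool]
    rw [pow_succ]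
    ring

/-- The bijection between bit vectors and positions. -/
noncomputable def bitsEquiv (d : ℕ) : QQ (d + 1) ≃ Fin (2 * 2 ^ d) :=
  Equiv.ofBijective (bE d) (bE_bij d)

theorem bitsEquiv_apply (d : ℕ) (x : QQ (d + 1)) : bitsEquiv d x = bE d x := rfl

/-- The rotation of the coordinates. -/
def rotP (d : ℕ) : GG (d + 1) where
  toFun := fun x j => x (j + 1)
  invFun := fun x j => x (j - 1)
  left_inv := by
    intro x
    funext j
    simp
  right_inv := by
    intro x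
    funext j
    simp

theorem rotP_apply (d : ℕ) (x : QQ (d + 1)) (j : Fin (d + 1)) : rotP d x j = x (j + 1) := rfl

/-- The index of a coin. -/
def aF (d : ℕ) (w : {w : QQ (d + 1) // w 0 = false}) : Fin (2 ^ d) :=
  ⟨bitsVal d (Fin.tail w.1), bitsVal_lt _ _⟩

theorem aF_bij (d : ℕ) : Function.Bijective (aF d) := by
  rw [Fintype.bijective_iff_injective_and_card]
  constructor
  · intro x y h
    apply Subtype.ext
    have h1 := bitsVal_inj _ _ _ (congrArg Fin.val h)
    funext j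
    refine Fin.cases ?_ (fun j => congrFun h1 j) j
    rw [x.2, y.2]
  · rw [card_half]
    simp

/-- The coin vector of a Thorp shuffle, indexed by the bit vectors with first coordinate zero. -/
def ccoin (d : ℕ) (c : Fin (2 ^ d) → Bool) : {w : QQ (d + 1) // w 0 = false} → Bool :=
  fun w => c (aF d w)

theorem thorpFun_val_lt {m : ℕ} (c : Fin m → Bool) (p : Fin (2 * m)) {a : ℕ} (ha : a < m)
    (hp : p.val = a) : (thorpFun m c p).val = 2 * a + (c ⟨a, ha⟩).toNat := by
  subst hp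
  unfold thorpFun
  rw [dif_pos ha]

theorem thorpFun_val_ge {m : ℕ} (c : Fin m → Bool) (p : Fin (2 * m)) {a : ℕ} (ha : a < m)
    (hp : p.val = m + a) : (thorpFun m c p).val = 2 * a + (!c ⟨a, ha⟩).toNat := by
  unfold thorpFun
  have h1 : ¬ p.val < m := by omega
  rw [dif_neg h1]
  have h2 : p.val - m = a := by omega
  simp only [h2]

/-- The Thorp shuffle in binary coordinates: flip the first coordinate by the coin of the others,
then rotate the coordinates. -/
theorem thorp_bits (d : ℕ) (c : Fin (2 ^ d) → Bool) (x : QQ (d + 1)) :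
    thorpFun (2 ^ d) c (bE d x) = bE d (rotP d (flipc 0 (ccoin d c) x)) := by
  set a := bitsVal d (Fin.tail x) with hadef
  have ha : a < 2 ^ d := bitsVal_lt _ _
  set y := flipc 0 (ccoin d c) x with hy
  have hcoin : ccoin d c (maskF 0 x) = c ⟨a, ha⟩ := by
    unfold ccoin
    have : Fin.tail (maskF 0 x).1 = Fin.tail x := by
      funext j
      simp [Fin.tail, maskF, Function.update_of_ne (Fin.succ_ne_zero j)]
    have h2 : aF d (maskF 0 x) = ⟨a, ha⟩ := by
      apply Fin.ext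
      simp only [aF]
      rw [this]
    rw [h2]
  have hy0 : y 0 = xor (x 0) (c ⟨a, ha⟩) := by
    rw [hy, flipc_self, hcoin]
  have htail : Fin.tail y = Fin.tail x := by
    funext j
    simp only [Fin.tail]
    rw [hy, flipc_ne (Fin.succ_ne_zero j)]
  have h1 : bitsVal (d + 1) (rotP d y) = 2 * a + (y 0).toNat := by
    rw [bitsVal_snoc]
    have h2 : Fin.init (⇑(rotP d) y) = Fin.tail y := by
      funext j
      simp only [Fin.init, Fin.tail, rotP_apply, Fin.coeSucc_eq_succ]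
    have h3 : (rotP d y) (Fin.last d) = y 0 := by
      rw [rotP_apply, Fin.last_add_one]
    rw [h2, h3, htail]
  have h2 : bitsVal (d + 1) x = (x 0).toNat * 2 ^ d + a := rfl
  apply Fin.ext
  rw [bE_val d (rotP d y), h1, hy0]
  cases hx0 : x 0 with
  | false =>
    rw [thorpFun_val_lt c (bE d x) ha (by rw [bE_val, h2, hx0]; simp)]
    simp
  | true =>
    rw [thorpFun_val_ge c (bE d x) ha (by rw [bE_val, h2, hx0]; simp)]
    simp

/-- Conjugation by the binary coordinates. -/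
noncomputable def Psi' (d : ℕ) : GG (d + 1) ≃* Equiv.Perm (Fin (2 * 2 ^ d)) :=
  (bitsEquiv d).permCongrHom

theorem Psi'_apply (d : ℕ) (g : GG (d + 1)) (x : QQ (d + 1)) :
    Psi' d g (bitsEquiv d x) = bitsEquiv d (g x) := by
  simp [Psi', Equiv.permCongrHom, Equiv.permCongr]

/-- The permutation of a coin vector. -/
noncomputable def sigma (d : ℕ) (c : Fin (2 ^ d) → Bool) : Equiv.Perm (Fin (2 * 2 ^ d)) :=
  Psi' d (rotP d * flipP 0 (ccoin d c))

theorem sigma_apply (d : ℕ) (c : Fin (2 ^ d) → Bool) (p : Fin (2 * 2 ^ d)) :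
    sigma d c p = thorpFun (2 ^ d) c p := by
  obtain ⟨x, rfl⟩ := (bitsEquiv d).surjective p
  unfold sigma
  rw [Psi'_apply, bitsEquiv_apply, bitsEquiv_apply, thorp_bits]
  rfl

theorem sum_thorpLaw (d : ℕ) (f : Equiv.Perm (Fin (2 * 2 ^ d)) → ℝ) :
    ∑ g, thorpLaw (2 ^ d) g * f g = (∑ c, f (sigma d c)) / 2 ^ (2 ^ d) := by
  classical
  have h1 : ∀ g, thorpLaw (2 ^ d) g * f g
      = (∑ c : Fin (2 ^ d) → Bool, if g = sigma d c then f g else 0) / 2 ^ (2 ^ d) := by
    intro g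
    unfold thorpLaw
    have h2 : (Finset.univ.filter fun c : Fin (2 ^ d) → Bool => ∀ p, g p = thorpFun (2 ^ d) c p)
        = Finset.univ.filter fun c : Fin (2 ^ d) → Bool => g = sigma d c := by
      ext c
      simp only [Finset.mem_filter, Finset.mem_univ, true_and]
      constructor
      · intro h
        ext1 p
        rw [h p, sigma_apply]
      · rintro h p
        rw [h, sigma_apply]
    rw [h2, div_mul_eq_mul_div]
    congr 1
    rw [← Finset.sum_filter, Finset.sum_const, nsmul_eq_mul]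
  simp_rw [h1]
  rw [← Finset.sum_div, Finset.sum_comm]
  congr 1
  refine Finset.sum_congr rfl fun c _ => ?_
  simp

theorem sum_flip_coin (d : ℕ) (f : GG (d + 1) → ℝ) :
    ∑ c : Fin (2 ^ d) → Bool, f (flipP 0 (ccoin d c)) = ∑ u ∈ HS (0 : Fin (d + 1)), f u := by
  rw [sum_HS]
  let e : {w : QQ (d + 1) // w 0 = false} ≃ Fin (2 ^ d) := Equiv.ofBijective (aF d) (aF_bij d)
  let E : (Fin (2 ^ d) → Bool) ≃ ({w : QQ (d + 1) // w 0 = false} → Bool) :=
    (e.arrowCongr (Equiv.refl Bool)).symm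
  have hE : ∀ c, ccoin d c = E c := fun c => rfl
  simp_rw [hE]
  exact Equiv.sum_comp E (fun c => f (flipP 0 c))

/-- The convolution powers in binary coordinates. -/
noncomputable def beta (d t : ℕ) : GG (d + 1) → ℝ :=
  fun g => convPow (thorpLaw (2 ^ d)) t (Psi' d g)

theorem beta_succ (d t : ℕ) (g : GG (d + 1)) :
    beta d (t + 1) g = PP 0 (beta d t) ((rotP d)⁻¹ * g) := by
  unfold beta
  show conv (thorpLaw (2 ^ d)) (convPow (thorpLaw (2 ^ d)) t) (Psi' d g) = _
  unfold conv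
  rw [sum_thorpLaw d (fun h => convPow (thorpLaw (2 ^ d)) t (h⁻¹ * Psi' d g))]
  unfold PP
  rw [card_HS_eq]
  have h1 : ∀ c : Fin (2 ^ d) → Bool, convPow (thorpLaw (2 ^ d)) t ((sigma d c)⁻¹ * Psi' d g)
      = (fun u => convPow (thorpLaw (2 ^ d)) t (Psi' d (u * ((rotP d)⁻¹ * g)))) (flipP 0 (ccoin d c)) := by
    intro c
    unfold sigma
    simp only
    rw [← map_inv, ← map_mul, mul_inv_rev, flipP_inv, mul_assoc]
  simp_rw [h1]
  have h2 : ∑ c : Fin (2 ^ d) → Bool, convPow (thorpLaw (2 ^ d)) t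
        (Psi' d (flipP 0 (ccoin d c) * ((rotP d)⁻¹ * g)))
      = ∑ u ∈ HS (0 : Fin (d + 1)), convPow (thorpLaw (2 ^ d)) t (Psi' d (u * ((rotP d)⁻¹ * g))) :=
    sum_flip_coin d (fun u => convPow (thorpLaw (2 ^ d)) t (Psi' d (u * ((rotP d)⁻¹ * g))))
  rw [h2, Nat.add_sub_cancel]
  push_cast
  rfl

theorem beta_zero_isLaw (d : ℕ) : IsLaw (beta d 0) := by
  classical
  have h : ∀ g, beta d 0 g = if g = 1 then 1 else 0 := by
    intro g
    unfold beta
    show (if Psi' d g = 1 then (1 : ℝ) else 0) = _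
    by_cases hg : g = 1
    · rw [if_pos hg, if_pos]
      rw [hg, map_one]
    · rw [if_neg hg, if_neg]
      intro h1
      apply hg
      exact (Psi' d).injective (by rw [h1, map_one])
  constructor
  · intro g
    rw [h]
    split_ifs <;> norm_num
  · simp_rw [h]
    simp

theorem isLaw_translate {D : ℕ} {μ : GG D → ℝ} (hμ : IsLaw μ) (a : GG D) :
    IsLaw (fun g => μ (a * g)) := by
  constructor
  · intro g
    exact hμ.1 _
  · rw [← hμ.2]
    exact Equiv.sum_comp (Equiv.mulLeft a) μ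

theorem hh_translate {D : ℕ} (μ : GG D → ℝ) (a : GG D) :
    hh (fun g => μ (a * g)) Finset.univ = hh μ Finset.univ := by
  rw [hh_univ, hh_univ]
  congr 1
  exact Equiv.sum_comp (Equiv.mulLeft a) (fun g => μ g * Real.log (μ g))

theorem beta_isLaw (d t : ℕ) : IsLaw (beta d t) := by
  induction t with
  | zero => exact beta_zero_isLaw d
  | succ t ih =>
    have h : beta d (t + 1) = fun g => PP 0 (beta d t) ((rotP d)⁻¹ * g) := by
      funext g
      exact beta_succ d t g
    rw [h]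
    exact isLaw_translate (PP_isLaw 0 ih) _

/-! ### Conjugation by powers of the rotation -/

/-- The residue of `j` in `Fin (d + 1)`. -/
def jj (d : ℕ) : ℕ → Fin (d + 1)
  | 0 => 0
  | j + 1 => jj d j + 1

theorem jj_val (d j : ℕ) (hj : j < d + 1) : (jj d j).val = j := by
  induction j with
  | zero => rfl
  | succ j ih =>
    have h1 := ih (by omega)
    have h2 : jj d j ≠ Fin.last d := by
      intro h
      rw [h] at h1
      simp only [Fin.val_last] at h1
      omega
    simp only [jj]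
    rw [Fin.val_add_one, if_neg h2, h1]

theorem rot_pow_apply (d j : ℕ) (x : QQ (d + 1)) (l : Fin (d + 1)) :
    (((rotP d) ^ j) x) l = x (l + jj d j) := by
  induction j generalizing x with
  | zero => simp [jj]
  | succ j ih =>
    rw [pow_succ, Equiv.Perm.mul_apply, ih, rotP_apply]
    congr 1
    simp only [jj]
    exact add_assoc _ _ _

theorem rot_pow_inv_apply (d j : ℕ) (x : QQ (d + 1)) (l : Fin (d + 1)) :
    (((rotP d) ^ j)⁻¹ x) l = x (l - jj d j) := by
  have h := rot_pow_apply d j (((rotP d) ^ j)⁻¹ x) (l - jj d j)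
  rw [perm_apply_inv, sub_add_cancel] at h
  exact h.symm

theorem conj_mem (d j : ℕ) {u : GG (d + 1)} (hu : u ∈ HS (0 : Fin (d + 1))) :
    ((rotP d) ^ j)⁻¹ * u * (rotP d) ^ j ∈ HS (jj d j) := by
  rw [mem_HS] at *
  intro x l hl
  simp only [Equiv.Perm.mul_apply]
  rw [rot_pow_inv_apply, hu _ _ (sub_ne_zero.2 hl), rot_pow_apply, sub_add_cancel]

theorem conj_mem' (d j : ℕ) {v : GG (d + 1)} (hv : v ∈ HS (jj d j)) :
    (rotP d) ^ j * v * ((rotP d) ^ j)⁻¹ ∈ HS (0 : Fin (d + 1)) := by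
  rw [mem_HS] at *
  intro x l hl
  simp only [Equiv.Perm.mul_apply]
  rw [rot_pow_apply, hv _ _ (by simpa using hl), rot_pow_inv_apply, add_sub_cancel_right]

theorem PP_conj (d j : ℕ) (α : GG (d + 1) → ℝ) (η : GG (d + 1)) :
    PP (jj d j) α η
      = PP 0 (fun g => α (((rotP d) ^ j)⁻¹ * g)) ((rotP d) ^ j * η) := by
  unfold PP
  rw [card_HS_eq, card_HS_eq]
  congr 1
  refine Finset.sum_nbij' (fun v => (rotP d) ^ j * v * ((rotP d) ^ j)⁻¹)
    (fun u => ((rotP d) ^ j)⁻¹ * u * (rotP d) ^ j) ?_ ?_ ?_ ?_ ?_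
  · intro v hv; exact conj_mem' d j hv
  · intro u hu; exact conj_mem d j hu
  · intro v _; group
  · intro u _; group
  · intro v _
    congr 1
    group

/-- The stages of a sweep starting at time `t`. -/
noncomputable def nuSeq (d t j : ℕ) : GG (d + 1) → ℝ :=
  fun g => beta d (t + j) ((rotP d) ^ j * g)

theorem nu_step (d t j : ℕ) : nuSeq d t (j + 1) = PP (jj d j) (nuSeq d t j) := by
  funext η
  rw [PP_conj]
  have h1 : (fun g => nuSeq d t j (((rotP d) ^ j)⁻¹ * g)) = beta d (t + j) := by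
    funext g
    simp only [nuSeq]
    congr 1
    group
  rw [h1]
  simp only [nuSeq]
  rw [← add_assoc, beta_succ]
  congr 1
  rw [pow_succ']
  group

theorem nu_step' (d t j : ℕ) (hj : j < d + 1) :
    nuSeq d t (j + 1) = PP (⟨j, hj⟩ : Fin (d + 1)) (nuSeq d t j) := by
  rw [nu_step]
  congr 1
  exact Fin.ext (jj_val d j hj)

theorem nu_zero (d t : ℕ) : nuSeq d t 0 = beta d t := by
  funext g
  simp [nuSeq]

theorem nu_hh (d t j : ℕ) : hh (nuSeq d t j) Finset.univ = hh (beta d (t + j)) Finset.univ :=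
  hh_translate _ _

/-- The entropy deficit of the `t`-th convolution power. -/
noncomputable def Dt (d t : ℕ) : ℝ :=
  Real.log ((2 ^ (d + 1)).factorial : ℕ) - hh (beta d t) Finset.univ

/-- The deficit contracts after `d + 1` shuffles. -/
theorem Dt_contract {c0 : ℝ} {κ : ℕ → ℝ} (hκpos : ∀ s, 0 < κ s) (hκ : ∀ s, BlockProp s (κ s))
    (hc0 : ∀ k, c0 ≤ ∏ s ∈ Finset.range k, κ s) (d t : ℕ) :
    Dt d (t + (d + 1)) ≤ (1 - c0) * Dt d t := by
  have h := sweep_contract (D := d + 1) (nuSeq d t) (by rw [nu_zero]; exact beta_isLaw d t)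
    (fun i hi => nu_step' d t i hi) hκpos hκ hc0
  rw [nu_zero, nu_hh] at h
  unfold Dt
  nlinarith

theorem Dt_zero_le (d : ℕ) : Dt d 0 ≤ ((2 : ℝ) ^ (d + 1)) * ((d : ℝ) + 1) := by
  classical
  have h0 : hh (beta d 0) Finset.univ = 0 := by
    rw [hh_univ]
    have h : ∀ g, beta d 0 g * Real.log (beta d 0 g) = 0 := by
      intro g
      unfold beta
      show (if Psi' d g = 1 then (1 : ℝ) else 0) * Real.log (if Psi' d g = 1 then (1 : ℝ) else 0) = 0
      split_ifs <;> simp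
    simp [h]
  unfold Dt
  rw [h0, sub_zero]
  set n := 2 ^ (d + 1) with hn
  have hnpos : 0 < n := by positivity
  have h1 : ((n.factorial : ℕ) : ℝ) ≤ ((n : ℝ) ^ n) := by
    exact_mod_cast Nat.factorial_le_pow n
  have h2 : Real.log ((n.factorial : ℕ) : ℝ) ≤ Real.log ((n : ℝ) ^ n) :=
    Real.log_le_log (by exact_mod_cast Nat.factorial_pos n) h1
  have h3 : Real.log ((n : ℝ) ^ n) = n * Real.log n := Real.log_pow _ _
  have h4 : Real.log (n : ℝ) = ((d : ℝ) + 1) * Real.log 2 := by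
    rw [hn]
    push_cast
    rw [Real.log_pow]
    push_cast
    ring
  have h5 : Real.log 2 ≤ 1 := by
    have := Real.log_two_lt_d9
    linarith
  have h6 : ((d : ℝ) + 1) * Real.log 2 ≤ (d : ℝ) + 1 := by
    have : (0 : ℝ) ≤ (d : ℝ) + 1 := by positivity
    nlinarith
  have hn2 : (n : ℝ) = (2 : ℝ) ^ (d + 1) := by
    rw [hn]
    push_cast
    ring
  rw [h3, h4] at h2
  refine le_trans h2 ?_
  rw [hn2]
  exact mul_le_mul_of_nonneg_left h6 (by positivity)

/-- Pinsker inequality on the symmetric group. -/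
theorem pinsker_perm {n : ℕ} (b : Equiv.Perm (Fin n) → ℝ) (hbL : IsLaw b) :
    (tv b (unifLaw n)) ^ 2 ≤ Real.log (n.factorial : ℕ) + ∑ g, b g * Real.log (b g) := by
  classical
  have hfac : (0 : ℝ) < (n.factorial : ℕ) := by exact_mod_cast Nat.factorial_pos n
  have hU : IsLaw (unifLaw n) := by
    constructor
    · intro g
      unfold unifLaw
      positivity
    · unfold unifLaw
      simp only [Finset.sum_const, Finset.card_univ, Fintype.card_perm, Fintype.card_fin, nsmul_eq_mul]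
      field_simp
  have hU0 : ∀ g : Equiv.Perm (Fin n), unifLaw n g ≠ 0 := by
    intro g
    unfold unifLaw
    positivity
  have hPin := l1_sq_le b (unifLaw n) hbL hU (fun g hg => absurd hg (hU0 g))
  have hlog : ∀ g : Equiv.Perm (Fin n), Real.log (unifLaw n g) = - Real.log (n.factorial : ℕ) := by
    intro g
    unfold unifLaw
    rw [Real.log_div one_ne_zero hfac.ne', Real.log_one, zero_sub]
  have hK : ∑ g, b g * (Real.log (b g) - Real.log (unifLaw n g))
      = Real.log (n.factorial : ℕ) + ∑ g, b g * Real.log (b g) := by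
    simp_rw [hlog]
    have h3 : ∀ g, b g * (Real.log (b g) - - Real.log (n.factorial : ℕ))
        = b g * Real.log (b g) + b g * Real.log (n.factorial : ℕ) := by
      intro g
      ring
    simp_rw [h3]
    rw [Finset.sum_add_distrib, ← Finset.sum_mul, hbL.2, one_mul]
    ring
  rw [hK] at hPin
  unfold tv
  have : ((1 : ℝ) / 2 * ∑ g, |b g - unifLaw n g|) ^ 2
      = (∑ g, |b g - unifLaw n g|) ^ 2 / 4 := by ring
  rw [this]
  linarith

/-- The total variation distance is bounded by the entropy deficit. -/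
theorem tv_sq_le (d t : ℕ) :
    (tv (convPow (thorpLaw (2 ^ d)) t) (unifLaw (2 * 2 ^ d))) ^ 2 ≤ Dt d t := by
  have hL := beta_isLaw d t
  have hsum : ∀ F : Equiv.Perm (Fin (2 * 2 ^ d)) → ℝ, ∑ g : GG (d + 1), F (Psi' d g) = ∑ g, F g := by
    intro F
    exact Equiv.sum_comp (Psi' d).toEquiv F
  have hbL : IsLaw (convPow (thorpLaw (2 ^ d)) t) := by
    constructor
    · intro g
      have := hL.1 ((Psi' d).symm g)
      unfold beta at this
      rw [MulEquiv.apply_symm_apply] at this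
      exact this
    · rw [← hsum]
      exact hL.2
  have h1 := pinsker_perm _ hbL
  refine le_trans h1 (le_of_eq ?_)
  unfold Dt
  rw [hh_univ, ← hsum (fun g => convPow (thorpLaw (2 ^ d)) t g * Real.log (convPow (thorpLaw (2 ^ d)) t g))]
  have h4 : 2 ^ (d + 1) = 2 * 2 ^ d := by rw [pow_succ]; ring
  rw [h4]
  unfold beta
  ring

theorem Dt_iter {c0 : ℝ} {κ : ℕ → ℝ} (hκpos : ∀ s, 0 < κ s) (hκ : ∀ s, BlockProp s (κ s))
    (hc0 : ∀ k, c0 ≤ ∏ s ∈ Finset.range k, κ s) (hc1 : c0 ≤ 1) (d s : ℕ) :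
    Dt d (s * (d + 1)) ≤ (1 - c0) ^ s * Dt d 0 := by
  induction s with
  | zero => simp
  | succ s ih =>
    have h := Dt_contract hκpos hκ hc0 d (s * (d + 1))
    have h1 : (s + 1) * (d + 1) = s * (d + 1) + (d + 1) := by ring
    rw [h1]
    refine le_trans h ?_
    rw [pow_succ]
    have h2 : 0 ≤ 1 - c0 := by linarith
    calc (1 - c0) * Dt d (s * (d + 1)) ≤ (1 - c0) * ((1 - c0) ^ s * Dt d 0) :=
          mul_le_mul_of_nonneg_left ih h2
      _ = _ := by ring

/-- The upper bound for the mixing time of the Thorp shuffle. -/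
theorem thorp_main : ∃ C : ℝ, ∀ d : ℕ,
    tv (convPow (thorpLaw (2 ^ d)) (tmix (2 ^ d))) (unifLaw (2 * 2 ^ d)) ≤ 1 / 4 ∧
      (tmix (2 ^ d) : ℝ) ≤ C * ((d : ℝ) + 1) ^ 2 := by
  obtain ⟨κ, hκpos, hκle, hκ, c0, hc0pos, hc0⟩ := exists_kappa
  have hc1 : c0 ≤ 1 := by
    have := hc0 0
    simpa using this
  have hr0 : 0 ≤ 1 - c0 := by linarith
  have hr1 : 1 - c0 < 1 := by linarith
  obtain ⟨K, hK⟩ := exists_pow_lt_of_lt_one (show (0 : ℝ) < 1 / 2 by norm_num) hr1
  refine ⟨(K : ℝ) * 6, fun d => ?_⟩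
  set D := d + 1 with hD
  set s := K * (2 * D + 4) with hs
  set T := s * D with hT
  have hbound : Dt d T ≤ 1 / 16 := by
    have h1 := Dt_iter hκpos hκ hc0 hc1 d s
    have h2 := Dt_zero_le d
    have h3 : (1 - c0) ^ s ≤ (1 / 2 : ℝ) ^ (2 * D + 4) := by
      rw [hs, pow_mul]
      exact pow_le_pow_left₀ (pow_nonneg hr0 K) hK.le _
    have hDpos : (0 : ℝ) ≤ (2 : ℝ) ^ D * (D : ℝ) := by positivity
    have h4 : ((2 : ℝ) ^ (d + 1)) * ((d : ℝ) + 1) = (2 : ℝ) ^ D * (D : ℝ) := by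
      rw [hD]
      push_cast
      ring
    rw [h4] at h2
    have h5 : (1 - c0) ^ s * Dt d 0 ≤ (1 - c0) ^ s * ((2 : ℝ) ^ D * (D : ℝ)) :=
      mul_le_mul_of_nonneg_left h2 (pow_nonneg hr0 s)
    have h6 : (1 - c0) ^ s * ((2 : ℝ) ^ D * (D : ℝ)) ≤ (1 / 2 : ℝ) ^ (2 * D + 4) * ((2 : ℝ) ^ D * (D : ℝ)) :=
      mul_le_mul_of_nonneg_right h3 hDpos
    have h7 : (D : ℝ) ≤ (2 : ℝ) ^ D := by
      exact_mod_cast (Nat.lt_two_pow_self (n := D)).le
    have h8 : (1 / 2 : ℝ) ^ (2 * D + 4) * ((2 : ℝ) ^ D * (D : ℝ)) ≤ 1 / 16 := by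
      have h9 : (1 / 2 : ℝ) ^ (2 * D + 4) * ((2 : ℝ) ^ D * (2 : ℝ) ^ D) = 1 / 16 := by
        rw [pow_add, pow_mul]
        have : ((1 / 2 : ℝ) ^ 2) ^ D * ((2 : ℝ) ^ D * (2 : ℝ) ^ D) = 1 := by
          rw [← mul_pow, ← mul_pow]
          norm_num
        calc _ = ((1 / 2 : ℝ) ^ 2) ^ D * ((2 : ℝ) ^ D * (2 : ℝ) ^ D) * (1 / 2 : ℝ) ^ 4 := by ring
          _ = _ := by rw [this]; norm_num
      rw [← h9]
      apply mul_le_mul_of_nonneg_left _ (by positivity)
      exact mul_le_mul_of_nonneg_left h7 (by positivity)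
    linarith
  have hT1 : tv (convPow (thorpLaw (2 ^ d)) T) (unifLaw (2 * 2 ^ d)) ≤ 1 / 4 := by
    have h1 := tv_sq_le d T
    have h2 : (tv (convPow (thorpLaw (2 ^ d)) T) (unifLaw (2 * 2 ^ d))) ^ 2 ≤ (1 / 4 : ℝ) ^ 2 := by
      norm_num
      norm_num at hbound
      linarith
    by_contra hcon
    push Not at hcon
    nlinarith
  have hmem : T ∈ {t : ℕ | tv (convPow (thorpLaw (2 ^ d)) t) (unifLaw (2 * 2 ^ d)) ≤ 1 / 4} := hT1
  refine ⟨Nat.sInf_mem ⟨T, hmem⟩, ?_⟩
  have hle : tmix (2 ^ d) ≤ T := Nat.sInf_le hmem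
  have hle' : (tmix (2 ^ d) : ℝ) ≤ (T : ℝ) := by exact_mod_cast hle
  refine le_trans hle' ?_
  have hDr : ((D : ℕ) : ℝ) = (d : ℝ) + 1 := by
    rw [hD]
    push_cast
    ring
  have hD1 : (1 : ℝ) ≤ (D : ℝ) := by
    rw [hDr]
    have : (0 : ℝ) ≤ d := Nat.cast_nonneg d
    linarith
  have hTr : (T : ℝ) = (K : ℝ) * (2 * (D : ℝ) + 4) * (D : ℝ) := by
    rw [hT, hs]
    push_cast
    ring
  rw [hTr, ← hDr]
  have hK0 : (0 : ℝ) ≤ K := Nat.cast_nonneg K
  have h10 : (2 * (D : ℝ) + 4) * (D : ℝ) ≤ 6 * (D : ℝ) ^ 2 := by nlinarith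
  calc (K : ℝ) * (2 * (D : ℝ) + 4) * (D : ℝ) = (K : ℝ) * ((2 * (D : ℝ) + 4) * (D : ℝ)) := by ring
    _ ≤ (K : ℝ) * (6 * (D : ℝ) ^ 2) := mul_le_mul_of_nonneg_left h10 hK0
    _ = _ := by ring

end Vale.Agent.Lib.P162
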